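import Crest.Agent.R175.Mod.PDG

/-! # R175/Mod/Dim.  Dimensions of subquotients and of cohomology. -/

set_option autoImplicit false
noncomputable section
open Classical

namespace Crest.Agent.R175.Mod

section
variable {A C D : Type} [AddCommGroup A] [Module K A] [Finite A] [AddCommGroup C] [Module K C] [Finite C]
  [AddCommGroup D] [Module K D] [Finite D]

/-- dimension of the subquotient `Z / B` -/
def sq {A : Type} [AddCommGroup A] [Module K A] (Z B : Submodule K A) : ℕ := Module.finrank K Z - Module.finrank K B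

omit [Finite C] in
theorem dima_map_add (U : Submodule K A) (g : A →ₗ[K] C) :
    Module.finrank K (U.map g) + Module.finrank K ↥(U ⊓ LinearMap.ker g) = Module.finrank K U := by
  have := Module.Finite.of_finite (R := K) (M := A)
  have h := LinearMap.finrank_range_add_finrank_ker (g.domRestrict U)
  rw [LinearMap.range_domRestrict, LinearMap.ker_domRestrict] at h
  rw [← h, ← (Submodule.comapSubtypeEquivOfLe (inf_le_left : U ⊓ LinearMap.ker g ≤ U)).finrank_eq,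
    Submodule.comap_inf, Submodule.comap_subtype_self, top_inf_eq]

theorem dima_sq_eq {Z B : Submodule K A} (h : B ≤ Z) : sq Z B = Module.finrank K (Z.map B.mkQ) := by
  have h1 := dima_map_add Z B.mkQ
  rw [Submodule.ker_mkQ, inf_eq_right.2 h] at h1
  unfold sq
  omega

theorem dima_mono {Z B : Submodule K A} (h : B ≤ Z) : Module.finrank K B ≤ Module.finrank K Z :=
  have := Module.Finite.of_finite (R := K) (M := A)
  Submodule.finrank_mono h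

theorem dima_rel {Z B : Submodule K A} {Z' B' : Submodule K C} (hB : B ≤ Z) (hB' : B' ≤ Z') (R : Submodule K (A × C))
    (hR : ∀ p ∈ R, p.1 ∈ Z ∧ p.2 ∈ Z') (sur : ∀ w ∈ Z', ∃ v, (v, w) ∈ R) :
    sq Z' B' + Module.finrank K ↥(R ⊓ B'.comap (LinearMap.snd K A C)) ≤
      sq Z B + Module.finrank K ↥(R ⊓ B.comap (LinearMap.fst K A C)) := by
  have : Finite (A ⧸ B) := Finite.of_surjective _ B.mkQ_surjective
  have : Finite (C ⧸ B') := Finite.of_surjective _ B'.mkQ_surjective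
  have h1 := dima_map_add R (B.mkQ ∘ₗ LinearMap.fst K A C)
  have h2 := dima_map_add R (B'.mkQ ∘ₗ LinearMap.snd K A C)
  rw [LinearMap.ker_comp, Submodule.ker_mkQ] at h1 h2
  have h3 : R.map (B.mkQ ∘ₗ LinearMap.fst K A C) ≤ Z.map B.mkQ := by
    rintro _ ⟨p, hp, rfl⟩
    exact ⟨p.1, (hR p hp).1, rfl⟩
  have h4 : Z'.map B'.mkQ ≤ R.map (B'.mkQ ∘ₗ LinearMap.snd K A C) := by
    rintro _ ⟨w, hw, rfl⟩
    obtain ⟨v, hv⟩ := sur w hw
    exact ⟨(v, w), hv, rfl⟩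
  have h5 := dima_mono h3
  have h6 := dima_mono h4
  rw [dima_sq_eq hB, dima_sq_eq hB']
  omega

/-- leaf Dim-a -/
theorem sq_eq_zero {Z B : Submodule K A} (h : B ≤ Z) : sq Z B = 0 ↔ ∀ v ∈ Z, v ∈ B := by
  have := Module.Finite.of_finite (R := K) (M := A)
  unfold sq
  rw [Nat.sub_eq_zero_iff_le]
  exact ⟨fun h1 => (Submodule.eq_of_le_of_finrank_le h h1).ge, fun h1 => Submodule.finrank_mono h1⟩

/-- leaf Dim-a.  A linear relation whose inverse... `Z/B ⊇ dom R → Z'/B'` is a well defined surjection.  (Rank-nullity for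
`R → Z'/B'` and `R → Z/B`: the kernel of the second is contained in the kernel of the first.) -/
theorem sq_le_of_rel {Z B : Submodule K A} {Z' B' : Submodule K C} (hB : B ≤ Z) (hB' : B' ≤ Z') (R : Submodule K (A × C))
    (hR : ∀ p ∈ R, p.1 ∈ Z ∧ p.2 ∈ Z') (fn : ∀ p ∈ R, p.1 ∈ B → p.2 ∈ B') (sur : ∀ w ∈ Z', ∃ v, (v, w) ∈ R) :
    sq Z' B' ≤ sq Z B := by
  have h1 := dima_rel hB hB' R hR sur
  have h2 : R ⊓ B.comap (LinearMap.fst K A C) ≤ R ⊓ B'.comap (LinearMap.snd K A C) :=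
    fun p hp => ⟨hp.1, fn p hp.1 hp.2⟩
  have h3 := dima_mono h2
  omega

/-- leaf Dim-a.  Equality of dimensions makes the surjection injective. -/
theorem inj_of_rel {Z B : Submodule K A} {Z' B' : Submodule K C} (hB : B ≤ Z) (hB' : B' ≤ Z') (R : Submodule K (A × C))
    (hR : ∀ p ∈ R, p.1 ∈ Z ∧ p.2 ∈ Z') (fn : ∀ p ∈ R, p.1 ∈ B → p.2 ∈ B') (sur : ∀ w ∈ Z', ∃ v, (v, w) ∈ R)
    (heq : sq Z B ≤ sq Z' B') : ∀ p ∈ R, p.2 ∈ B' → p.1 ∈ B := by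
  have := Module.Finite.of_finite (R := K) (M := A × C)
  have h1 := dima_rel hB hB' R hR sur
  have h2 : R ⊓ B.comap (LinearMap.fst K A C) ≤ R ⊓ B'.comap (LinearMap.snd K A C) :=
    fun p hp => ⟨hp.1, fn p hp.1 hp.2⟩
  have h3 := Submodule.eq_of_le_of_finrank_le h2 (by omega)
  intro p hp hp'
  exact (h3.ge (⟨hp, hp'⟩ : p ∈ R ⊓ B'.comap (LinearMap.snd K A C))).2

/-- leaf Dim-a.  `Z₁/B₁ → Z₂/B₂ → Z₃/B₃` exact in the middle. -/
theorem sq_mid {Z₁ B₁ : Submodule K A} {Z₂ B₂ : Submodule K C} {Z₃ B₃ : Submodule K D} (h₁ : B₁ ≤ Z₁) (h₂ : B₂ ≤ Z₂) (h₃ : B₃ ≤ Z₃)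
    (φ : A →ₗ[K] C) (ψ : C →ₗ[K] D) (φZ : ∀ v ∈ Z₁, φ v ∈ Z₂) (φB : ∀ v ∈ B₁, φ v ∈ B₂) (ψZ : ∀ v ∈ Z₂, ψ v ∈ Z₃)
    (ψB : ∀ v ∈ B₂, ψ v ∈ B₃) (ex : ∀ w ∈ Z₂, ψ w ∈ B₃ → ∃ v ∈ Z₁, φ v + w ∈ B₂) :
    sq Z₂ B₂ ≤ sq Z₁ B₁ + sq Z₃ B₃ ∧ (sq Z₁ B₁ + sq Z₃ B₃ ≤ sq Z₂ B₂ → ∀ v ∈ Z₁, φ v ∈ B₂ → v ∈ B₁) := by
  have : Finite (D ⧸ B₃) := Finite.of_surjective _ B₃.mkQ_surjective
  have a1 := dima_map_add Z₂ (B₃.mkQ ∘ₗ ψ)
  rw [LinearMap.ker_comp, Submodule.ker_mkQ] at a1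
  have a2 : Z₂.map (B₃.mkQ ∘ₗ ψ) ≤ Z₃.map B₃.mkQ := by
    rintro _ ⟨p, hp, rfl⟩
    exact ⟨ψ p, ψZ p hp, rfl⟩
  have a3 := dima_mono a2
  rw [← dima_sq_eq h₃] at a3
  have a4 : B₂ ≤ Z₂ ⊓ B₃.comap ψ := fun v hv => ⟨h₂ hv, ψB v hv⟩
  have a5 := dima_mono a4
  let R : Submodule K (A × C) := Z₁.prod (Z₂ ⊓ B₃.comap ψ) ⊓ B₂.comap (φ.coprod LinearMap.id)
  have r1 : ∀ p ∈ R, p.1 ∈ Z₁ ∧ p.2 ∈ Z₂ ⊓ B₃.comap ψ := fun p hp => hp.1
  have r2 : ∀ p ∈ R, p.1 ∈ B₁ → p.2 ∈ B₂ := fun p hp h =>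
    (B₂.add_mem_iff_right (φB _ h)).1 (show φ p.1 + p.2 ∈ B₂ from hp.2)
  have r3 : ∀ w ∈ Z₂ ⊓ B₃.comap ψ, ∃ v, (v, w) ∈ R := fun w hw => by
    obtain ⟨v, hv, hv'⟩ := ex w hw.1 hw.2
    exact ⟨v, ⟨hv, hw⟩, hv'⟩
  have a6 := sq_le_of_rel h₁ a4 R r1 r2 r3
  have e1 : sq (Z₂ ⊓ B₃.comap ψ) B₂ = Module.finrank K ↥(Z₂ ⊓ B₃.comap ψ) - Module.finrank K B₂ := rfl
  have e2 : sq Z₂ B₂ = Module.finrank K Z₂ - Module.finrank K B₂ := rfl
  refine ⟨by omega, fun h v hv hv' => ?_⟩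
  refine inj_of_rel h₁ a4 R r1 r2 r3 (by omega) (v, 0) ⟨⟨hv, zero_mem _⟩, ?_⟩ (zero_mem _)
  simpa using hv'

theorem dima_pi {E : Type} [Fintype E] (Z : E → Submodule K A) :
    Module.finrank K (Submodule.pi Set.univ Z) = ∑ e, Module.finrank K (Z e) := by
  have := Module.Finite.of_finite (R := K) (M := A)
  let f : Submodule.pi Set.univ Z ≃ₗ[K] ∀ e, Z e :=
    { toFun := fun x e => ⟨x.1 e, x.2 e trivial⟩
      invFun := fun x => ⟨fun e => x e, fun e _ => (x e).2⟩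
      map_add' := fun _ _ => rfl
      map_smul' := fun _ _ => rfl
      left_inv := fun _ => rfl
      right_inv := fun _ => rfl }
  rw [f.finrank_eq, Module.finrank_pi_fintype]

/-- leaf Dim-a.  Products. -/
theorem sq_pi {E : Type} [Fintype E] {Z B : E → Submodule K A} (h : ∀ e, B e ≤ Z e) :
    sq (Submodule.pi Set.univ Z) (Submodule.pi Set.univ B) = ∑ e, sq (Z e) (B e) := by
  unfold sq
  rw [dima_pi, dima_pi, Finset.sum_tsub_distrib _ fun e _ => dima_mono (h e)]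

end

variable {I E : Type} [Fintype E] {Γ : Gr I E}

/-- dimension of the cohomology at a label -/
def PDG.hd (X : PDG Γ) (i : I) (n a : ℤ) : ℕ := sq (X.Z i n a) (X.B i n a)

theorem PDG.hd_eq_zero (X : PDG Γ) (i : I) (n a : ℤ) : X.hd i n a = 0 ↔ X.Ac i n a := sq_eq_zero (X.B_le_Z i n a)

/-- the relation `{(v, w) : v ∈ Z, w ∈ Z, f v + w ∈ B}` -/
def homRel {X Y : PDG Γ} (φ : Hom X Y) (i : I) (n a : ℤ) : Submodule K (X.V × Y.V) where
  carrier := {p | p.1 ∈ X.Z i n a ∧ p.2 ∈ Y.Z i n a ∧ φ.f i n a p.1 + p.2 ∈ Y.B i n a}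
  add_mem' {p q} hp hq := ⟨add_mem hp.1 hq.1, add_mem hp.2.1 hq.2.1, by
    have := add_mem hp.2.2 hq.2.2
    rwa [Prod.fst_add, Prod.snd_add, map_add, add_add_add_comm]⟩
  zero_mem' := ⟨zero_mem _, zero_mem _, by
    rw [Prod.fst_zero, Prod.snd_zero, map_zero, add_zero]; exact zero_mem _⟩
  smul_mem' c p hp := ⟨Submodule.smul_mem _ c hp.1, Submodule.smul_mem _ c hp.2.1, by
    have := Submodule.smul_mem _ c hp.2.2
    rwa [Prod.smul_fst, Prod.smul_snd, map_smul, ← smul_add]⟩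

/-- the same relation, flipped -/
def homRel' {X Y : PDG Γ} (φ : Hom X Y) (i : I) (n a : ℤ) : Submodule K (Y.V × X.V) where
  carrier := {p | p.2 ∈ X.Z i n a ∧ p.1 ∈ Y.Z i n a ∧ φ.f i n a p.2 + p.1 ∈ Y.B i n a}
  add_mem' {p q} hp hq := ⟨add_mem hp.1 hq.1, add_mem hp.2.1 hq.2.1, by
    have := add_mem hp.2.2 hq.2.2
    rwa [Prod.fst_add, Prod.snd_add, map_add, add_add_add_comm]⟩
  zero_mem' := ⟨zero_mem _, zero_mem _, by
    rw [Prod.fst_zero, Prod.snd_zero, map_zero, add_zero]; exact zero_mem _⟩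
  smul_mem' c p hp := ⟨Submodule.smul_mem _ c hp.1, Submodule.smul_mem _ c hp.2.1, by
    have := Submodule.smul_mem _ c hp.2.2
    rwa [Prod.smul_fst, Prod.smul_snd, map_smul, ← smul_add]⟩

/-- leaf Dim-b.  `sq_le_of_rel` with `R = {(v, w) : v ∈ Z, w ∈ Z, f v + w ∈ B}` -/
theorem hd_le_of_surAt {X Y : PDG Γ} (φ : Hom X Y) {i : I} {n a : ℤ} (h : SurAt φ.f i n a) : Y.hd i n a ≤ X.hd i n a := by
  refine sq_le_of_rel (X.B_le_Z i n a) (Y.B_le_Z i n a) (homRel φ i n a) (fun p hp => ⟨hp.1, hp.2.1⟩) (fun p hp hb => ?_)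
    (fun w hw => ?_)
  · have := add_mem (φ.map_B hb) hp.2.2
    rwa [add_add_self] at this
  · obtain ⟨v, hv, hv'⟩ := h w hw
    exact ⟨v, hv, hw, hv'⟩

/-- leaf Dim-b.  The same relation, flipped -/
theorem hd_le_of_injAt {X Y : PDG Γ} (φ : Hom X Y) {i : I} {n a : ℤ} (h : InjAt φ.f i n a) : X.hd i n a ≤ Y.hd i n a := by
  refine sq_le_of_rel (Y.B_le_Z i n a) (X.B_le_Z i n a) (homRel' φ i n a) (fun p hp => ⟨hp.2.1, hp.1⟩) (fun p hp hb => ?_)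
    (fun v hv => ?_)
  · refine h _ hp.1 ?_
    have := add_mem hp.2.2 hb
    rwa [add_assoc, add_self', add_zero] at this
  · exact ⟨φ.f i n a v, hv, φ.map_Z hv, by
      show φ.f i n a v + φ.f i n a v ∈ _
      rw [add_self']; exact zero_mem _⟩

theorem hd_eq_of_qiat {X Y : PDG Γ} (φ : Hom X Y) {i : I} {a : ℤ} (h : QIat φ.f i a) (n : ℤ) : X.hd i n a = Y.hd i n a :=
  le_antisymm (hd_le_of_injAt φ (h n).1) (hd_le_of_surAt φ (h n).2)

namespace Obj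

/-- dimension of the cohomology at a label -/
def hd (x : Obj Γ) (i : I) (n a : ℤ) : ℕ :=
  Quot.lift (fun X : PDG Γ => X.hd i n a) (fun _ _ ⟨φ, h⟩ => hd_eq_of_qiat φ (h i a) n) x

/-- no cohomology at a label -/
def Ac (x : Obj Γ) (i : I) (n a : ℤ) : Prop := x.hd i n a = 0

/-- total dimension -/
def h (x : Obj Γ) (n : ℤ) (i : I) : ℕ := ∑ᶠ a, x.hd i n a

@[simp] theorem hd_cl (X : PDG Γ) (i : I) (n a : ℤ) : X.cl.hd i n a = X.hd i n a := rfl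

theorem ac_cl (X : PDG Γ) (i : I) (n a : ℤ) : X.cl.Ac i n a ↔ X.Ac i n a := X.hd_eq_zero i n a

/-- leaf Dim-b -/
theorem exists_bd (x : Obj Γ) : ∃ N : ℤ, ∀ i n a, N < |n| ∨ N < |a| → x.Ac i n a := by
  obtain ⟨X, rfl⟩ := Quot.exists_rep x
  obtain ⟨N, hN⟩ := X.bdd
  refine ⟨N, fun i n a h => (ac_cl X i n a).2 fun v hv => ?_⟩
  rw [hN i n a v hv.1 h]
  exact zero_mem _

/-- leaf Dim-b -/
theorem hd_fin (x : Obj Γ) (i : I) (n : ℤ) : (Function.support fun a => x.hd i n a).Finite := by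
  obtain ⟨N, hN⟩ := x.exists_bd
  refine (Set.finite_Icc (-N) N).subset fun a ha => ?_
  by_contra hc
  refine ha (hN i n a (Or.inr ?_))
  rw [Set.mem_Icc, ← abs_le] at hc
  exact lt_of_not_ge hc

/-- leaf Dim-b -/
theorem h_eq_zero (x : Obj Γ) (n : ℤ) (i : I) : x.h n i = 0 ↔ ∀ a, x.Ac i n a := by
  unfold h
  rw [finsum_eq_sum _ (x.hd_fin i n), Finset.sum_eq_zero_iff]
  refine ⟨fun H a => ?_, fun H a _ => H a⟩
  by_contra hc
  exact hc (H a ((Set.Finite.mem_toFinset _).2 hc))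

/-- leaf Dim-b.  The total dimension as a finite sum, with a shift. -/
theorem h_eq_sum (x : Obj Γ) (c : ℤ) : ∃ N : ℤ, ∀ M, N ≤ M → ∀ n i, x.h n i = ∑ a ∈ Finset.Icc (-M) M, x.hd i n (a + c) := by
  obtain ⟨N, hN⟩ := x.exists_bd
  refine ⟨N + |c|, fun M hM n i => ?_⟩
  have h1 : x.h n i = ∑ᶠ a, x.hd i n (a + c) := (finsum_comp_equiv (Equiv.addRight c) (f := fun a => x.hd i n a)).symm
  rw [h1]
  refine finsum_eq_sum_of_support_subset _ fun a ha => ?_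
  by_contra hc
  refine ha (hN i n (a + c) (Or.inr ?_))
  rw [Finset.coe_Icc, Set.mem_Icc, ← abs_le] at hc
  have h2 : |a| ≤ |a + c| + |c| := by
    have := abs_sub (a + c) c
    rwa [add_sub_cancel_right] at this
  omega

/-- leaf Dim-b -/
theorem h_le {x y : Obj Γ} {n n' : ℤ} {i j : I} (h : ∀ a, x.hd i n a ≤ y.hd j n' a) : x.h n i ≤ y.h n' j := by
  exact finsum_le_finsum' (x.hd_fin i n) (y.hd_fin j n') h

/-- leaf Dim-b -/
theorem hd_le_of_h_le {x y : Obj Γ} {n n' : ℤ} {i j : I} (h : ∀ a, x.hd i n a ≤ y.hd j n' a) (h' : y.h n' j ≤ x.h n i) (a : ℤ) :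
    y.hd j n' a ≤ x.hd i n a := by
  obtain ⟨N, hN⟩ := x.h_eq_sum 0
  obtain ⟨N', hN'⟩ := y.h_eq_sum 0
  have hM : a ∈ Finset.Icc (-(max (max N N') |a|)) (max (max N N') |a|) := by
    rw [Finset.mem_Icc, ← abs_le]; exact le_max_right _ _
  rw [hN _ ((le_max_left N N').trans (le_max_left _ |a|)), hN' _ ((le_max_right N N').trans (le_max_left _ |a|))] at h'
  simp only [add_zero] at h'
  by_contra hc
  exact absurd h' (not_le.2 (Finset.sum_lt_sum (fun b _ => h b) ⟨a, hM, lt_of_not_ge hc⟩))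

end Obj

end Crest.Agent.R175.Mod
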