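import Crest.Agent.R175.Mod.Fun
import Crest.Agent.R175.Mod.Dim

/-! # R175/Mod/Act (owner helper48).  The moves preserve quasi-isomorphisms and are inverse to each other; the action on classes. -/

set_option autoImplicit false
noncomputable section
open Classical

namespace Crest.Agent.R175.Mod

theorem of_one_smul {V : Type*} [AddCommGroup V] [Module K V] {v w : V} (h : (1 : K) • v = (1 : K) • w) : v = w := by
  rwa [one_smul, one_smul] at h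

/-- closes identities between sums in an `F_2`-space; use `linear_combination (norm := c2) h` for hypotheses -/
macro "c2" : tactic => `(tactic| (refine of_one_smul ?_; match_scalars <;> first | rfl | decide))

variable {I E : Type} [Fintype E] {Γ : Gr I E} {X Y : DG Γ}

namespace Hom

theorem coneB (φ : Hom X.p Y.p) {s : I} {n a : ℤ} (h : ∀ e, Γ.src e = s → QIat φ.f (Γ.tgt e) a) {b : E → X.V} {c : E → Y.V}
    (hb : b ∈ X.degB s (n + 1) a) (hc : c ∈ Y.degB s n a) (h1 : X.dB b = 0) (h2 : φ.fB (n + 1) a b = Y.dB c) :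
    ∃ b' ∈ X.degB s n a, ∃ c' ∈ Y.degB s (n - 1) a, b = X.dB b' ∧ c = φ.fB n a b' + Y.dB c' := by
  rw [DG.mem_degB] at hb hc
  have : ∀ e, ∃ (u : X.V) (y : Y.V), (Γ.src e = s → u ∈ X.deg (Γ.tgt e) n a ∧ y ∈ Y.deg (Γ.tgt e) (n - 1) a) ∧
      (Γ.src e ≠ s → u = 0 ∧ y = 0) ∧ b e = X.d (Γ.tgt e) u ∧ c e = φ.f (Γ.tgt e) n a u + Y.d (Γ.tgt e) y := by
    intro e
    by_cases he : Γ.src e = s
    · obtain ⟨u, hu, y, hy, h3, h4⟩ := φ.cone (h e he (n + 1)).1 (h e he n).2 (b e) (hb.1 e he) (c e) (hc.1 e he)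
        (congrFun h1 e) (congrFun h2 e)
      exact ⟨u, y, fun _ => ⟨hu, hy⟩, fun h' => absurd he h', h3, h4⟩
    · exact ⟨0, 0, fun h' => absurd h' he, fun _ => ⟨rfl, rfl⟩, by rw [map_zero, hb.2 e he], by simp [hc.2 e he]⟩
  choose u y h3 h4 h5 h6 using this
  exact ⟨u, X.mem_degB.2 ⟨fun e he => (h3 e he).1, fun e he => (h4 e he).1⟩, y,
    Y.mem_degB.2 ⟨fun e he => (h3 e he).2, fun e he => (h4 e he).2⟩, funext h5, funext h6⟩

theorem cone' (φ : Hom X.p Y.p) {i : I} {a : ℤ} (h : QIat φ.f i a) {n n₁ n₀ : ℤ} {u : X.V} {y : Y.V} (hu : u ∈ X.deg i n₁ a)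
    (hy : y ∈ Y.deg i n a) (h1 : X.d i u = 0) (h2 : φ.f i n₁ a u = Y.d i y) (e1 : n₁ = n + 1 := by omega) (e0 : n₀ = n - 1 := by omega) :
    ∃ u' ∈ X.deg i n a, ∃ y' ∈ Y.deg i n₀ a, u = X.d i u' ∧ y = φ.f i n a u' + Y.d i y' := by
  subst e1 e0
  exact φ.cone (h (n + 1)).1 (h n).2 u hu y hy h1 h2

theorem qiat_T_self (φ : Hom X.p Y.p) (s : Γ.J) {a : ℤ} (h1 : ∀ e, Γ.src e = s → QIat φ.f (Γ.tgt e) (a + 1))
    (h2 : QIat φ.f s (a + 2)) : QIat (φ.T s).f s a := by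
  refine qiat_of_cone fun n => ?_
  rintro ⟨b, v⟩ hu ⟨c, w⟩ hy hd hf
  rw [DG.T_mem_self] at hu hy
  replace hd : X.Td s s (b, v) = 0 := hd
  replace hf : (φ.T s).f s (n + 1) a (b, v) = Y.Td s s (c, w) := hf
  rw [DG.Td_self, Prod.mk_eq_zero] at hd
  rw [DG.Td_self, T_f_self, Prod.mk.injEq, add_sub_cancel_right] at hf
  obtain ⟨b', hb', c', hc', rfl, rfl⟩ := φ.coneB h1 hu.1 hy.1 hd.1 hf.1
  obtain ⟨u', hu', y', hy', h3, h4⟩ := φ.cone' h2 (n := n - 1) (n₁ := n) (n₀ := n - 1 - 1) (u := X.inn s b' + v) (y := Y.inn s c' + w)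
    (add_mem (X.cast (X.inn_mem hb')) (X.cast hu.2)) (add_mem (Y.cast (Y.inn_mem hc')) hy.2)
    (by rw [map_add, X.d_inn]; exact hd.2)
    (by rw [map_add, map_add, Y.d_inn, φ.f_inn hb', hf.2, map_add, add_assoc, add_add_self])
  refine ⟨(b', u'), (X.T_mem_self s).2 ⟨hb', hu'⟩, (c', y'), (Y.T_mem_self s).2 ⟨hc', hy'⟩, ?_, ?_⟩
  · show _ = X.Td s s _
    rw [DG.Td_self, ← h3, add_add_self]
  · show _ = _ + Y.Td s s _
    rw [DG.Td_self, T_f_self, Prod.mk_add_mk, add_left_comm, ← h4, add_add_self]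

theorem qiat_T_ne (φ : Hom X.p Y.p) (s : Γ.J) {i : I} (hi : i ≠ s) {a : ℤ} (h : QIat φ.f i a) : QIat (φ.T s).f i a :=
  (φ.T s).qiat_left (X.η s) (((Y.η s).qiat_comp φ (Y.qiat_η_ne s hi a) h).congr fun n v _ => by
    rw [comp_f, comp_f, X.η_ne s hi, Y.η_ne s hi, φ.T_f_ne s hi]) (X.qiat_η_ne s hi a)

theorem qiat_S_self (φ : Hom X.p Y.p) (s : Γ.J) {a : ℤ} (h1 : ∀ e, Γ.src e = s → QIat φ.f (Γ.tgt e) (a - 1))
    (h2 : QIat φ.f s (a - 2)) : QIat (φ.S s).f s a := by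
  refine qiat_of_cone fun n => ?_
  rintro ⟨b, v⟩ hu ⟨c, w⟩ hy hd hf
  rw [DG.S_mem_self] at hu hy
  replace hd : X.Sd s s (b, v) = 0 := hd
  replace hf : (φ.S s).f s (n + 1) a (b, v) = Y.Sd s s (c, w) := hf
  rw [DG.Sd_self, Prod.mk_eq_zero] at hd
  rw [DG.Sd_self, S_f_self, Prod.mk.injEq] at hf
  obtain ⟨u', hu', y', hy', rfl, rfl⟩ := φ.cone' h2 (n := n + 1) (n₀ := n - 1 + 1) hu.2 hy.2 hd.2 hf.2
  obtain ⟨b', hb', c', hc', h3, h4⟩ := φ.coneB h1 (n := n) (b := X.out s u' + b) (c := Y.out s y' + c)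
    (add_mem (X.castB (X.out_mem hu')) hu.1) (add_mem (Y.castB (Y.out_mem hy')) hy.1)
    (by rw [map_add, X.dB_out, add_comm]; exact hd.1)
    (by rw [map_add, map_add, Y.dB_out, φ.fB_out hu', hf.1, map_add, add_left_comm, add_add_self, add_comm])
  refine ⟨(b', u'), (X.S_mem_self s).2 ⟨hb', hu'⟩, (c', y'), (Y.S_mem_self s).2 ⟨hc', hy'⟩, ?_, ?_⟩
  · show _ = X.Sd s s _
    rw [DG.Sd_self, ← h3, add_comm, add_add_self]
  · show _ = _ + Y.Sd s s _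
    rw [DG.Sd_self, S_f_self, Prod.mk_add_mk, ← add_assoc, ← h4]
    congr 1
    c2

theorem qiat_S_ne (φ : Hom X.p Y.p) (s : Γ.J) {i : I} (hi : i ≠ s) {a : ℤ} (h : QIat φ.f i a) : QIat (φ.S s).f i a :=
  (Y.ε s).qiat_right (φ.S s) ((φ.qiat_comp (X.ε s) h (X.qiat_ε_ne s hi a)).congr fun n v _ => by
    rw [comp_f, comp_f, X.ε_ne s hi, Y.ε_ne s hi, φ.S_f_ne s hi]) (Y.qiat_ε_ne s hi a)

theorem qiat_T (φ : Hom X.p Y.p) (s : Γ.J) (h : ∀ i a, QIat φ.f i a) (i : I) (a : ℤ) : QIat (φ.T s).f i a :=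
  if hi : i = s then hi ▸ φ.qiat_T_self s (fun _ _ => h _ _) (h _ _) else φ.qiat_T_ne s hi (h _ _)

theorem qiat_S (φ : Hom X.p Y.p) (s : Γ.J) (h : ∀ i a, QIat φ.f i a) (i : I) (a : ℤ) : QIat (φ.S s).f i a :=
  if hi : i = s then hi ▸ φ.qiat_S_self s (fun _ _ => h _ _) (h _ _) else φ.qiat_S_ne s hi (h _ _)

end Hom

/-- invariants of `DG`s under strict quasi-isomorphisms are invariants of the class -/
theorem dg_congr {α : Sort*} (F : DG Γ → α) (hF : ∀ (X Y : DG Γ) (φ : Hom X.p Y.p), (∀ i a, QIat φ.f i a) → F X = F Y)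
    (h : X.p.cl = Y.p.cl) : F X = F Y := by
  choose D φ ψ h1 h2 using exists_dg (Γ := Γ)
  have := rel_of_cl_eq (R := fun A B => F (D A) = F (D B)) (fun _ => rfl) (fun _ _ => Eq.symm) (fun _ _ _ => Eq.trans)
    (fun A B χ hχ => hF _ _ ((φ B).comp (χ.comp (ψ A))) fun i a => Hom.qiat_comp _ _ (qiat_of_iso _ _ (h1 B) (h2 B) i a)
      (Hom.qiat_comp _ _ (hχ i a) (qiat_of_iso _ _ (h2 A) (h1 A) i a))) h
  rw [hF X _ (φ X.p) (qiat_of_iso _ _ (h1 _) (h2 _)), this, hF Y _ (φ Y.p) (qiat_of_iso _ _ (h1 _) (h2 _))]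

namespace DG

/-- second components -/
def sB (X : DG Γ) : (E → (E → X.V) × X.V) →ₗ[K] (E → X.V) := LinearMap.pi fun e => LinearMap.snd K _ _ ∘ₗ LinearMap.proj e

/-- `b ↦ (e ↦ (0, b e))` -/
def iB (X : DG Γ) : (E → X.V) →ₗ[K] (E → (E → X.V) × X.V) := LinearMap.pi fun e => LinearMap.inr K _ _ ∘ₗ LinearMap.proj e

@[simp] theorem sB_apply (X : DG Γ) (β : E → (E → X.V) × X.V) (e : E) : X.sB β e = (β e).2 := rfl
@[simp] theorem iB_apply (X : DG Γ) (b : E → X.V) (e : E) : X.iB b e = (0, b e) := rfl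
@[simp] theorem sB_iB (X : DG Γ) (b : E → X.V) : X.sB (X.iB b) = b := rfl

theorem T_memB (X : DG Γ) (s : Γ.J) {n a : ℤ} {β : E → (E → X.V) × X.V} :
    β ∈ (X.T s).degB s n a ↔ ∃ b ∈ X.degB s n a, β = X.iB b := by
  simp only [mem_degB]
  constructor
  · rintro ⟨h1, h2⟩
    refine ⟨X.sB β, ⟨fun e he => ((X.T_mem_ne s (Γ.tgt_ne' he)).1 (h1 e he)).2, fun e he => by simp [h2 e he]⟩, funext fun e => ?_⟩
    by_cases he : Γ.src e = s
    · exact Prod.ext ((X.T_mem_ne s (Γ.tgt_ne' he)).1 (h1 e he)).1 rfl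
    · simp [h2 e he]; rfl
  · rintro ⟨b, ⟨h1, h2⟩, rfl⟩
    exact ⟨fun e he => (X.T_mem_ne s (Γ.tgt_ne' he)).2 ⟨rfl, h1 e he⟩, fun e he => by simp [h2 e he]⟩

theorem S_memB (X : DG Γ) (s : Γ.J) {n a : ℤ} {β : E → (E → X.V) × X.V} :
    β ∈ (X.S s).degB s n a ↔ ∃ b ∈ X.degB s n a, β = X.iB b := by
  simp only [mem_degB]
  constructor
  · rintro ⟨h1, h2⟩
    refine ⟨X.sB β, ⟨fun e he => ((X.S_mem_ne s (Γ.tgt_ne' he)).1 (h1 e he)).2, fun e he => by simp [h2 e he]⟩, funext fun e => ?_⟩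
    by_cases he : Γ.src e = s
    · exact Prod.ext ((X.S_mem_ne s (Γ.tgt_ne' he)).1 (h1 e he)).1 rfl
    · simp [h2 e he]; rfl
  · rintro ⟨b, ⟨h1, h2⟩, rfl⟩
    exact ⟨fun e he => (X.S_mem_ne s (Γ.tgt_ne' he)).2 ⟨rfl, h1 e he⟩, fun e he => by simp [h2 e he]⟩

theorem T_inn (X : DG Γ) (s : Γ.J) (β : E → (E → X.V) × X.V) :
    (X.T s).inn s β = (X.out s (X.inn s (X.sB β)), X.τ s (X.inn s (X.sB β))) := by
  rw [inn_apply, inn_apply, map_sum, map_sum, ← sum_pair]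
  exact Finset.sum_congr rfl fun e he => X.Tx_tgt (by simpa using he) _

theorem T_out (X : DG Γ) (s : Γ.J) {n a : ℤ} {b : E → X.V} (hb : b ∈ X.degB s n a) (v : X.V) : (X.T s).out s (b, v) = X.iB b := by
  ext1 e
  rw [out_apply]
  split_ifs with he
  · exact X.Tx_src he _
  · simp [(X.mem_degB.1 hb).2 e he]; rfl

theorem T_dB (X : DG Γ) (s : Γ.J) {n a : ℤ} {b : E → X.V} (hb : b ∈ X.degB s n a) : (X.T s).dB (X.iB b) = X.iB (X.dB b) := by
  ext1 e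
  by_cases he : Γ.src e = s
  · exact X.Td_ne (Γ.tgt_ne' he) _
  · simp only [dB_apply, iB_apply, (X.mem_degB.1 hb).2 e he, map_zero]
    exact map_zero _

theorem S_dB (X : DG Γ) (s : Γ.J) {n a : ℤ} {b : E → X.V} (hb : b ∈ X.degB s n a) : (X.S s).dB (X.iB b) = X.iB (X.dB b) := by
  ext1 e
  by_cases he : Γ.src e = s
  · exact X.Sd_ne (Γ.tgt_ne' he) _
  · simp only [dB_apply, iB_apply, (X.mem_degB.1 hb).2 e he, map_zero]
    exact map_zero _

theorem S_inn (X : DG Γ) (s : Γ.J) {n a : ℤ} {b : E → X.V} (hb : b ∈ X.degB s n a) : (X.S s).inn s (X.iB b) = (b, 0) := by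
  rw [inn_apply, Finset.sum_congr rfl (g := fun e => (Pi.single e (b e), 0)) fun e he => by
    have := X.Sx_tgt (s := s) (e := Γ.bar e) (by simpa using he) (X.iB b e)
    rwa [Γ.bar_bar] at this, sum_pair, Finset.sum_const_zero]
  congr 1
  ext e
  rw [Finset.sum_apply]
  by_cases he : Γ.src e = s
  · simp [Pi.single_apply, he]
  · simp [Pi.single_apply, he, (X.mem_degB.1 hb).2 e he]

theorem S_out (X : DG Γ) (s : Γ.J) (p : (E → X.V) × X.V) : (X.S s).out s p = X.iB (X.out s (X.ev s p)) := by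
  ext1 e
  rw [out_apply, iB_apply, out_apply]
  split_ifs with he
  · exact X.Sx_src he _
  · rfl

theorem T_ev (X : DG Γ) (s : Γ.J) (p : (E → (E → X.V) × X.V) × (E → X.V) × X.V) :
    (X.T s).ev s p = (X.out s (X.inn s (X.sB p.1) + p.2.2), X.τ s (X.inn s (X.sB p.1) + p.2.2)) := by
  rw [ev_apply, T_inn, map_add, map_add]
  exact congrArg _ (X.Tτ_self s _)

/-- `π : S T X → X` -/
def π (X : DG Γ) (s : Γ.J) : Hom ((X.T s).S s).p X.p where
  f _ _ _ := X.inn s ∘ₗ X.sB ∘ₗ LinearMap.fst K _ _ + LinearMap.snd K _ _ ∘ₗ LinearMap.snd K _ _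
  mem {i n a p} h := by
    show X.inn s (X.sB p.1) + p.2.2 ∈ X.deg i n a
    by_cases hi : i = s
    · subst hi
      rw [S_mem_self, T_mem_self, T_memB] at h
      obtain ⟨⟨b, hb, h1⟩, -, h2⟩ := h
      rw [h1]
      exact add_mem (X.cast (X.inn_mem hb)) (X.cast h2)
    · rw [S_mem_ne _ _ hi, T_mem_ne _ _ hi] at h
      rw [h.1, map_zero, map_zero, zero_add]
      exact h.2.2
  d {i n a p} h := by
    show X.inn s (X.sB ((X.T s).Sd s i p).1) + ((X.T s).Sd s i p).2.2 = X.d i (X.inn s (X.sB p.1) + p.2.2)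
    obtain ⟨β, b, v⟩ := p
    by_cases hi : i = s
    · subst hi
      rw [S_mem_self, T_mem_self, T_memB] at h
      obtain ⟨⟨c, hc, rfl⟩, h1, h2⟩ := h
      rw [Sd_self]
      simp only [X.T_dB s hc, X.T_out s h1, Td_self, map_add, sB_iB, d_inn]
      c2
    · rw [S_mem_ne _ _ hi] at h
      obtain rfl : β = 0 := h.1
      simp [Sd_ne _ hi, Td_ne _ hi]
  x {e n a p} h := by
    show X.inn s (X.sB ((X.T s).Sx s e p).1) + ((X.T s).Sx s e p).2.2 = X.x e (X.inn s (X.sB p.1) + p.2.2)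
    by_cases h1 : Γ.src e = s
    · simp [Sx_src _ h1, X.T_ev s, Tx_src _ h1, X.out_apply_of h1]
    · rw [S_mem_ne _ _ h1] at h
      by_cases h2 : Γ.tgt e = s
      · have : X.sB (Pi.single (Γ.bar e) p.2) = Pi.single (Γ.bar e) p.2.2 := by
          ext e'
          by_cases h' : e' = Γ.bar e
          · subst h'; simp
          · simp [h']
        simp [Sx_tgt _ h2, this, h.1, X.inn_single (e := Γ.bar e) h2]
      · simp [Sx_ne _ h1 h2, Tx_ne _ h1 h2, h.1]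
  τ {i n a p} _ h := by
    show X.inn s (X.sB ((X.T s).Sτ s i p).1) + ((X.T s).Sτ s i p).2.2 = X.τ i (X.inn s (X.sB p.1) + p.2.2)
    by_cases hi : i = s
    · subst hi
      simp [(X.T s).Sτ_self, X.T_ev s]
    · rw [S_mem_ne _ _ hi] at h
      simp [Sτ_ne _ hi, Tτ_ne _ hi, h.1]

theorem π_f (X : DG Γ) (s : Γ.J) (i : I) (n a : ℤ) (p : (E → (E → X.V) × X.V) × (E → X.V) × X.V) :
    (X.π s).f i n a p = X.inn s (X.sB p.1) + p.2.2 := rfl

theorem qiat_π (X : DG Γ) (s : Γ.J) (i : I) (a : ℤ) : QIat (X.π s).f i a := by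
  by_cases hi : i = s
  · subst hi
    refine qiat_of_htpy (fun _ v => ((0, 0, v) : (E → (E → X.V) × X.V) × (E → X.V) × X.V)) (fun _ p => (0, X.sB p.1, 0)) (fun _ _ => 0)
      (fun n v hv => ?_) (fun n v _ => ?_) (fun _ => rfl) (fun n p hp => ?_) (fun _ => rfl) (fun _ _ _ => zero_mem _) (fun _ => rfl)
      (fun n p hp => ?_) (fun n v _ => by simp [X.π_f s, add_self'])
    · rw [S_mem_self, T_mem_self]
      exact ⟨zero_mem _, zero_mem _, X.cast hv⟩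
    · show _ = (X.T s).Sd s s _
      simp [(X.T s).Sd_self, Td_self, X.T_out s (zero_mem (X.degB s 0 0))]
    · rw [S_mem_self, T_mem_self, T_memB] at hp ⊢
      obtain ⟨⟨c, hc, h1⟩, -⟩ := hp
      exact ⟨⟨0, zero_mem _, rfl⟩, by rw [h1]; exact X.castB hc, zero_mem _⟩
    · obtain ⟨β, b, v⟩ := p
      rw [S_mem_self, T_mem_self, T_memB] at hp
      obtain ⟨⟨c, hc, rfl⟩, h1, h2⟩ := hp
      show _ = (X.T s).Sd s s _ + (0, X.sB ((X.T s).Sd s s _).1, 0)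
      simp only [(X.T s).Sd_self, X.T_dB s hc, X.T_out s h1, X.T_out s hc, Td_self, map_add, sB_iB, X.π_f s, map_zero, Prod.mk_add_mk, zero_add,
        add_zero, add_add_self, add_assoc, add_self']
  · refine qiat_of_inv (fun _ v => ((0, 0, v) : (E → (E → X.V) × X.V) × (E → X.V) × X.V)) (fun n v hv => ?_) (fun n v _ => ?_)
      (fun _ => rfl) (fun n p hp => ?_) (fun n v _ => by simp [X.π_f s])
    · rw [S_mem_ne _ _ hi, T_mem_ne _ _ hi]
      exact ⟨rfl, rfl, hv⟩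
    · show _ = (X.T s).Sd s i _
      simp [Sd_ne _ hi, Td_ne _ hi]
    · rw [S_mem_ne _ _ hi, T_mem_ne _ _ hi] at hp
      obtain ⟨β, b, v⟩ := p
      obtain ⟨rfl, rfl, -⟩ := hp
      simp [X.π_f s]

/-- `ψ : X → T S X` -/
def ψ (X : DG Γ) (s : Γ.J) : Hom X.p ((X.S s).T s).p where
  f i _ _ := (if i = s then X.iB ∘ₗ X.out s else 0).prod (LinearMap.inr K _ _)
  mem {i n a v} h := by
    by_cases hi : i = s
    · subst hi
      rw [T_mem_self, S_mem_self, S_memB, if_pos rfl]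
      exact ⟨⟨_, X.out_mem h, rfl⟩, zero_mem _, X.cast h⟩
    · rw [T_mem_ne _ _ hi, S_mem_ne _ _ hi, if_neg hi]
      exact ⟨rfl, rfl, h⟩
  d {i n a v} h := by
    show _ = (X.S s).Td s i _
    by_cases hi : i = s
    · subst hi
      simp [(X.S s).Td_self, X.S_dB s (X.out_mem h), X.S_inn s (X.out_mem h), Sd_self, dB_out, add_self']
    · simp [hi, Td_ne _ hi, Sd_ne _ hi]
  x {e n a v} _ := by
    show _ = (X.S s).Tx s e _
    by_cases h1 : Γ.src e = s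
    · simp [h1, Γ.tgt_ne' h1, Tx_src _ h1, X.out_apply_of h1]
    · by_cases h2 : Γ.tgt e = s
      · simp [h1, h2, Tx_tgt _ h2, Sx_tgt _ h2, X.S_out s, Sτ_self, ev_apply, X.inn_single (e := Γ.bar e) h2]
      · simp [h1, h2, Tx_ne _ h1 h2, Sx_ne _ h1 h2]
  τ {i n a v} _ _ := by
    show _ = (X.S s).Tτ s i _
    by_cases hi : i = s
    · subst hi
      simp [(X.S s).Tτ_self, X.S_out s, Sτ_self, ev_apply]
    · simp [hi, Tτ_ne _ hi, Sτ_ne _ hi]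

theorem ψ_self (X : DG Γ) (s : Γ.J) (n a : ℤ) (v : X.V) : (X.ψ s).f s n a v = (X.iB (X.out s v), 0, v) := by simp [ψ]
theorem ψ_ne (X : DG Γ) (s : Γ.J) {i : I} (h : i ≠ s) (n a : ℤ) (v : X.V) : (X.ψ s).f i n a v = (0, 0, v) := by simp [ψ, h]

theorem qiat_ψ (X : DG Γ) (s : Γ.J) (i : I) (a : ℤ) : QIat (X.ψ s).f i a := by
  by_cases hi : i = s
  · subst hi
    refine qiat_of_htpy (fun _ p => p.2.2) (fun _ _ => 0) (fun _ p => (X.iB p.2.1, 0))
      (fun n p hp => ?_) (fun n p hp => ?_) (fun _ => rfl) (fun _ _ _ => zero_mem _) (fun _ => rfl) (fun n p hp => ?_) (fun _ => rfl)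
      (fun n v _ => by simp [X.ψ_self s, add_self']) (fun n p hp => ?_)
    · rw [T_mem_self, S_mem_self] at hp
      exact X.cast hp.2.2
    · obtain ⟨β, b, v⟩ := p
      rw [T_mem_self, S_memB] at hp
      obtain ⟨⟨c, hc, rfl⟩, -⟩ := hp
      show ((X.S s).Td s s _).2.2 = _
      simp [(X.S s).Td_self, X.S_inn s hc, Sd_self]
    · rw [T_mem_self, S_mem_self, S_memB] at hp ⊢
      exact ⟨⟨_, X.castB hp.2.1, rfl⟩, zero_mem _, zero_mem _⟩
    · obtain ⟨β, b, v⟩ := p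
      rw [T_mem_self, S_mem_self, S_memB] at hp
      obtain ⟨⟨c, hc, rfl⟩, h1, h2⟩ := hp
      show _ = (X.S s).Td s s _ + (X.iB ((X.S s).Td s s _).2.1, 0)
      simp only [(X.S s).Td_self, X.S_dB s h1, X.S_dB s hc, X.S_inn s h1, X.S_inn s hc, Sd_self, map_add, X.ψ_self s, map_zero, Prod.mk_add_mk, zero_add,
        add_zero, add_self', Prod.mk.injEq, and_true]
      rw [add_left_comm, add_add_self, add_comm]
  · refine qiat_of_inv (fun _ p => p.2.2) (fun n p hp => ?_) (fun n p _ => ?_) (fun _ => rfl) (fun n v _ => by rw [X.ψ_ne s hi])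
      (fun n p hp => ?_)
    · rw [T_mem_ne _ _ hi, S_mem_ne _ _ hi] at hp
      exact hp.2.2
    · show ((X.S s).Td s i _).2.2 = _
      simp [Sd_ne _ hi, Td_ne _ hi]
    · rw [T_mem_ne _ _ hi, S_mem_ne _ _ hi] at hp
      obtain ⟨β, b, v⟩ := p
      obtain ⟨rfl, rfl, -⟩ := hp
      rw [X.ψ_ne s hi]

theorem T_congr (s : Γ.J) (h : X.p.cl = Y.p.cl) : (X.T s).p.cl = (Y.T s).p.cl :=
  dg_congr (fun X => (X.T s).p.cl) (fun _ _ φ hφ => cl_eq_of_hom (φ.T s) (φ.qiat_T s hφ)) h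

theorem S_congr (s : Γ.J) (h : X.p.cl = Y.p.cl) : (X.S s).p.cl = (Y.S s).p.cl :=
  dg_congr (fun X => (X.S s).p.cl) (fun _ _ φ hφ => cl_eq_of_hom (φ.S s) (φ.qiat_S s hφ)) h

end DG

/-- the up-move on classes -/
theorem exists_act (s : Γ.J) : ∃ T : Equiv.Perm (Obj Γ), ∀ X : DG Γ, T X.p.cl = (X.T s).p.cl ∧ T⁻¹ X.p.cl = (X.S s).p.cl := by
  choose D hD using exists_rep (Γ := Γ)
  refine ⟨⟨fun x => ((D x).T s).p.cl, fun x => ((D x).S s).p.cl, fun x => ?_, fun x => ?_⟩,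
    fun X => ⟨DG.T_congr s (hD _), DG.S_congr s (hD _)⟩⟩
  · exact (DG.S_congr s (hD _)).trans ((cl_eq_of_hom _ ((D x).qiat_π s)).trans (hD x))
  · exact (DG.T_congr s (hD _)).trans ((cl_eq_of_hom _ ((D x).qiat_ψ s)).symm.trans (hD x))

/-- the up-move on classes -/
def Obj.T (s : Γ.J) : Equiv.Perm (Obj Γ) := (exists_act s).choose

theorem Obj.T_cl (s : Γ.J) (X : DG Γ) : Obj.T s X.p.cl = (X.T s).p.cl := ((exists_act s).choose_spec X).1

theorem Obj.T_inv_cl (s : Γ.J) (X : DG Γ) : (Obj.T s)⁻¹ X.p.cl = (X.S s).p.cl := ((exists_act s).choose_spec X).2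

theorem Obj.hd_T_ne (s : Γ.J) {i : I} (hi : i ≠ s) (x : Obj Γ) (n a : ℤ) : (Obj.T s x).hd i n a = x.hd i n a := by
  obtain ⟨X, rfl⟩ := exists_rep x
  rw [Obj.T_cl]
  exact (hd_eq_of_qiat (X.η s) (X.qiat_η_ne s hi a) n).symm

theorem Obj.hd_S_ne (s : Γ.J) {i : I} (hi : i ≠ s) (x : Obj Γ) (n a : ℤ) : ((Obj.T s)⁻¹ x).hd i n a = x.hd i n a := by
  rw [← Obj.hd_T_ne s hi, Equiv.Perm.coe_inv, Equiv.apply_symm_apply]

end Crest.Agent.R175.Mod
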