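import Crest.Agent.R175.Mod.PDG

/-! # R175/Mod/Cyl.  Weak quasi-isomorphisms identify classes. -/

set_option autoImplicit false
noncomputable section
open Classical

namespace Crest.Agent.R175.Mod

variable {I E : Type} [Fintype E] {Γ : Gr I E}

namespace Cyl

variable {X Y : PDG Γ}

/-- `(u, w, y) ↦ (A u + c w, B w, C w + D y)` -/
def tri (A c B : X.V →ₗ[K] X.V) (C : X.V →ₗ[K] Y.V) (D : Y.V →ₗ[K] Y.V) : X.V × X.V × Y.V →ₗ[K] X.V × X.V × Y.V :=
  (A ∘ₗ LinearMap.fst K _ _ + c ∘ₗ LinearMap.fst K _ _ ∘ₗ LinearMap.snd K _ _).prod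
    ((B ∘ₗ LinearMap.fst K _ _ ∘ₗ LinearMap.snd K _ _).prod
      (C ∘ₗ LinearMap.fst K _ _ ∘ₗ LinearMap.snd K _ _ + D ∘ₗ LinearMap.snd K _ _ ∘ₗ LinearMap.snd K _ _))

theorem tri_apply (A c B : X.V →ₗ[K] X.V) (C : X.V →ₗ[K] Y.V) (D : Y.V →ₗ[K] Y.V) (p : X.V × X.V × Y.V) :
    tri A c B C D p = (A p.1 + c p.2.1, B p.2.1, C p.2.1 + D p.2.2) := rfl

/-- the mapping cylinder -/
@[reducible] def cyl (φ : WHom X Y) : PDG Γ where
  V := X.V × X.V × Y.V
  deg i n a := (X.deg i n a).prod ((X.deg i (n + 1) a).prod (Y.deg i n a))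
  d i n a := tri (X.d i n a) LinearMap.id (X.d i (n + 1) a) (φ.f i (n + 1) a) (Y.d i n a)
  x e n a := tri (X.x e n a) 0 (X.x e (n + 1) a) (φ.h e (n + 1) a) (Y.x e n a)
  τ i n a := tri (X.τ i n a) 0 (X.τ i (n + 1) a) (φ.k i (n + 1) a) (Y.τ i n a)
  d_mem h := ⟨add_mem (X.d_mem h.1) h.2.1, X.d_mem h.2.1, add_mem (φ.mem h.2.1) (Y.d_mem h.2.2)⟩
  x_mem h := ⟨add_mem (X.x_mem h.1) (zero_mem _), X.x_mem h.2.1, add_mem (Y.cast (φ.h_mem h.2.1)) (Y.x_mem h.2.2)⟩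
  τ_mem h := ⟨add_mem (X.τ_mem h.1) (zero_mem _), X.cast (X.τ_mem h.2.1), add_mem (Y.cast (φ.k_mem h.2.1)) (Y.τ_mem h.2.2)⟩
  dd h := by
    simp only [tri_apply, map_add, LinearMap.id_apply, X.dd h.1, X.dd h.2.1, Y.dd h.2.2, φ.d h.2.1, zero_add, add_zero,
      add_self', Prod.mk_eq_zero, and_self]
  dx {e n a p} h := by
    have h1 := φ.x h.2.1
    rw [add_sub_cancel_right] at h1
    simp only [tri_apply, map_add, LinearMap.id_apply, LinearMap.zero_apply, add_zero, X.dx h.1, X.dx h.2.1, Y.dx h.2.2,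
      Prod.mk.injEq, true_and]
    linear_combination (norm := abel) h1 + add_self' (Y.d (Γ.tgt e) n (a + 1) (φ.h e (n + 1) a p.2.1)) -
      add_self' (Y.x e (n + 1) a (φ.f (Γ.src e) (n + 1) a p.2.1))
  rel {i n a p} hi h := by
    have h1 := φ.τ hi h.2.1
    have h2 := X.rel hi h.2.1
    have h3 := X.rel hi h.1
    have h4 := Y.rel hi h.2.2
    rw [add_sub_cancel_right] at h1 h2
    rw [show n + 1 - 2 = n - 1 by omega, Finset.sum_add_distrib] at h1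
    simp only [tri_apply, map_add, LinearMap.id_apply, LinearMap.zero_apply, add_zero, sub_add_cancel, DG.sum_pair,
      Prod.mk_add_mk, Prod.mk.injEq, Finset.sum_add_distrib]
    refine ⟨?_, h2, ?_⟩
    · linear_combination (norm := abel) h3 + add_self' (X.τ i (n + 1) a p.2.1)
    · linear_combination (norm := abel) h4 - h1 + add_self' (φ.f i n (a + 2) (X.τ i (n + 1) a p.2.1)) +
        add_self' (Y.τ i (n + 1) a (φ.f i (n + 1) a p.2.1))
  bdd := by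
    obtain ⟨N, hN⟩ := X.bdd
    obtain ⟨N', hN'⟩ := Y.bdd
    exact ⟨max N N' + 1, fun i n a p h h' => Prod.ext (hN _ _ _ _ h.1 (by grind))
      (Prod.ext (hN _ _ _ _ h.2.1 (by grind)) (hN' _ _ _ _ h.2.2 (by grind)))⟩

/-- the first end -/
def i₁ (φ : WHom X Y) : Hom X (cyl φ) where
  f _ _ _ := LinearMap.inl K _ _
  mem h := ⟨h, zero_mem _, zero_mem _⟩
  d _ := by simp [tri_apply, Prod.ext_iff]
  x _ := by simp [tri_apply, Prod.ext_iff]
  τ _ _ := by simp [tri_apply, Prod.ext_iff]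

/-- the second end -/
def i₂ (φ : WHom X Y) : Hom Y (cyl φ) where
  f _ _ _ := LinearMap.inr K _ _ ∘ₗ LinearMap.inr K _ _
  mem h := ⟨zero_mem _, zero_mem _, h⟩
  d _ := by simp [tri_apply, Prod.ext_iff]
  x _ := by simp [tri_apply, Prod.ext_iff]
  τ _ _ := by simp [tri_apply, Prod.ext_iff]

theorem cone (φ : WHom X Y) {i : I} {n a : ℤ} (h1 : InjAt φ.f i (n + 1) a) (h2 : SurAt φ.f i n a) : ConeAt φ.f i n a := by
  intro u hu y hy hdu hfu
  obtain ⟨u₁, hu₁, rfl⟩ := X.mem_B_succ.1 (h1 u ⟨hu, hdu⟩ (Y.mem_B_succ.2 ⟨y, hy, hfu.symm⟩))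
  obtain ⟨v, hv, y', hy', h3⟩ := h2 (φ.f i n a u₁ + y) ⟨add_mem (φ.mem hu₁) hy, by
    rw [map_add, ← φ.d hu₁, hfu, add_self']⟩
  refine ⟨u₁ + v, add_mem hu₁ hv.1, y', hy', by rw [map_add, hv.2, add_zero], ?_⟩
  rw [h3, map_add, add_comm (φ.f i n a u₁), add_assoc, add_left_comm (φ.f i n a u₁), add_add_self, add_add_self]

theorem qi₂ (φ : WHom X Y) (i : I) (a : ℤ) : QIat (i₂ φ).f i a :=
  qiat_of_htpy (X := Y) (Y := cyl φ) (fun n p => φ.f i n a p.1 + p.2.2) (fun _ _ => 0) (fun _ p => (0, p.1, 0))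
    (fun n p h => add_mem (φ.mem h.1) h.2.2)
    (fun n p h => by
      simp only [tri_apply, map_add, LinearMap.id_apply, φ.d h.1]
      rw [add_assoc, add_add_self])
    (fun n => by simp) (fun _ _ _ => zero_mem _) (fun _ => rfl)
    (fun n p h => ⟨zero_mem _, X.cast h.1, zero_mem _⟩) (fun _ => rfl)
    (fun n v _ => by simp [i₂, add_self'])
    (fun n p h => by
      obtain ⟨u, w, y⟩ := p
      simp [i₂, tri_apply, add_add_self, add_assoc, add_self'])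

theorem qi₁ (φ : WHom X Y) {i : I} {a : ℤ} (h : QIat φ.f i a) : QIat (i₁ φ).f i a := by
  refine qiat_of_cone fun n u' hu' p hp hd he => ?_
  obtain ⟨u, w, y⟩ := p
  simp only [i₁, LinearMap.inl_apply, tri_apply, LinearMap.id_apply, Prod.ext_iff, Prod.fst_zero, Prod.snd_zero] at he
  obtain ⟨e1, e2, e3⟩ := he
  obtain ⟨w', hw', y', hy', e4, e5⟩ := cone φ (h (n + 1)).1 (h n).2 w hp.2.1 y hp.2.2 e2.symm (eq_iff_add.2 e3.symm)
  refine ⟨u + w', add_mem hp.1 hw', (0, w', y'), ⟨zero_mem _, X.cast hw', hy'⟩, by rw [e1, map_add, e4], ?_⟩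
  simp [i₁, tri_apply, e4, e5, add_assoc, add_self']

end Cyl

/-- leaf Cyl.  Mapping cylinder `C : PDG`, ambient `X.V × X.V × Y.V`, `deg i n a = deg i n a × deg i (n+1) a × deg i n a`,
`d (u,w,y) = (d u + w, d w, f w + d y)`, `x (u,w,y) = (x u, x w, h w + x y)`, `τ (u,w,y) = (τ u, τ w, k w + τ y)` (the maps on `w` carry
the index `n+1`).  Strict maps `u ↦ (u,0,0)`, `y ↦ (0,0,y)`.  The second is a homotopy equivalence (`qiat_of_htpy`, `p (u,w,y) = f u + y`,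
`H (u,w,y) = (0,u,0)`); the first by `qiat_of_cone`: for `u' = d u + w`, `d w = 0`, `f w = d y` the cone condition for `f` (reprove
`Hom.cone` for `φ.f`, it only uses `mem` and `d`) gives `w = d w'`, `y = f w' + d y'`; take `u + w'` and `(0, w', y')`. -/
theorem cl_eq_of_whom {X Y : PDG Γ} (φ : WHom X Y) (h : ∀ i a, QIat φ.f i a) : X.cl = Y.cl := by
  exact (cl_eq_of_hom (Cyl.i₁ φ) fun i a => Cyl.qi₁ φ (h i a)).trans (cl_eq_of_hom (Cyl.i₂ φ) (Cyl.qi₂ φ)).symm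

end Crest.Agent.R175.Mod
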