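import Crest.Agent.R175.Mod.Act
import Crest.Agent.R175.Mod.Cyl
import Crest.Agent.R175.P.Defs

/-! # R175/Mod/Api (owner helper48).  The data of the model for `G : P.Gr`. -/

set_option autoImplicit false
noncomputable section
open Classical

namespace Crest.Agent.R175.Mod

section
variable {I E : Type} [Fintype E] {Γ : Gr I E}

/-- the graph of a surjection of modules `H^m X → H^m Y` -/
structure SurRel (m : ℤ) (X Y : PDG Γ) where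
  R : I → ℤ → Submodule K (X.V × Y.V)
  cyc : ∀ i a, ∀ p ∈ R i a, p.1 ∈ X.Z i m a ∧ p.2 ∈ Y.Z i m a
  bl : ∀ i a, ∀ v ∈ X.B i m a, (v, 0) ∈ R i a
  br : ∀ i a, ∀ w ∈ Y.B i m a, (0, w) ∈ R i a
  tot : ∀ i a, ∀ v ∈ X.Z i m a, ∃ w, (v, w) ∈ R i a
  fn : ∀ i a, ∀ p ∈ R i a, p.1 ∈ X.B i m a → p.2 ∈ Y.B i m a
  sur : ∀ i a, ∀ w ∈ Y.Z i m a, ∃ v, (v, w) ∈ R i a
  x : ∀ e a, ∀ p ∈ R (Γ.src e) a, (X.x e m a p.1, Y.x e m a p.2) ∈ R (Γ.tgt e) (a + 1)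

/-- `H^m x` surjects onto `H^m y` -/
def Sur (m : ℤ) (x y : Obj Γ) : Prop := ∃ X Y : PDG Γ, X.cl = x ∧ Y.cl = y ∧ Nonempty (SurRel m X Y)

/-- direct sum -/
@[reducible] def PDG.sum (X Y : PDG Γ) : PDG Γ where
  V := X.V × Y.V
  deg i n a := (X.deg i n a).prod (Y.deg i n a)
  d i n a := (X.d i n a).prodMap (Y.d i n a)
  x e n a := (X.x e n a).prodMap (Y.x e n a)
  τ i n a := (X.τ i n a).prodMap (Y.τ i n a)
  d_mem h := ⟨X.d_mem h.1, Y.d_mem h.2⟩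
  x_mem h := ⟨X.x_mem h.1, Y.x_mem h.2⟩
  τ_mem h := ⟨X.τ_mem h.1, Y.τ_mem h.2⟩
  dd h := Prod.ext (X.dd h.1) (Y.dd h.2)
  dx h := Prod.ext (X.dx h.1) (Y.dx h.2)
  rel hi h := Prod.ext (by rw [Prod.fst_sum]; exact X.rel hi h.1) (by rw [Prod.snd_sum]; exact Y.rel hi h.2)
  bdd := by
    obtain ⟨N, hN⟩ := X.bdd
    obtain ⟨M, hM⟩ := Y.bdd
    exact ⟨max N M, fun i n a v h h' => Prod.ext (hN i n a _ h.1 (by grind)) (hM i n a _ h.2 (by grind))⟩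

/-- no non-acyclic direct summand supported on the unframed vertices -/
def Red (x : Obj Γ) : Prop :=
  ∀ Y W : PDG Γ, (Y.sum W).cl = x → (∀ i, i ∉ Γ.J → ∀ n a, W.Ac i n a) → ∀ i n a, W.Ac i n a

end

/-- the graph of `G` -/
@[reducible] def toGr (G : P.Gr) : Gr G.I G.E := ⟨G.src, G.bar, G.bar_bar, G.noloop, G.J⟩

/-- the objects -/
abbrev XX (G : P.Gr) : Type 1 := Obj (toGr G)

/-- the moves -/
def TT (G : P.Gr) (i : G.I) : Equiv.Perm (XX G) := if h : i ∈ G.J then Obj.T (Γ := toGr G) ⟨i, h⟩ else 1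

/-- the dimensions -/
def hh (G : P.Gr) (x : XX G) (n : ℤ) (i : G.I) : ℕ := x.h n i

variable {G : P.Gr}

theorem TT_eq {i : G.I} (h : i ∈ G.J) : TT G i = Obj.T (Γ := toGr G) ⟨i, h⟩ := dif_pos h

theorem tgt_eq (e : G.E) : (toGr G).tgt e = G.tgt e := rfl

theorem ne_ne_zero {i j : G.I} : G.ne i j ≠ 0 ↔ ∃ e, G.src e = i ∧ G.tgt e = j := by
  simp [P.Gr.ne, Finset.card_eq_zero, Finset.filter_eq_empty_iff]

theorem ne_eq_one {i j : G.I} (h : G.ne i j = 1) : ∃ e₀, G.src e₀ = i ∧ G.tgt e₀ = j ∧ ∀ e, G.src e = i → G.tgt e = j → e = e₀ := by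
  obtain ⟨e₀, he⟩ := Finset.card_eq_one.1 h
  have h1 : ∀ e, (G.src e = i ∧ G.tgt e = j) ↔ e = e₀ := fun e => by simpa using congrArg (e ∈ ·) he
  exact ⟨e₀, ((h1 e₀).2 rfl).1, ((h1 e₀).2 rfl).2, fun e a b => (h1 e).1 ⟨a, b⟩⟩

theorem sum_ne (i : G.I) (f : G.I → ℕ) : ∑ j, G.ne i j * f j = ∑ e ∈ (toGr G).O i, f (G.tgt e) := by
  rw [← Finset.sum_fiberwise (s := (toGr G).O i) (g := G.tgt)]
  refine Finset.sum_congr rfl fun j _ => ?_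
  rw [Finset.sum_congr rfl (g := fun _ => f j) fun e he => by rw [(Finset.mem_filter.1 he).2], Finset.sum_const, smul_eq_mul, P.Gr.ne]
  congr 2
  ext e
  simp

theorem hh_eq_zero (x : XX G) (n : ℤ) (i : G.I) : hh G x n i = 0 ↔ ∀ a, x.Ac i n a := x.h_eq_zero n i

theorem le_iff (U : Set G.I) (m : ℤ) (x : XX G) : G.Le (hh G) U m x ↔
    ∀ n, m < n → ∀ i ∈ U, (∀ a, x.Ac i n a) ∧ ∀ e, G.src e = i → ∀ a, x.Ac (G.tgt e) n a := by
  simp only [P.Gr.Le, hh_eq_zero, ne_ne_zero]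
  refine forall₄_congr fun n _ i _ => and_congr_right fun _ => ⟨fun h e he => h _ ⟨e, he, rfl⟩, ?_⟩
  rintro h j ⟨e, he, rfl⟩
  exact h e he

theorem bdd_hh (x : XX G) : ∃ m : ℤ, ∀ n, m < n → ∀ i, hh G x n i = 0 := by
  obtain ⟨N, hN⟩ := x.exists_bd
  exact ⟨N, fun n hn i => (hh_eq_zero x n i).2 fun a => hN i n a (Or.inl (hn.trans_le (le_abs_self n)))⟩

theorem loc_hh (i : G.I) (hi : i ∈ G.J) (j : G.I) (hj : j ≠ i) (x : XX G) (n : ℤ) : hh G (TT G i x) n j = hh G x n j := by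
  simp only [hh, Obj.h, TT_eq hi, Obj.hd_T_ne (Γ := toGr G) ⟨i, hi⟩ hj]

end Crest.Agent.R175.Mod
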