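import Crest.Agent.R175.Mod.Api

/-! # R175/Mod/Br0 (helper20).  Local formulas at a single edge, and extension of strict morphisms to weak morphisms out of `T`. -/

set_option autoImplicit false
noncomputable section
open Classical

namespace Crest.Agent.R175.Mod.Br

variable {I E : Type} [Fintype E] {Γ : Gr I E}

/-- `e` is the unique edge from `s` to `t` -/
structure Sg (Γ : Gr I E) (s t : I) (e : E) : Prop where
  src : Γ.src e = s
  tgt : Γ.tgt e = t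
  uniq : ∀ e', Γ.src e' = s → Γ.tgt e' = t → e' = e

omit [Fintype E] in
theorem Sg.symm {s t : I} {e : E} (h : Sg Γ s t e) : Sg Γ t s (Γ.bar e) :=
  ⟨h.tgt, by rw [Γ.tgt_bar, h.src], fun e' h1 h2 => by
    rw [← h.uniq (Γ.bar e') h2 (by rw [Γ.tgt_bar, h1]), Γ.bar_bar]⟩

omit [Fintype E] in
theorem Sg.ne {s t : I} {e : E} (h : Sg Γ s t e) : t ≠ s := h.tgt ▸ Γ.tgt_ne' h.src

omit [Fintype E] in
theorem Sg.tgt_ne {s t : I} {e : E} (h : Sg Γ s t e) {e' : E} (h1 : Γ.src e' = s) (h2 : e' ≠ e) : Γ.tgt e' ≠ t :=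
  fun h3 => h2 (h.uniq e' h1 h3)

section Upd
variable {M N : Type} [AddCommGroup M] [Module K M] [AddCommGroup N] [Module K N]

/-- a linear map into a product with a special coordinate -/
def upd (e : E) (A : M →ₗ[K] N) (B : E → M →ₗ[K] N) : M →ₗ[K] (E → N) := LinearMap.pi fun e' => if e' = e then A else B e'

omit [Fintype E] in
@[simp] theorem upd_same (e : E) (A : M →ₗ[K] N) (B : E → M →ₗ[K] N) (m : M) : upd e A B m e = A m := by
  simp [upd]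

omit [Fintype E] in
theorem upd_ne {e e' : E} (h : e' ≠ e) (A : M →ₗ[K] N) (B : E → M →ₗ[K] N) (m : M) : upd e A B m e' = B e' m := by
  simp [upd, h]

end Upd

variable (Y : DG Γ)

/-- the sum of the arrows into `s` except the reverse of `e` -/
def inc (s : I) (e : E) : (E → Y.V) →ₗ[K] Y.V := ∑ e' ∈ (Γ.O s).erase e, Y.x (Γ.bar e') ∘ₗ LinearMap.proj e'

theorem inc_apply (s : I) (e : E) (b : E → Y.V) : inc Y s e b = ∑ e' ∈ (Γ.O s).erase e, Y.x (Γ.bar e') (b e') := by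
  simp [inc, LinearMap.sum_apply]

theorem inn_eq {s : I} {e : E} (h : Γ.src e = s) (b : E → Y.V) : Y.inn s b = Y.x (Γ.bar e) (b e) + inc Y s e b := by
  rw [DG.inn_apply, inc_apply, Finset.add_sum_erase _ (fun e' => Y.x (Γ.bar e') (b e')) (Γ.mem_O.2 h)]

theorem inc_congr {s : I} {e : E} {b b' : E → Y.V} (h : ∀ e', Γ.src e' = s → e' ≠ e → b e' = b' e') :
    inc Y s e b = inc Y s e b' := by
  rw [inc_apply, inc_apply]
  exact Finset.sum_congr rfl fun e' he => by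
    rw [h e' (Γ.mem_O.1 (Finset.mem_of_mem_erase he)) (Finset.ne_of_mem_erase he)]

theorem d_inc (s : I) (e : E) (b : E → Y.V) : Y.d s (inc Y s e b) = inc Y s e (Y.dB b) := by
  simp only [inc_apply, map_sum, DG.dB_apply]
  exact Finset.sum_congr rfl fun e' he => Y.dx' rfl (by simpa using Finset.mem_of_mem_erase he) _

theorem inc_mem {s : I} {e : E} {n a : ℤ} {b : E → Y.V} (h : ∀ e', Γ.src e' = s → e' ≠ e → b e' ∈ Y.deg (Γ.tgt e') n a) :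
    inc Y s e b ∈ Y.deg s n (a + 1) := by
  rw [inc_apply]
  refine Submodule.sum_mem _ fun e' he => ?_
  have h1 := Γ.mem_O.1 (Finset.mem_of_mem_erase he)
  exact Y.x_mem' rfl (by simpa using h1) (h e' h1 (Finset.ne_of_mem_erase he))

/-- the relation, split at the edge `e` -/
theorem inc_out {s : I} (hs : s ∈ Γ.J) {e : E} (h : Γ.src e = s) (v : Y.V) :
    inc Y s e (Y.out s v) = Y.x (Γ.bar e) (Y.x e v) + (Y.d s (Y.τ s v) + Y.τ s (Y.d s v)) := by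
  rw [← Y.inn_out hs, inn_eq Y h, Y.out_apply_of h, add_add_self]

theorem T_inn_self (s : Γ.J) (β : E → (E → Y.V) × Y.V) :
    (Y.T s).inn s β = (Y.out s (Y.inn s fun e => (β e).2), Y.τ s (Y.inn s fun e => (β e).2)) := by
  rw [DG.inn_apply, DG.inn_apply, map_sum, map_sum, ← DG.sum_pair]
  exact Finset.sum_congr rfl fun e he => Y.Tx_tgt (by simpa using he) _

theorem T_inc_self (s : Γ.J) (e : E) (β : E → (E → Y.V) × Y.V) :
    inc (Y.T s) s e β = (Y.out s (inc Y s e fun e => (β e).2), Y.τ s (inc Y s e fun e => (β e).2)) := by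
  rw [inc_apply, inc_apply, map_sum, map_sum, ← DG.sum_pair]
  exact Finset.sum_congr rfl fun e he => Y.Tx_tgt (by simpa using Finset.mem_of_mem_erase he) _

theorem T_inc_adj {s : Γ.J} {t : I} {e : E} (h : Sg Γ s t e) (γ : E → (E → Y.V) × Y.V) :
    inc (Y.T s) t (Γ.bar e) γ = (0, inc Y t (Γ.bar e) fun e' => (γ e').2) := by
  rw [inc_apply, inc_apply]
  refine Eq.trans (Finset.sum_congr rfl (g := fun e' => (0, Y.x (Γ.bar e') (γ e').2)) fun e' he => ?_) (by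
    rw [DG.sum_pair, Finset.sum_const_zero])
  have h1 := Γ.mem_O.1 (Finset.mem_of_mem_erase he)
  exact Y.Tx_ne (h.symm.tgt_ne h1 (Finset.ne_of_mem_erase he)) (by rw [Γ.tgt_bar, h1]; exact h.ne) _

theorem T_inn_adj {s : Γ.J} {t : I} {e : E} (h : Sg Γ s t e) (γ : E → (E → Y.V) × Y.V) :
    (Y.T s).inn t γ = (0, (γ (Γ.bar e)).1 e + inc Y t (Γ.bar e) fun e' => (γ e').2) := by
  rw [inn_eq _ h.symm.src, T_inc_adj Y h, Γ.bar_bar]
  show Y.Tx s e _ + _ = _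
  rw [Y.Tx_src h.src, Prod.mk_add_mk, add_zero]

theorem T_out_self (s : Γ.J) (p : (E → Y.V) × Y.V) {e : E} (h : Γ.src e = s) : (Y.T s).out s p e = (0, p.1 e) := by
  rw [DG.out_apply_of _ h]; exact Y.Tx_src h p

theorem out_ne {s : I} (v : Y.V) {e : E} (h : Γ.src e ≠ s) : Y.out s v e = 0 := by rw [DG.out_apply, if_neg h]

theorem T_out_adj {s : Γ.J} {t : I} {e : E} (h : Sg Γ s t e) (p : (E → Y.V) × Y.V) :
    (Y.T s).out t p (Γ.bar e) = (Y.out s (Y.x (Γ.bar e) p.2), Y.τ s (Y.x (Γ.bar e) p.2)) := by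
  rw [DG.out_apply_of _ h.symm.src]; exact Y.Tx_tgt h.symm.tgt p

theorem T_out_adj' {s : Γ.J} {t : I} {e : E} (h : Sg Γ s t e) (p : (E → Y.V) × Y.V) {e' : E} (h1 : Γ.src e' = t)
    (h2 : e' ≠ Γ.bar e) : (Y.T s).out t p e' = (0, Y.x e' p.2) := by
  rw [DG.out_apply_of _ h1]; exact Y.Tx_ne (h1 ▸ h.ne) (h.symm.tgt_ne h1 h2) p

/-! ### quasi-isomorphisms through the trivial components -/

theorem mem_Z_ne (s : Γ.J) {i : I} (hi : i ≠ s) {n a : ℤ} {p : (E → Y.V) × Y.V} :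
    p ∈ (Y.T s).p.Z i n a ↔ p.1 = 0 ∧ p.2 ∈ Y.p.Z i n a := by
  rw [PDG.mem_Z, PDG.mem_Z]
  show p ∈ (Y.T s).deg i n a ∧ Y.Td s i p = 0 ↔ p.1 = 0 ∧ p.2 ∈ Y.deg i n a ∧ Y.d i p.2 = 0
  rw [Y.T_mem_ne s hi, Y.Td_ne hi, Prod.mk_eq_zero]
  tauto

theorem mem_B_ne (s : Γ.J) {i : I} (hi : i ≠ s) {n a : ℤ} {p : (E → Y.V) × Y.V} :
    p ∈ (Y.T s).p.B i n a ↔ p.1 = 0 ∧ p.2 ∈ Y.p.B i n a := by
  rw [PDG.mem_B, PDG.mem_B]
  constructor
  · rintro ⟨w, hw, rfl⟩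
    have h := Y.Td_ne hi w
    exact ⟨congrArg Prod.fst h, w.2, ((Y.T_mem_ne s hi).1 hw).2, (congrArg Prod.snd h).symm⟩
  · rintro ⟨h1, w, hw, h2⟩
    exact ⟨(0, w), (Y.T_mem_ne s hi).2 ⟨rfl, hw⟩, (Y.Td_ne hi _).trans (Prod.ext h1.symm h2)⟩

theorem qiat_inr {A : PDG Γ} (t : Γ.J) {i : I} (hi : i ≠ t) {a : ℤ} {g : I → ℤ → ℤ → A.V →ₗ[K] Y.p.V} (hg : QIat g i a)
    {f : I → ℤ → ℤ → A.V →ₗ[K] (Y.T t).p.V} (hf : ∀ n v, f i n a v = (0, g i n a v)) : QIat f i a := by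
  refine fun n => ⟨fun v hv h => (hg n).1 v hv ?_, fun w hw => ?_⟩
  · rw [hf] at h
    exact ((mem_B_ne Y t hi).1 h).2
  · obtain ⟨h1, h2⟩ := (mem_Z_ne Y t hi).1 hw
    obtain ⟨v, hv, h3⟩ := (hg n).2 _ h2
    refine ⟨v, hv, (mem_B_ne Y t hi).2 ⟨?_, ?_⟩⟩
    · rw [hf]; exact (zero_add _).trans h1
    · rw [hf]; exact h3

theorem qiat_snd {A : PDG Γ} (t : Γ.J) {i : I} (hi : i ≠ t) {a : ℤ} {g : I → ℤ → ℤ → Y.p.V →ₗ[K] A.V} (hg : QIat g i a)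
    {f : I → ℤ → ℤ → (Y.T t).p.V →ₗ[K] A.V} (hf : ∀ n p, f i n a p = g i n a p.2) : QIat f i a := by
  refine fun n => ⟨fun p hp h => ?_, fun w hw => ?_⟩
  · obtain ⟨h1, h2⟩ := (mem_Z_ne Y t hi).1 hp
    rw [hf] at h
    exact (mem_B_ne Y t hi).2 ⟨h1, (hg n).1 _ h2 h⟩
  · obtain ⟨v, hv, h3⟩ := (hg n).2 _ hw
    exact ⟨(0, v), (mem_Z_ne Y t hi).2 ⟨rfl, hv⟩, by rw [hf]; exact h3⟩

/-! ### weak morphisms out of `T` -/

/-- data extending a strict morphism `Z → U` to a weak morphism `T_s Z → U` -/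
structure Ext {Z U : DG Γ} (Φ : Hom Z.p U.p) (s : Γ.J) where
  F : (E → Z.V) × Z.V →ₗ[K] U.V
  ho : E → (E → Z.V) × Z.V →ₗ[K] U.V
  hi : E → Z.V →ₗ[K] U.V
  k : (E → Z.V) × Z.V →ₗ[K] U.V
  F_mem : ∀ {n a p}, p ∈ (Z.T s).deg s n a → F p ∈ U.deg s n a
  ho_mem : ∀ {e n a p}, Γ.src e = s → p ∈ (Z.T s).deg s n a → ho e p ∈ U.deg (Γ.tgt e) (n - 1) (a + 1)
  hi_mem : ∀ {e n a v}, Γ.tgt e = s → v ∈ Z.deg (Γ.src e) n a → hi e v ∈ U.deg s (n - 1) (a + 1)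
  k_mem : ∀ {n a p}, p ∈ (Z.T s).deg s n a → k p ∈ U.deg s (n - 2) (a + 2)
  F_d : ∀ {n a p}, p ∈ (Z.T s).deg s n a → F (Z.Td s s p) = U.d s (F p)
  x_o : ∀ {e n a p}, Γ.src e = s → p ∈ (Z.T s).deg s n a →
    Φ.f (Γ.tgt e) n (a + 1) (p.1 e) + U.x e (F p) = U.d (Γ.tgt e) (ho e p) + ho e (Z.Td s s p)
  x_i : ∀ {e n a v}, Γ.tgt e = s → v ∈ Z.deg (Γ.src e) n a →
    F (Z.out s (Z.x e v), Z.τ s (Z.x e v)) + U.x e (Φ.f (Γ.src e) n a v) = U.d s (hi e v) + hi e (Z.d (Γ.src e) v)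
  τ_s : ∀ {n a p}, p ∈ (Z.T s).deg s n a → F (Z.out s p.2, Z.τ s p.2) + U.τ s (F p) +
    ∑ e ∈ Γ.O s, (hi (Γ.bar e) (p.1 e) + U.x (Γ.bar e) (ho e p)) = U.d s (k p) + k (Z.Td s s p)
  τ_o : ∀ {e n a v}, Γ.tgt e = s → v ∈ Z.deg (Γ.src e) n a →
    ho (Γ.bar e) (Z.out s (Z.x e v), Z.τ s (Z.x e v)) = U.x (Γ.bar e) (hi e v)

namespace Ext
variable {Z U : DG Γ} {Φ : Hom Z.p U.p} {s : Γ.J} (D : Ext Φ s)

/-- the vertex maps -/
def f (i : I) (n a : ℤ) : (E → Z.V) × Z.V →ₗ[K] U.V := if i = s then D.F else Φ.f i n a ∘ₗ LinearMap.snd K _ _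

/-- the edge homotopies -/
def h (e : E) : (E → Z.V) × Z.V →ₗ[K] U.V :=
  if Γ.src e = s then D.ho e else if Γ.tgt e = s then D.hi e ∘ₗ LinearMap.snd K _ _ else 0

theorem f_self (n a : ℤ) (p : (E → Z.V) × Z.V) : D.f s n a p = D.F p := by rw [f, if_pos rfl]
theorem f_ne {i : I} (hi : i ≠ s) (n a : ℤ) (p : (E → Z.V) × Z.V) : D.f i n a p = Φ.f i n a p.2 := by rw [f, if_neg hi]; rfl
theorem h_src {e : E} (h1 : Γ.src e = s) (p : (E → Z.V) × Z.V) : D.h e p = D.ho e p := by rw [h, if_pos h1]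
theorem h_tgt {e : E} (h2 : Γ.tgt e = s) (p : (E → Z.V) × Z.V) : D.h e p = D.hi e p.2 := by
  rw [h, if_neg (Γ.src_ne' h2), if_pos h2]; rfl
theorem h_ne {e : E} (h1 : Γ.src e ≠ s) (h2 : Γ.tgt e ≠ s) (p : (E → Z.V) × Z.V) : D.h e p = 0 := by
  rw [h, if_neg h1, if_neg h2]; rfl

/-- the weak morphism -/
def whom : WHom (Z.T s).p U.p where
  f := D.f
  h e _ _ := D.h e
  k i _ _ := if i = s then D.k else 0
  mem {i n a p} hp := by
    by_cases hi : i = s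
    · subst hi
      rw [f_self]; exact D.F_mem hp
    · rw [D.f_ne hi]; exact Φ.mem ((Z.T_mem_ne s hi).1 hp).2
  h_mem {e n a p} hp := by
    by_cases h1 : Γ.src e = s
    · rw [D.h_src h1]; exact D.ho_mem h1 (h1 ▸ hp)
    · by_cases h2 : Γ.tgt e = s
      · rw [D.h_tgt h2, h2]; exact D.hi_mem h2 ((Z.T_mem_ne s h1).1 hp).2
      · rw [D.h_ne h1 h2]; exact zero_mem _
  k_mem {i n a p} hp := by
    by_cases hi : i = s
    · subst hi
      rw [if_pos rfl]; exact D.k_mem hp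
    · rw [if_neg hi]; exact zero_mem _
  d {i n a p} hp := by
    show D.f i (n + 1) a (Z.Td s i p) = U.d i (D.f i n a p)
    by_cases hi : i = s
    · subst hi
      rw [f_self, f_self]; exact D.F_d hp
    · rw [D.f_ne hi, D.f_ne hi, Z.Td_ne hi]; exact Φ.d ((Z.T_mem_ne s hi).1 hp).2
  x {e n a p} hp := by
    show D.f (Γ.tgt e) n (a + 1) (Z.Tx s e p) + U.x e (D.f (Γ.src e) n a p) =
      U.d (Γ.tgt e) (D.h e p) + D.h e (Z.Td s (Γ.src e) p)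
    by_cases h1 : Γ.src e = s
    · rw [D.h_src h1, D.h_src h1, Z.Tx_src h1, D.f_ne (Γ.tgt_ne' h1), h1, f_self]
      exact D.x_o h1 (h1 ▸ hp)
    · have hv := ((Z.T_mem_ne s h1).1 hp).2
      by_cases h2 : Γ.tgt e = s
      · rw [D.h_tgt h2, D.h_tgt h2, Z.Tx_tgt h2, D.f_ne h1, Z.Td_ne h1, h2, f_self]
        exact D.x_i h2 hv
      · rw [D.h_ne h1 h2, D.h_ne h1 h2, Z.Tx_ne h1 h2, D.f_ne h1, D.f_ne h2, map_zero, add_zero, ← eq_iff_add]
        exact Φ.x hv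
  τ {i n a p} hJ hp := by
    show D.f i (n - 1) (a + 2) (Z.Tτ s i p) + U.τ i (D.f i n a p) +
      ∑ e ∈ Γ.O i, (D.h (Γ.bar e) (Z.Tx s e p) + U.x (Γ.bar e) (D.h e p)) =
      U.d i ((if i = s then D.k else 0) p) + (if i = s then D.k else 0) (Z.Td s i p)
    by_cases hi : i = s
    · subst hi
      rw [if_pos rfl, f_self, f_self, DG.Tτ_self, ← D.τ_s hp]
      refine congrArg _ (Finset.sum_congr rfl fun e he => ?_)
      have h1 := Γ.mem_O.1 he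
      rw [D.h_src h1, D.h_tgt (e := Γ.bar e) (by simpa using h1), Z.Tx_src h1]
    · have hv := ((Z.T_mem_ne s hi).1 hp).2
      rw [if_neg hi, D.f_ne hi, D.f_ne hi, Z.Tτ_ne hi, Φ.τ' hJ hv, add_self', zero_add, LinearMap.zero_apply,
        LinearMap.zero_apply, map_zero, add_zero]
      refine Finset.sum_eq_zero fun e he => ?_
      have h0 := Γ.mem_O.1 he
      have h1 : Γ.src e ≠ s := h0 ▸ hi
      by_cases h2 : Γ.tgt e = s
      · rw [D.h_src (e := Γ.bar e) h2, D.h_tgt h2, Z.Tx_tgt h2, D.τ_o h2 (h0 ▸ hv), add_self']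
      · rw [D.h_ne h1 h2, D.h_ne (e := Γ.bar e) h2 (by simpa using h1), map_zero, add_zero]

theorem cl_eq (h1 : ∀ a, QIat (X := (Z.T s).p) (Y := U.p) (fun _ _ _ => D.F) s a) (h2 : ∀ i : I, i ≠ s → ∀ a, QIat Φ.f i a) :
    (Z.T s).p.cl = U.p.cl := by
  refine cl_eq_of_whom D.whom fun i a => ?_
  by_cases hi : i = s
  · subst hi
    exact (h1 a).congr fun n v _ => (D.f_self n a v).symm
  · exact qiat_snd Z s hi (h2 i hi a) fun n p => D.f_ne hi n a p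

end Ext

end Crest.Agent.R175.Mod.Br
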