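import Crest.Agent.R175.Mod.Br0

/-! # R175/Mod/Br1 (helper20).  Normal forms for the neighbours of a single edge. -/

set_option autoImplicit false
set_option linter.unusedSectionVars false
noncomputable section
open Classical

namespace Crest.Agent.R175.Mod.Br

variable {I E : Type}

section Alg
variable {A B M : Type} [AddCommGroup A] [Module K A] [AddCommGroup B] [Module K B] [AddCommGroup M] [Module K M]

/-- `c ↦ (0, c)` coordinatewise -/
def lf (c : E → B) : E → A × B := fun e => (0, c e)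

/-- `w` at `e`, `(0, k ·)` elsewhere -/
def bj (e : E) (w : A × B) (k : E → B) : E → A × B := Function.update (lf k) e w

@[simp] theorem lf_apply (c : E → B) (e : E) : (lf c : E → A × B) e = (0, c e) := rfl

@[simp] theorem bj_same (e : E) (w : A × B) (k : E → B) : bj e w k e = w := Function.update_self ..

theorem bj_ne {e e' : E} (h : e' ≠ e) (w : A × B) (k : E → B) : bj e w k e' = (0, k e') := Function.update_of_ne h ..

theorem lf_add (c c' : E → B) : (lf c : E → A × B) + lf c' = lf (c + c') := by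
  ext e <;> simp

theorem lf_zero : (lf (0 : E → B) : E → A × B) = 0 := rfl

theorem bj_ext {e : E} {w w' : A × B} {k k' : E → B} (h1 : w = w') (h2 : ∀ e', e' ≠ e → k e' = k' e') :
    bj e w k = bj e w' k' := by
  funext e'
  by_cases h : e' = e
  · rw [h, bj_same, bj_same, h1]
  · rw [bj_ne h, bj_ne h, h2 e' h]

theorem bj_add (e : E) (w w' : A × B) (k k' : E → B) : bj e w k + bj e w' k' = bj e (w + w') (k + k') := by
  funext e'
  by_cases h : e' = e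
  · simp [h]
  · simp [bj_ne h]

theorem bj_zero (e : E) : bj e (0 : A × B) (0 : E → B) = 0 := by
  funext e'
  by_cases h : e' = e
  · simp [h]
  · simp [bj_ne h]

theorem lf_eq_bj (e : E) (c : E → B) : (lf c : E → A × B) = bj e (0, c e) c := by
  funext e'
  by_cases h : e' = e
  · simp [h]
  · simp [bj_ne h]

theorem bj_update (e : E) (w : A × B) (k : E → B) (u : B) : bj e w (Function.update k e u) = bj e w k :=
  bj_ext rfl fun _ h => Function.update_of_ne h ..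

theorem upd_ext {e : E} {u u' : B} {k k' : E → B} (h1 : u = u') (h2 : ∀ e', e' ≠ e → k e' = k' e') :
    Function.update k e u = Function.update k' e u' := by
  funext e'
  by_cases h : e' = e
  · rw [h, Function.update_self, Function.update_self, h1]
  · rw [Function.update_of_ne h, Function.update_of_ne h, h2 e' h]

theorem upd_add (e : E) (u u' : B) (k k' : E → B) :
    Function.update k e u + Function.update k' e u' = Function.update (k + k') e (u + u') := by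
  funext e'
  by_cases h : e' = e
  · simp [h]
  · simp [h]

/-- second coordinates -/
def sndB : (E → A × B) →ₗ[K] (E → B) := (LinearMap.snd K A B).compLeft E

theorem sndB_apply (β : E → A × B) (e : E) : sndB β e = (β e).2 := rfl
theorem sndB_lf (c : E → B) : sndB (lf c : E → A × B) = c := rfl
theorem sndB_bj (e : E) (w : A × B) (k : E → B) : sndB (bj e w k) = Function.update k e w.2 := by
  funext e'
  by_cases h : e' = e
  · simp [h, sndB_apply]
  · simp [h, sndB_apply, bj_ne h]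

/-- linear version of `bj` -/
def bjL (e : E) (f : M →ₗ[K] A × B) (g : M →ₗ[K] (E → B)) : M →ₗ[K] (E → A × B) :=
  upd e f fun e' => LinearMap.inr K A B ∘ₗ LinearMap.proj e' ∘ₗ g

theorem bjL_apply (e : E) (f : M →ₗ[K] A × B) (g : M →ₗ[K] (E → B)) (m : M) : bjL e f g m = bj e (f m) (g m) := by
  funext e'
  by_cases h : e' = e
  · rw [h, bjL, upd_same, bj_same]
  · rw [bjL, upd_ne h, bj_ne h]; rfl

/-- linear version of `update` -/
def upL (e : E) (f : M →ₗ[K] B) (g : M →ₗ[K] (E → B)) : M →ₗ[K] (E → B) := upd e f fun e' => LinearMap.proj e' ∘ₗ g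

theorem upL_apply (e : E) (f : M →ₗ[K] B) (g : M →ₗ[K] (E → B)) (m : M) : upL e f g m = Function.update (g m) e (f m) := by
  funext e'
  by_cases h : e' = e
  · rw [h, upL, upd_same, Function.update_self]
  · rw [upL, upd_ne h, Function.update_of_ne h]; rfl

/-- linear version of `lf` -/
def lfL : (E → B) →ₗ[K] (E → A × B) := (LinearMap.inr K A B).compLeft E

theorem lfL_apply (c : E → B) : (lfL c : E → A × B) = lf c := rfl

end Alg

variable [Fintype E] {Γ : Gr I E} (Y : DG Γ)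

/-- supported on the edges out of `s`, with the right degrees away from `e` -/
def Cm (s : I) (e : E) (n a : ℤ) (c : E → Y.V) : Prop :=
  (∀ e', Γ.src e' = s → e' ≠ e → c e' ∈ Y.deg (Γ.tgt e') n a) ∧ ∀ e', Γ.src e' ≠ s → c e' = 0

theorem Cm.cast {Y : DG Γ} {s : I} {e : E} {n a n' a' : ℤ} {c : E → Y.V} (h : Cm Y s e n a c) (hn : n = n' := by omega)
    (ha : a = a' := by omega) : Cm Y s e n' a' c := hn ▸ ha ▸ h

theorem Cm.zero (s : I) (e : E) (n a : ℤ) : Cm Y s e n a 0 := ⟨fun _ _ _ => zero_mem _, fun _ _ => rfl⟩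

theorem Cm.of_degB {Y : DG Γ} {s : I} (e : E) {n a : ℤ} {c : E → Y.V} (h : c ∈ Y.degB s n a) : Cm Y s e n a c :=
  ⟨fun e' h1 _ => (Y.mem_degB.1 h).1 e' h1, (Y.mem_degB.1 h).2⟩

theorem Cm.inc {Y : DG Γ} {s : I} {e : E} {n a : ℤ} {c : E → Y.V} (h : Cm Y s e n a c) : inc Y s e c ∈ Y.deg s n (a + 1) :=
  inc_mem Y h.1

theorem degB_at {Y : DG Γ} {s t : I} {e : E} (h : Sg Γ s t e) {n a : ℤ} {c : E → Y.V} (hc : c ∈ Y.degB s n a) :
    c e ∈ Y.deg t n a := h.tgt ▸ (Y.mem_degB.1 hc).1 e h.src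

theorem upd_mem {s t : I} {e : E} (h : Sg Γ s t e) {n a : ℤ} {c : E → Y.V} {u : Y.V} (hc : Cm Y s e n a c)
    (hu : u ∈ Y.deg t n a) : Function.update c e u ∈ Y.degB s n a := by
  refine Y.mem_degB.2 ⟨fun e' h1 => ?_, fun e' h1 => ?_⟩
  · by_cases h2 : e' = e
    · rw [h2, Function.update_self, h.tgt]; exact hu
    · rw [Function.update_of_ne h2]; exact hc.1 e' h1 h2
  · rw [Function.update_of_ne (by rintro rfl; exact h1 h.src)]; exact hc.2 e' h1

theorem inc_update (s : I) (e : E) (c : E → Y.V) (u : Y.V) : inc Y s e (Function.update c e u) = inc Y s e c :=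
  inc_congr Y fun _ _ h => Function.update_of_ne h ..

theorem inn_update {s : I} {e : E} (h : Γ.src e = s) (c : E → Y.V) (u : Y.V) :
    Y.inn s (Function.update c e u) = Y.x (Γ.bar e) u + inc Y s e c := by
  rw [inn_eq Y h, inc_update, Function.update_self]

theorem dB_update {t : I} {e : E} (h : Γ.tgt e = t) (c : E → Y.V) (u : Y.V) :
    Y.dB (Function.update c e u) = Function.update (Y.dB c) e (Y.d t u) := by
  funext e'
  by_cases h' : e' = e
  · rw [h', DG.dB_apply, Function.update_self, Function.update_self, h]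
  · rw [DG.dB_apply, Function.update_of_ne h', Function.update_of_ne h', DG.dB_apply]

theorem Td_zero (s i : I) (v : Y.V) : Y.Td s i (0, v) = (0, Y.d i v) := by
  by_cases h : i = s
  · rw [h, DG.Td_self, map_zero, map_zero, zero_add]
  · exact Y.Td_ne h _

theorem T_d (s : Γ.J) (i : I) : (Y.T s).d i = Y.Td s i := rfl
theorem T_x (s : Γ.J) (e : E) : (Y.T s).x e = Y.Tx s e := rfl
theorem T_τ (s : Γ.J) (i : I) : (Y.T s).τ i = Y.Tτ s i := rfl

theorem dB_lf (s : Γ.J) (c : E → Y.V) : (Y.T s).dB (lf c) = lf (Y.dB c) := funext fun _ => Td_zero Y _ _ _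

theorem dB_bj (s : Γ.J) {e : E} (h : Γ.tgt e = s) (w : (E → Y.V) × Y.V) (k : E → Y.V) :
    (Y.T s).dB (bj e w k) = bj e (Y.Td s s w) (Y.dB k) := by
  rw [bj, dB_update _ h, dB_lf]; rfl

theorem inc_lf (s : Γ.J) (e : E) (c : E → Y.V) :
    inc (Y.T s) s e (lf c) = (Y.out s (inc Y s e c), Y.τ s (inc Y s e c)) := T_inc_self Y s e _

theorem inn_lf (s : Γ.J) (c : E → Y.V) : (Y.T s).inn s (lf c) = (Y.out s (Y.inn s c), Y.τ s (Y.inn s c)) := T_inn_self Y s _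

/-- `e : s → t`, the move is at `t` -/
theorem inn_bj {s : I} {t : Γ.J} {e : E} (h : Sg Γ s t e) (w : (E → Y.V) × Y.V) (c : E → Y.V) :
    (Y.T t).inn s (bj e w c) = (0, w.1 (Γ.bar e) + inc Y s e c) := by
  have := T_inn_adj Y h.symm (bj e w c)
  rw [Γ.bar_bar, bj_same] at this
  rw [this, inc_congr Y (b' := c) fun e' _ h2 => by rw [bj_ne h2]]

theorem inc_bj {s : I} {t : Γ.J} {e : E} (h : Sg Γ s t e) (w : (E → Y.V) × Y.V) (c : E → Y.V) :
    inc (Y.T t) s e (bj e w c) = (0, inc Y s e c) := by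
  have := T_inc_adj Y h.symm (bj e w c)
  rw [Γ.bar_bar] at this
  rw [this, inc_congr Y (b' := c) fun e' _ h2 => by rw [bj_ne h2]]

theorem out_bj {s : I} {t : Γ.J} {e : E} (h : Sg Γ s t e) (p : (E → Y.V) × Y.V) :
    (Y.T t).out s p = bj e (Y.out t (Y.x e p.2), Y.τ t (Y.x e p.2)) (Y.out s p.2) := by
  funext e'
  by_cases h1 : e' = e
  · have := T_out_adj Y h.symm p
    rw [Γ.bar_bar] at this
    rw [h1, this, bj_same]
  · rw [bj_ne h1]
    by_cases h2 : Γ.src e' = s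
    · rw [T_out_adj' Y h.symm p h2 (by rwa [Γ.bar_bar]), Y.out_apply_of h2]
    · rw [out_ne _ _ h2, out_ne _ _ h2]; rfl

theorem out_lf (s : Γ.J) {δ : E → Y.V} (hδ : ∀ e', Γ.src e' ≠ s → δ e' = 0) (v : Y.V) : (Y.T s).out s (δ, v) = lf δ := by
  funext e'
  by_cases h2 : Γ.src e' = s
  · rw [T_out_self Y s _ h2]; rfl
  · rw [out_ne _ _ h2, lf_apply, hδ e' h2]; rfl

theorem out_out (s : Γ.J) (u v : Y.V) : (Y.T s).out s (Y.out s u, v) = lf (Y.out s u) :=
  out_lf Y s (fun _ h => out_ne Y u h) v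

theorem bj_mem {s : I} {t : Γ.J} {e : E} (h : Sg Γ s t e) {n a : ℤ} {w : (E → Y.V) × Y.V} {c : E → Y.V}
    (hw : w ∈ (Y.T t).deg t n a) (hc : Cm Y s e n a c) : bj e w c ∈ (Y.T t).degB s n a :=
  upd_mem (Y.T t) h ⟨fun e' h1 h2 => (Y.T_mem_ne t (h.tgt_ne h1 h2)).2 ⟨rfl, hc.1 e' h1 h2⟩,
    fun e' h1 => by rw [lf_apply, hc.2 e' h1]; rfl⟩ hw

theorem bj_cases {s : I} {t : Γ.J} {e : E} (h : Sg Γ s t e) {n a : ℤ} {β : E → (E → Y.V) × Y.V}
    (hβ : β ∈ (Y.T t).degB s n a) : ∃ w c, β = bj e w c ∧ w ∈ (Y.T t).deg t n a ∧ Cm Y s e n a c := by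
  have h0 := (Y.T t).mem_degB.1 hβ
  refine ⟨β e, fun e' => (β e').2, funext fun e' => ?_, degB_at h hβ,
    fun e' h1 h2 => ((Y.T_mem_ne t (h.tgt_ne h1 h2)).1 (h0.1 e' h1)).2, fun e' h1 => congrArg Prod.snd (h0.2 e' h1)⟩
  by_cases h1 : e' = e
  · rw [h1, bj_same]
  · rw [bj_ne h1]
    by_cases h2 : Γ.src e' = s
    · exact Prod.ext ((Y.T_mem_ne t (h.tgt_ne h2 h1)).1 (h0.1 e' h2)).1 rfl
    · rw [h0.2 e' h2]; rfl

theorem Cm.lf {Y : DG Γ} {s : Γ.J} {e : E} {n a : ℤ} {c : E → Y.V} (hc : Cm Y s e n a c) : Cm (Y.T s) s e n a (lf c) :=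
  ⟨fun e' h1 h2 => (Y.T_mem_ne s (Γ.tgt_ne' h1)).2 ⟨rfl, hc.1 e' h1 h2⟩, fun e' h1 => by rw [lf_apply, hc.2 e' h1]; rfl⟩

theorem lf_cases {s : Γ.J} {e : E} {n a : ℤ} {c : E → (E → Y.V) × Y.V} (hc : Cm (Y.T s) s e n a c) {A : Type}
    [AddCommGroup A] [Module K A] (w : A × ((E → Y.V) × Y.V)) : ∃ c', bj e w c = bj e w (lf c') ∧ Cm Y s e n a c' := by
  refine ⟨fun e' => (c e').2, bj_ext rfl fun e' h2 => ?_,
    fun e' h1 h2 => ((Y.T_mem_ne s (Γ.tgt_ne' h1)).1 (hc.1 e' h1 h2)).2, fun e' h1 => congrArg Prod.snd (hc.2 e' h1)⟩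
  by_cases h1 : Γ.src e' = s
  · exact Prod.ext ((Y.T_mem_ne s (Γ.tgt_ne' h1)).1 (hc.1 e' h1 h2)).1 rfl
  · rw [lf_apply, hc.2 e' h1]; rfl

theorem ne_cases (s : Γ.J) {i : I} (hi : i ≠ s) {n a : ℤ} {p : (E → Y.V) × Y.V} (hp : p ∈ (Y.T s).deg i n a) :
    ∃ v, p = (0, v) ∧ v ∈ Y.deg i n a :=
  ⟨p.2, Prod.ext ((Y.T_mem_ne s hi).1 hp).1 rfl, ((Y.T_mem_ne s hi).1 hp).2⟩

/-- elements of `(T_s T_t Y)_s` -/
theorem cases2 {s t : Γ.J} {e : E} (h : Sg Γ s t e) {n a : ℤ} {q : (E → (E → Y.V) × Y.V) × (E → Y.V) × Y.V}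
    (hq : q ∈ ((Y.T t).T s).deg s n a) : ∃ κ t1 c s1, q = (bj e (κ, t1) c, (0, s1)) ∧ κ ∈ Y.degB t n (a + 2) ∧
      t1 ∈ Y.deg t (n - 1) (a + 3) ∧ Cm Y s e n (a + 1) c ∧ s1 ∈ Y.deg s (n - 1) (a + 2) := by
  obtain ⟨β, r⟩ := q
  obtain ⟨h1, h2⟩ := ((Y.T t).T_mem_self s).1 hq
  obtain ⟨⟨κ, t1⟩, c, rfl, hw, hc⟩ := bj_cases Y h h1
  obtain ⟨s1, rfl, hs⟩ := ne_cases Y t h.symm.ne h2
  obtain ⟨h3, h4⟩ := (Y.T_mem_self t).1 hw
  exact ⟨κ, t1, c, s1, rfl, Y.castB h3, Y.cast h4, hc, hs⟩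

theorem mem2 {s t : Γ.J} {e : E} (h : Sg Γ s t e) {n a : ℤ} {κ c : E → Y.V} {t1 s1 : Y.V} (h1 : κ ∈ Y.degB t n (a + 2))
    (h2 : t1 ∈ Y.deg t (n - 1) (a + 3)) (h3 : Cm Y s e n (a + 1) c) (h4 : s1 ∈ Y.deg s (n - 1) (a + 2)) :
    (bj e (κ, t1) c, ((0 : E → Y.V), s1)) ∈ ((Y.T t).T s).deg s n a :=
  ((Y.T t).T_mem_self s).2 ⟨bj_mem Y h ((Y.T_mem_self t).2 ⟨Y.castB h1, Y.cast h2⟩) h3,
    (Y.T_mem_ne t h.symm.ne).2 ⟨rfl, h4⟩⟩

/-- the differential of `(T_s T_t Y)_s` -/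
theorem d2 {s t : Γ.J} {e : E} (h : Sg Γ s t e) (κ c : E → Y.V) (t1 s1 : Y.V) :
    (Y.T t).Td s s (bj e (κ, t1) c, (0, s1)) =
      (bj e (Y.dB κ, Y.inn t κ + Y.d t t1) (Y.dB c), (0, κ (Γ.bar e) + inc Y s e c + Y.d s s1)) := by
  rw [DG.Td_self, dB_bj Y t h.tgt, inn_bj Y h, T_d, Td_zero, DG.Td_self, Prod.mk_add_mk, add_zero]

end Crest.Agent.R175.Mod.Br
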