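import Crest.Agent.R175.Mod.BrZ

/-! # R175/Mod/BrW (helper48).  Local computations for the weak morphism `S_s Z → T_t T_s X`. -/

set_option autoImplicit false
noncomputable section
open Classical

namespace Crest.Agent.R175.Mod

variable {I E : Type} [Fintype E] {Γ : Gr I E}

omit [Fintype E] in
theorem Br.nP (B : Br Γ) {ε e : E} (h1 : B.P (Γ.src ε)) (h2 : B.P (Γ.tgt ε)) (he : Γ.src e = Γ.src ε) (hne : e ≠ ε) :
    ¬B.P (Γ.tgt e) := fun h => hne (by rw [← B.uniq (he ▸ h1) h, he, B.uniq h1 h2])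

namespace DG

variable (X : DG Γ)

/-- `b ↦ (e ↦ (0, 0, b e))` -/
def jB : (E → X.V) →ₗ[K] (E → X.P3) := LinearMap.pi fun e => X.Z3 ∘ₗ LinearMap.proj e

/-- third components -/
def pB : (E → X.P3) →ₗ[K] (E → X.V) := LinearMap.pi fun e => X.Zp ∘ₗ LinearMap.proj e

@[simp] theorem jB_apply (b : E → X.V) (e : E) : X.jB b e = (0, 0, b e) := rfl
@[simp] theorem pB_apply (β : E → X.P3) (e : E) : X.pB β e = (β e).2.2 := rfl
@[simp] theorem pB_jB (b : E → X.V) : X.pB (X.jB b) = b := rfl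

theorem pB_single (e : E) (w : X.P3) : X.pB (Pi.single e w) = Pi.single e w.2.2 := by
  ext e'
  by_cases h : e' = e
  · subst h; simp
  · simp [h]

theorem sB_single (e : E) (w : (E → X.V) × X.V) : X.sB (Pi.single e w) = Pi.single e w.2 := by
  ext e'
  by_cases h : e' = e
  · subst h; simp
  · simp [h]

section Z
variable {B : Br Γ} {ε : E} (h1 : B.P (Γ.src ε)) (h2 : B.P (Γ.tgt ε))
include h1 h2

theorem Z_inn (β : E → X.P3) : (X.Zm B).inn (Γ.src ε) β = X.ZX (Γ.bar ε) (β ε) + X.ZI ε (X.iA ε (X.pB β)) := by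
  rw [inn_apply, ← Finset.add_sum_erase _ _ (Γ.mem_O.2 rfl : ε ∈ _), ← iA_sum, map_sum]
  refine congrArg₂ _ (congrArg (· (β ε)) (X.Zx_PP (e := Γ.bar ε) h2 (by rwa [Γ.tgt_bar]))) (Finset.sum_congr rfl fun e he => ?_)
  rw [Finset.mem_erase, Γ.mem_O] at he
  have := X.Zx_in (e := Γ.bar e) (B.nP h1 h2 he.2 he.1) (by rwa [Γ.tgt_bar, he.2]) (β e)
  rwa [Γ.tgt_bar, he.2, B.uniq h1 h2] at this

theorem Z_out {n a : ℤ} {z : X.P3} (hz : z.1 ∈ X.degA ε n a) : (X.Zm B).out (Γ.src ε) z = X.jB z.1 + Pi.single ε (X.ZX ε z) := by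
  ext1 e
  rw [out_apply, Pi.add_apply, jB_apply]
  by_cases he : e = ε
  · subst he
    rw [if_pos rfl, Pi.single_eq_same, (X.mem_degA.1 hz).2]
    exact (congrArg (· z) (X.Zx_PP h1 h2)).trans (zero_add _).symm
  · rw [Pi.single_eq_of_ne he, add_zero]
    split_ifs with hs
    · exact X.Zx_out (hs ▸ h1) (B.nP h1 h2 hs he) z
    · rw [(X.mem_degB.1 hz.1).2 e hs]; rfl

theorem Z_dB {n a : ℤ} {α : E → X.V} (hα : α ∈ X.degA ε n a) (w : X.P3) :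
    (X.Zm B).dB (X.jB α + Pi.single ε w) = X.jB (X.dB α) + Pi.single ε (X.ZD (Γ.bar ε) w) := by
  ext1 e
  show X.Zd B (Γ.tgt e) (X.jB α e + (Pi.single ε w : E → X.P3) e) = X.jB (X.dB α) e + (Pi.single ε (X.ZD (Γ.bar ε) w) : E → X.P3) e
  by_cases he : e = ε
  · subst he
    simp [X.Zd_P h2, B.uniq' h1 h2, (X.mem_degA.1 hα).2, Prod.mk_zero_zero]
  · by_cases hs : Γ.src e = Γ.src ε
    · simp [he, X.Zd_ne (B.nP h1 h2 hs he)]
    · simp [he, (X.mem_degB.1 hα.1).2 e hs, Prod.mk_zero_zero]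

theorem Z_memB {n a : ℤ} {β : E → X.P3} :
    β ∈ (X.Zm B).degB (Γ.src ε) n a ↔ ∃ α ∈ X.degA ε n a, ∃ w ∈ X.degZ (Γ.bar ε) n a, β = X.jB α + Pi.single ε w := by
  rw [mem_degB]
  constructor
  · rintro ⟨h3, h4⟩
    have h5 : ∀ e, Γ.src e = Γ.src ε → e ≠ ε → (β e).1 = 0 ∧ (β e).2.1 = 0 ∧ (β e).2.2 ∈ X.deg (Γ.tgt e) n a :=
      fun e hs he => (X.mem_Zdeg_ne (B.nP h1 h2 hs he)).1 (h3 e hs)
    refine ⟨fun e => if e = ε then 0 else (β e).2.2, ⟨X.mem_degB.2 ⟨fun e hs => ?_, fun e hs => ?_⟩, if_pos rfl⟩, β ε, ?_,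
      funext fun e => ?_⟩
    · split_ifs with he
      · exact zero_mem _
      · exact (h5 e hs he).2.2
    · simp [h4 e hs]
    · have := h3 ε rfl
      rwa [show (X.Zm B).deg = X.Zdeg B from rfl, X.Zdeg_P h2, B.uniq' h1 h2] at this
    · by_cases he : e = ε
      · subst he
        simp [Prod.mk_zero_zero]
      · by_cases hs : Γ.src e = Γ.src ε
        · refine Prod.ext ?_ (Prod.ext ?_ ?_) <;> simp [he, (h5 e hs he).1, (h5 e hs he).2.1]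
        · simp [he, h4 e hs, Prod.mk_zero_zero]
  · rintro ⟨α, hα, w, hw, rfl⟩
    refine ⟨fun e hs => ?_, fun e hs => ?_⟩
    · show _ ∈ X.Zdeg B _ _ _
      by_cases he : e = ε
      · subst he
        simpa [X.Zdeg_P h2, B.uniq' h1 h2, (X.mem_degA.1 hα).2, Prod.mk_zero_zero] using hw
      · simpa [X.mem_Zdeg_ne (B.nP h1 h2 hs he), he] using (X.mem_degB.1 hα.1).1 e hs
    · have he : e ≠ ε := fun h => hs (h ▸ rfl)
      simp [he, (X.mem_degB.1 hα.1).2 e hs, Prod.mk_zero_zero]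

end Z

section T
variable {ε : E} (s : Γ.J) (hs : Γ.src ε = s) (hu : ∀ e, Γ.src e = Γ.tgt ε → e ≠ Γ.bar ε → Γ.tgt e ≠ s)
include hs hu

theorem Tt_inn {γ : E → X.V} (hγ : γ (Γ.bar ε) = 0) (w : (E → X.V) × X.V) :
    (X.T s).inn (Γ.tgt ε) (X.iB γ + Pi.single (Γ.bar ε) w) = (0, X.iA (Γ.bar ε) γ + w.1 ε) := by
  rw [inn_apply, ← Finset.add_sum_erase _ _ (Γ.mem_O.2 rfl : Γ.bar ε ∈ Γ.O (Γ.tgt ε)),
    Finset.sum_congr rfl (g := fun e => (0, X.x (Γ.bar e) (γ e))) fun e he => ?_, sum_pair, ← X.iA_sum (Γ.bar ε)]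
  · simp [X.Tx_src hs, hγ, add_comm]
  · rw [Finset.mem_erase, Γ.mem_O] at he
    simp [X.Tx_ne (e := Γ.bar e) (hu e he.2 he.1) (by rw [Γ.tgt_bar, he.2]; exact Γ.tgt_ne' hs), he.1]

theorem Tt_out (q : (E → X.V) × X.V) : (X.T s).out (Γ.tgt ε) q =
    X.iB (X.oA (Γ.bar ε) q.2) + Pi.single (Γ.bar ε) (X.out s (X.x (Γ.bar ε) q.2), X.τ s (X.x (Γ.bar ε) q.2)) := by
  ext1 e
  rw [out_apply, Pi.add_apply, iB_apply]
  by_cases he : e = Γ.bar ε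
  · subst he
    simp [X.Tx_tgt (e := Γ.bar ε) (by simpa using hs)]
  · rw [Pi.single_eq_of_ne he, add_zero]
    split_ifs with h
    · rw [X.oA_ne (ε := Γ.bar ε) h he]
      exact X.Tx_ne (by rw [h]; exact Γ.tgt_ne' hs) (hu e h he) q
    · simp [oA_apply, out_apply, h, he, Prod.mk_zero_zero]

theorem Tt_dB {n a : ℤ} {γ : E → X.V} (hγ : γ ∈ X.degA (Γ.bar ε) n a) (w : (E → X.V) × X.V) :
    (X.T s).dB (X.iB γ + Pi.single (Γ.bar ε) w) = X.iB (X.dB γ) + Pi.single (Γ.bar ε) (X.Td s s w) := by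
  ext1 e
  show X.Td s (Γ.tgt e) (X.iB γ e + (Pi.single (Γ.bar ε) w : E → _) e) = X.iB (X.dB γ) e + (Pi.single (Γ.bar ε) (X.Td s s w) : E → _) e
  by_cases he : e = Γ.bar ε
  · subst he
    simp [hs, (X.mem_degA.1 hγ).2, Prod.mk_zero_zero]
  · by_cases h : Γ.src e = Γ.tgt ε
    · simp [he, X.Td_ne (hu e h he)]
    · simp [he, (X.mem_degB.1 hγ.1).2 e h, Prod.mk_zero_zero]

theorem Tt_memB {n a : ℤ} {β : E → (E → X.V) × X.V} : β ∈ (X.T s).degB (Γ.tgt ε) n a ↔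
    ∃ γ ∈ X.degA (Γ.bar ε) n a, ∃ w ∈ (X.T s).deg s n a, β = X.iB γ + Pi.single (Γ.bar ε) w := by
  rw [mem_degB]
  constructor
  · rintro ⟨h3, h4⟩
    have h5 : ∀ e, Γ.src e = Γ.tgt ε → e ≠ Γ.bar ε → (β e).1 = 0 ∧ (β e).2 ∈ X.deg (Γ.tgt e) n a :=
      fun e h he => (X.T_mem_ne s (hu e h he)).1 (h3 e h)
    refine ⟨fun e => if e = Γ.bar ε then 0 else (β e).2, ⟨X.mem_degB.2 ⟨fun e h => ?_, fun e h => ?_⟩, if_pos rfl⟩, β (Γ.bar ε), ?_,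
      funext fun e => ?_⟩
    · split_ifs with he
      · exact zero_mem _
      · exact (h5 e h he).2
    · simp [h4 e h]
    · have := h3 (Γ.bar ε) rfl
      rwa [Γ.tgt_bar, hs] at this
    · by_cases he : e = Γ.bar ε
      · subst he
        simp [Prod.mk_zero_zero]
      · by_cases h : Γ.src e = Γ.tgt ε
        · simp [he, ← (h5 e h he).1]
        · simp [he, h4 e h, Prod.mk_zero_zero]
  · rintro ⟨γ, hγ, w, hw, rfl⟩
    refine ⟨fun e h => ?_, fun e h => ?_⟩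
    · by_cases he : e = Γ.bar ε
      · subst he
        simpa [hs, (X.mem_degA.1 hγ).2, Prod.mk_zero_zero] using hw
      · rw [X.T_mem_ne s (hu e h he)]
        simpa [he] using (X.mem_degB.1 hγ.1).1 e h
    · have he : e ≠ Γ.bar ε := fun h' => h (h' ▸ rfl)
      simp [he, (X.mem_degB.1 hγ.1).2 e h, Prod.mk_zero_zero]

end T

/-- `(γ, α, v) ↦ ((α, j γ), v)` -/
def Yv (ε : E) : X.P3 →ₗ[K] (E → X.V) × X.V :=
  (LinearMap.fst K _ _ ∘ₗ LinearMap.snd K _ _ + LinearMap.single K (fun _ => X.V) ε ∘ₗ X.iA (Γ.bar ε) ∘ₗ LinearMap.fst K _ _).prod X.Zp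

/-- the map at `src ε` -/
def πs (ε : E) : (E → X.P3) × X.P3 →ₗ[K] (E → X.V) × X.V :=
  ((X.out (Γ.src ε)).prod (X.τ (Γ.src ε))) ∘ₗ X.iA ε ∘ₗ X.pB ∘ₗ LinearMap.fst K _ _ + X.Yv ε ∘ₗ LinearMap.proj ε ∘ₗ LinearMap.fst K _ _ +
    LinearMap.inl K _ _ ∘ₗ LinearMap.single K (fun _ => X.V) ε ∘ₗ X.Zp ∘ₗ LinearMap.snd K _ _

/-- `((α, u), v) ↦ (α, p u, τ u + x v)` -/
def Mz (ε : E) (w : (E → X.V) × X.V) : X.P3 :=
  (w.1 + Pi.single ε (w.1 ε), X.oA (Γ.bar ε) (w.1 ε), X.τ (Γ.tgt ε) (w.1 ε) + X.x ε w.2)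

/-- `((α, u), v) ↦ ((o v, τ u), σ v)` -/
def κ (ε : E) : (E → X.V) × X.V →ₗ[K] (E → X.V) × X.V :=
  (X.oA ε ∘ₗ LinearMap.snd K _ _ + LinearMap.single K (fun _ => X.V) ε ∘ₗ X.τ (Γ.tgt ε) ∘ₗ LinearMap.proj ε ∘ₗ LinearMap.fst K _ _).prod
    (X.τ (Γ.src ε) ∘ₗ LinearMap.snd K _ _)

theorem Yv_apply (ε : E) (w : X.P3) : X.Yv ε w = (w.2.1 + Pi.single ε (X.iA (Γ.bar ε) w.1), w.2.2) := rfl
theorem κ_apply (ε : E) (w : (E → X.V) × X.V) :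
    X.κ ε w = (X.oA ε w.2 + Pi.single ε (X.τ (Γ.tgt ε) (w.1 ε)), X.τ (Γ.src ε) w.2) := rfl
theorem πs_apply (ε : E) (p : (E → X.P3) × X.P3) : X.πs ε p =
    (X.out (Γ.src ε) (X.iA ε (X.pB p.1)), X.τ (Γ.src ε) (X.iA ε (X.pB p.1))) + X.Yv ε (p.1 ε) + (Pi.single ε p.2.2.2, 0) := rfl

theorem πs_mk {ε : E} {α : E → X.V} (hα : α ε = 0) (w z : X.P3) : X.πs ε (X.jB α + Pi.single ε w, z) =
    (X.oA ε (X.iA ε α) + w.2.1 + Pi.single ε (X.x ε (X.iA ε α) + X.iA (Γ.bar ε) w.1 + z.2.2), X.τ (Γ.src ε) (X.iA ε α) + w.2.2) := by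
  simp only [πs_apply, map_add, pB_jB, pB_single, iA_single_self, add_zero, Pi.add_apply, jB_apply, hα, Pi.single_eq_same, Yv_apply,
    out_eq, map_zero, Pi.single_zero, Pi.single_add, Prod.mk_add_mk, zero_add, Prod.mk.injEq, and_true]
  c2

theorem Td_Yv {ε : E} {w : X.P3} (hw : w.2.1 ε = 0) : X.Td (Γ.src ε) (Γ.src ε) (X.Yv ε w) = X.Yv ε (X.ZD (Γ.bar ε) w) := by
  simp only [Td_self, Yv_apply, ZD_apply, map_add, dB_single, d_iA', inn_eq, hw, iA_single_self, Pi.single_eq_same, Γ.bar_bar, Γ.tgt_bar,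
    map_zero, add_zero, zero_add, Prod.mk.injEq, true_and]
  c2

theorem W1 {ε : E} (h : Γ.src ε ∈ Γ.J) (h' : Γ.tgt ε ∈ Γ.J) (w : (E → X.V) × X.V) :
    X.Yv ε (X.ZX ε (X.Mz ε w)) + (X.out (Γ.src ε) (X.x (Γ.bar ε) (w.1 ε)), X.τ (Γ.src ε) (X.x (Γ.bar ε) (w.1 ε))) =
      X.Td (Γ.src ε) (Γ.src ε) (X.κ ε w) + X.κ ε (X.Td (Γ.src ε) (Γ.src ε) w) := by
  simp only [Td_self, Yv_apply, ZX_apply, κ_apply, Mz, map_add, dB_single, dB_oA, inn_eq, out_eq, iA_single_self, Pi.single_eq_same,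
    oA_self, X.dτA h, X.dτA' h', dB_apply, Pi.single_add, map_zero, add_zero, zero_add, Prod.mk_add_mk, Prod.mk.injEq]
  exact ⟨by c2, by c2⟩

theorem W2 {ε : E} (h' : Γ.tgt ε ∈ Γ.J) (z : X.V) :
    X.Yv ε (X.ZI (Γ.bar ε) z) + (X.out (Γ.src ε) (X.x (Γ.bar ε) z), X.τ (Γ.src ε) (X.x (Γ.bar ε) z)) =
      X.Td (Γ.src ε) (Γ.src ε) (Pi.single ε (X.τ (Γ.tgt ε) z), 0) + (Pi.single ε (X.τ (Γ.tgt ε) (X.d (Γ.tgt ε) z)), 0) := by
  simp only [Td_self, Yv_apply, ZI_apply, dB_single, inn_eq, out_eq, iA_single_self, Pi.single_eq_same, Γ.bar_bar, Γ.tgt_bar, Γ.src_bar,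
    X.dτA' h', Pi.single_add, map_zero, add_zero, zero_add, Prod.mk_add_mk, Prod.mk.injEq]
  exact ⟨by c2, by c2⟩

section Z
variable {B : Br Γ} {ε : E} (h1 : B.P (Γ.src ε)) (h2 : B.P (Γ.tgt ε))
include h1 h2

theorem Z_ev {p : (E → X.P3) × X.P3} (hw : (p.1 ε).2.1 ε = 0) : (X.Zm B).ev (Γ.src ε) p = X.Mz ε (X.πs ε p) := by
  rw [ev_apply, X.Z_inn h1 h2, show (X.Zm B).τ (Γ.src ε) = X.ZS ε from (X.Zτ_P h1).trans (by rw [B.uniq h1 h2])]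
  simp only [πs_apply, Mz, ZX_apply, ZI_apply, ZS_apply, Yv_apply, out_eq, Prod.mk_add_mk, Pi.add_apply, oA_self, Pi.single_eq_same, hw,
    map_add, Pi.single_add, Γ.bar_bar, Γ.src_bar, zero_add, add_zero, Prod.mk.injEq]
  exact ⟨by c2, by c2, by c2⟩

theorem Z_Sd {n a n' a' : ℤ} {α : E → X.V} (hα : α ∈ X.degA ε n a) (w : X.P3) {z : X.P3} (hz : z.1 ∈ X.degA ε n' a') :
    (X.Zm B).Sd (Γ.src ε) (Γ.src ε) (X.jB α + Pi.single ε w, z) =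
      (X.jB (X.dB α + z.1) + Pi.single ε (X.ZD (Γ.bar ε) w + X.ZX ε z), X.ZD ε z) := by
  rw [Sd_self, X.Z_dB h1 h2 hα, X.Z_out h1 h2 hz, show (X.Zm B).d (Γ.src ε) = X.ZD ε from
    (X.Zd_P h1).trans (by rw [B.uniq h1 h2]), map_add, Pi.single_add]
  congr 1
  c2

theorem πs_Sd {n a n' a' : ℤ} {α : E → X.V} (hα : α ∈ X.degA ε n a) {w : X.P3} (hw : w.2.1 ε = 0) {z : X.P3} (hz : z.1 ∈ X.degA ε n' a') :
    X.πs ε ((X.Zm B).Sd (Γ.src ε) (Γ.src ε) (X.jB α + Pi.single ε w, z)) =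
      X.Td (Γ.src ε) (Γ.src ε) (X.πs ε (X.jB α + Pi.single ε w, z)) := by
  rw [X.Z_Sd h1 h2 hα w hz, X.πs_mk (X.mem_degA.1 hα).2, X.πs_mk (by
    rw [Pi.add_apply, (X.mem_degA.1 hz).2, (X.mem_degA.1 (X.dB_memA hα)).2, add_zero])]
  simp only [Td_self, ZD_apply, ZX_apply, map_add, dB_oA, dB_single, d_iA, d_iA', X.dx, inn_eq, oA_self, hw, iA_single_self,
    Pi.single_eq_same, Pi.single_add, X.dτA (B.J h1), Γ.bar_bar, Γ.tgt_bar, Prod.mk_add_mk, map_zero, add_zero, zero_add, Prod.mk.injEq]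
  exact ⟨by c2, by c2⟩

end Z

end DG

end Crest.Agent.R175.Mod
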