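import Crest.Agent.R175.Mod.Act

/-! # R175/Mod/BrZ (helper48).  The symmetric small model of `T_s T_t T_s X` for a simple edge `s - t`. -/

set_option autoImplicit false
noncomputable section
open Classical

namespace Crest.Agent.R175.Mod

variable {I E : Type} [Fintype E] {Γ : Gr I E}

namespace DG

variable (X : DG Γ)

/-- the arrows into `src ε` except `bar ε` -/
def iA (ε : E) : (E → X.V) →ₗ[K] X.V := X.inn (Γ.src ε) + X.x (Γ.bar ε) ∘ₗ LinearMap.proj ε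

/-- the arrows out of `src ε` except `ε` -/
def oA (ε : E) : X.V →ₗ[K] (E → X.V) := X.out (Γ.src ε) + LinearMap.single K (fun _ => X.V) ε ∘ₗ X.x ε

/-- the neighbours of `src ε` except the one along `ε` -/
def degA (ε : E) (n a : ℤ) : Submodule K (E → X.V) := X.degB (Γ.src ε) n a ⊓ LinearMap.ker (LinearMap.proj ε)

theorem iA_apply (ε : E) (b : E → X.V) : X.iA ε b = X.inn (Γ.src ε) b + X.x (Γ.bar ε) (b ε) := rfl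
theorem oA_apply (ε : E) (v : X.V) : X.oA ε v = X.out (Γ.src ε) v + Pi.single ε (X.x ε v) := rfl
theorem mem_degA {ε : E} {n a : ℤ} {b : E → X.V} : b ∈ X.degA ε n a ↔ b ∈ X.degB (Γ.src ε) n a ∧ b ε = 0 := Iff.rfl

theorem inn_eq (ε : E) (b : E → X.V) : X.inn (Γ.src ε) b = X.iA ε b + X.x (Γ.bar ε) (b ε) := by rw [iA_apply]; c2
theorem out_eq (ε : E) (v : X.V) : X.out (Γ.src ε) v = X.oA ε v + Pi.single ε (X.x ε v) := by rw [oA_apply]; c2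

@[simp] theorem oA_self (ε : E) (v : X.V) : X.oA ε v ε = 0 := by
  rw [oA_apply, Pi.add_apply, X.out_apply_of rfl, Pi.single_eq_same, add_self']

theorem oA_ne {ε e : E} (h1 : Γ.src e = Γ.src ε) (h2 : e ≠ ε) (v : X.V) : X.oA ε v e = X.x e v := by
  rw [oA_apply, Pi.add_apply, X.out_apply_of h1, Pi.single_eq_of_ne h2, add_zero]

theorem dx_bar (e : E) (v : X.V) : X.d (Γ.src e) (X.x (Γ.bar e) v) = X.x (Γ.bar e) (X.d (Γ.tgt e) v) := X.dx' rfl (Γ.tgt_bar e) v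

theorem d_iA (ε : E) (b : E → X.V) : X.d (Γ.src ε) (X.iA ε b) = X.iA ε (X.dB b) := by
  rw [iA_apply, iA_apply, map_add, d_inn, dx_bar, dB_apply]

theorem d_iA' (ε : E) (b : E → X.V) : X.d (Γ.tgt ε) (X.iA (Γ.bar ε) b) = X.iA (Γ.bar ε) (X.dB b) := X.d_iA (Γ.bar ε) b

theorem dB_oA (ε : E) (v : X.V) : X.dB (X.oA ε v) = X.oA ε (X.d (Γ.src ε) v) := by
  rw [oA_apply, oA_apply, map_add, dB_out, dB_single, X.dx]

@[simp] theorem iA_single_self (ε : E) (v : X.V) : X.iA ε (Pi.single ε v) = 0 := by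
  rw [iA_apply, X.inn_single rfl, Pi.single_eq_same, add_self']

theorem iA_single_ne {ε e : E} (h1 : Γ.src e = Γ.src ε) (h2 : e ≠ ε) (v : X.V) : X.iA ε (Pi.single e v) = X.x (Γ.bar e) v := by
  rw [iA_apply, X.inn_single h1, Pi.single_eq_of_ne h2.symm, map_zero, add_zero]

theorem dτA {ε : E} (h : Γ.src ε ∈ Γ.J) (v : X.V) :
    X.d (Γ.src ε) (X.τ (Γ.src ε) v) = X.iA ε (X.oA ε v) + X.x (Γ.bar ε) (X.x ε v) + X.τ (Γ.src ε) (X.d (Γ.src ε) v) := by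
  rw [X.dτ h, inn_eq, X.out_apply_of rfl, out_eq, map_add, iA_single_self, add_zero]

theorem dτA' {ε : E} (h : Γ.tgt ε ∈ Γ.J) (v : X.V) : X.d (Γ.tgt ε) (X.τ (Γ.tgt ε) v) =
    X.iA (Γ.bar ε) (X.oA (Γ.bar ε) v) + X.x ε (X.x (Γ.bar ε) v) + X.τ (Γ.tgt ε) (X.d (Γ.tgt ε) v) := by
  have := X.dτA (ε := Γ.bar ε) h v
  rwa [Γ.bar_bar] at this

theorem iA_sum (ε : E) (b : E → X.V) : ∑ e ∈ (Γ.O (Γ.src ε)).erase ε, X.x (Γ.bar e) (b e) = X.iA ε b := by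
  rw [iA_apply, inn_apply, ← Finset.add_sum_erase _ _ (Γ.mem_O.2 rfl : ε ∈ _)]
  c2

theorem castA {ε : E} {n a n' a' : ℤ} {b : E → X.V} (h : b ∈ X.degA ε n a) (hn : n = n' := by omega) (ha : a = a' := by omega) :
    b ∈ X.degA ε n' a' := hn ▸ ha ▸ h

theorem dB_memA {ε : E} {n a : ℤ} {b : E → X.V} (h : b ∈ X.degA ε n a) : X.dB b ∈ X.degA ε (n + 1) a :=
  ⟨X.dB_mem h.1, by
    show X.d _ (b ε) = 0
    rw [(X.mem_degA.1 h).2, map_zero]⟩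

theorem iA_mem {ε : E} {n a : ℤ} {b : E → X.V} (h : b ∈ X.degA ε n a) : X.iA ε b ∈ X.deg (Γ.src ε) n (a + 1) := by
  rw [iA_apply, (X.mem_degA.1 h).2, map_zero, add_zero]
  exact X.inn_mem h.1

theorem oA_mem {ε : E} {n a : ℤ} {v : X.V} (h : v ∈ X.deg (Γ.src ε) n a) : X.oA ε v ∈ X.degA ε n (a + 1) :=
  ⟨add_mem (X.out_mem h) (X.single_mem rfl (X.x_mem h)), X.oA_self ε v⟩

theorem xbar_mem {ε : E} {n a : ℤ} {v : X.V} (h : v ∈ X.deg (Γ.tgt ε) n a) : X.x (Γ.bar ε) v ∈ X.deg (Γ.src ε) n (a + 1) :=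
  X.x_mem' rfl (Γ.tgt_bar ε) h

theorem degB_split (ε : E) {n a : ℤ} {b : E → X.V} :
    b ∈ X.degB (Γ.src ε) n a ↔ ∃ α ∈ X.degA ε n a, ∃ u ∈ X.deg (Γ.tgt ε) n a, b = α + Pi.single ε u := by
  constructor
  · intro h
    have hu := (X.mem_degB.1 h).1 ε rfl
    exact ⟨b + Pi.single ε (b ε), ⟨add_mem h (X.single_mem rfl hu), by simp [add_self']⟩, b ε, hu, by c2⟩
  · rintro ⟨α, hα, u, hu, rfl⟩
    exact add_mem hα.1 (X.single_mem rfl hu)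

/-- ambient space of the small model -/
abbrev P3 : Type := (E → X.V) × (E → X.V) × X.V

def ZD (ε : E) : X.P3 →ₗ[K] X.P3 :=
  (X.dB ∘ₗ LinearMap.fst K _ _).prod ((X.dB ∘ₗ LinearMap.fst K _ _ ∘ₗ LinearMap.snd K _ _).prod
    (X.x ε ∘ₗ X.iA ε ∘ₗ LinearMap.fst K _ _ + X.iA (Γ.bar ε) ∘ₗ LinearMap.fst K _ _ ∘ₗ LinearMap.snd K _ _ +
      X.d (Γ.tgt ε) ∘ₗ LinearMap.snd K _ _ ∘ₗ LinearMap.snd K _ _))

def ZX (ε : E) : X.P3 →ₗ[K] X.P3 :=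
  (LinearMap.fst K _ _ ∘ₗ LinearMap.snd K _ _).prod ((X.oA ε ∘ₗ X.iA ε ∘ₗ LinearMap.fst K _ _).prod
    (X.τ (Γ.src ε) ∘ₗ X.iA ε ∘ₗ LinearMap.fst K _ _ + X.x (Γ.bar ε) ∘ₗ LinearMap.snd K _ _ ∘ₗ LinearMap.snd K _ _))

def ZI (ε : E) : X.V →ₗ[K] X.P3 :=
  (X.oA ε).prod ((X.oA (Γ.bar ε) ∘ₗ X.x ε).prod (X.x ε ∘ₗ X.τ (Γ.src ε) + X.τ (Γ.tgt ε) ∘ₗ X.x ε))

def ZS (ε : E) : X.P3 →ₗ[K] X.P3 :=
  LinearMap.inr K _ _ ∘ₗ ((X.oA (Γ.bar ε)).prod (X.τ (Γ.tgt ε))) ∘ₗ LinearMap.snd K _ _ ∘ₗ LinearMap.snd K _ _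

def Z3 : X.V →ₗ[K] X.P3 := LinearMap.inr K _ _ ∘ₗ LinearMap.inr K _ _

def Zp : X.P3 →ₗ[K] X.V := LinearMap.snd K _ _ ∘ₗ LinearMap.snd K _ _

theorem ZD_apply (ε : E) (p : X.P3) :
    X.ZD ε p = (X.dB p.1, X.dB p.2.1, X.x ε (X.iA ε p.1) + X.iA (Γ.bar ε) p.2.1 + X.d (Γ.tgt ε) p.2.2) := rfl
theorem ZX_apply (ε : E) (p : X.P3) :
    X.ZX ε p = (p.2.1, X.oA ε (X.iA ε p.1), X.τ (Γ.src ε) (X.iA ε p.1) + X.x (Γ.bar ε) p.2.2) := rfl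
theorem ZI_apply (ε : E) (z : X.V) :
    X.ZI ε z = (X.oA ε z, X.oA (Γ.bar ε) (X.x ε z), X.x ε (X.τ (Γ.src ε) z) + X.τ (Γ.tgt ε) (X.x ε z)) := rfl
theorem ZS_apply (ε : E) (p : X.P3) : X.ZS ε p = (0, X.oA (Γ.bar ε) p.2.2, X.τ (Γ.tgt ε) p.2.2) := rfl
@[simp] theorem Z3_apply (v : X.V) : X.Z3 v = (0, 0, v) := rfl
@[simp] theorem Zp_apply (p : X.P3) : X.Zp p = p.2.2 := rfl

theorem ZD_ZD (ε : E) (p : X.P3) : X.ZD ε (X.ZD ε p) = 0 := by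
  simp only [ZD_apply, dB_dB, map_add, X.dx, d_iA, d_iA', X.dd, Prod.mk_eq_zero, true_and]
  c2

theorem ZD_ZX {ε : E} (h : Γ.src ε ∈ Γ.J) (p : X.P3) : X.ZD (Γ.bar ε) (X.ZX ε p) = X.ZX ε (X.ZD ε p) := by
  simp only [ZD_apply, ZX_apply, Γ.bar_bar, Γ.tgt_bar, map_add, dB_oA, d_iA, dx_bar, X.dτA h, Prod.mk.injEq, true_and]
  c2

theorem ZD_ZI {ε : E} (h : Γ.src ε ∈ Γ.J) (h' : Γ.tgt ε ∈ Γ.J) (z : X.V) : X.ZD ε (X.ZI ε z) = X.ZI ε (X.d (Γ.src ε) z) := by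
  simp only [ZD_apply, ZI_apply, map_add, dB_oA, Γ.src_bar, X.dx, X.dτA h, X.dτA' h', Prod.mk.injEq, true_and]
  c2

theorem ZD_ZS {ε : E} (h' : Γ.tgt ε ∈ Γ.J) (p : X.P3) :
    X.ZD ε (X.ZS ε p) + X.ZS ε (X.ZD ε p) = X.ZX (Γ.bar ε) (X.ZX ε p) + X.ZI ε (X.iA ε p.1) := by
  simp only [ZD_apply, ZI_apply, ZS_apply, ZX_apply, map_add, dB_oA, Γ.src_bar, Γ.bar_bar, X.dτA' h', Prod.mk.injEq, Prod.mk_add_mk,
    map_zero]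
  exact ⟨by c2, by c2, by c2⟩

/-- the graded pieces at an end of the edge -/
def degZ (ε : E) (n a : ℤ) : Submodule K X.P3 :=
  (X.degA ε n (a + 1)).prod ((X.degA (Γ.bar ε) n (a + 2)).prod (X.deg (Γ.tgt ε) (n - 1) (a + 3)))

theorem mem_degZ {ε : E} {n a : ℤ} {p : X.P3} :
    p ∈ X.degZ ε n a ↔ p.1 ∈ X.degA ε n (a + 1) ∧ p.2.1 ∈ X.degA (Γ.bar ε) n (a + 2) ∧ p.2.2 ∈ X.deg (Γ.tgt ε) (n - 1) (a + 3) := Iff.rfl

theorem ZD_mem {ε : E} {n a : ℤ} {p : X.P3} (h : p ∈ X.degZ ε n a) : X.ZD ε p ∈ X.degZ ε (n + 1) a :=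
  ⟨X.dB_memA h.1, X.dB_memA h.2.1, add_mem (add_mem (X.cast (X.x_mem (X.iA_mem h.1))) (X.cast (X.iA_mem h.2.1))) (X.cast (X.d_mem h.2.2))⟩

theorem ZX_mem {ε : E} {n a : ℤ} {p : X.P3} (h : p ∈ X.degZ ε n a) : X.ZX ε p ∈ X.degZ (Γ.bar ε) n (a + 1) := by
  rw [mem_degZ, Γ.bar_bar, Γ.tgt_bar]
  exact ⟨X.castA h.2.1, X.castA (X.oA_mem (X.iA_mem h.1)), add_mem (X.cast (X.τ_mem (X.iA_mem h.1))) (X.cast (X.xbar_mem h.2.2))⟩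

theorem ZI_mem {ε : E} {n a : ℤ} {z : X.V} (h : z ∈ X.deg (Γ.src ε) n a) : X.ZI ε z ∈ X.degZ ε n a :=
  ⟨X.oA_mem h, X.castA (X.oA_mem (ε := Γ.bar ε) (X.x_mem h)), add_mem (X.cast (X.x_mem (X.τ_mem h))) (X.cast (X.τ_mem (X.x_mem h)))⟩

theorem ZS_mem {ε : E} {n a : ℤ} {p : X.P3} (h : p ∈ X.degZ ε n a) : X.ZS ε p ∈ X.degZ ε (n - 1) (a + 2) :=
  ⟨zero_mem _, X.castA (X.oA_mem (ε := Γ.bar ε) h.2.2), X.cast (X.τ_mem h.2.2)⟩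

end DG

/-- the two ends `P` of a simple edge; `ed i` is the edge from `i` to the other end -/
structure Br (Γ : Gr I E) where
  P : I → Prop
  ed : I → E
  J : ∀ {i}, P i → i ∈ Γ.J
  src : ∀ {i}, P i → Γ.src (ed i) = i
  tgt : ∀ {i}, P i → P (Γ.tgt (ed i))
  uniq : ∀ {e}, P (Γ.src e) → P (Γ.tgt e) → ed (Γ.src e) = e

omit [Fintype E] in
theorem Br.uniq' (B : Br Γ) {e : E} (h1 : B.P (Γ.src e)) (h2 : B.P (Γ.tgt e)) : B.ed (Γ.tgt e) = Γ.bar e :=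
  B.uniq (e := Γ.bar e) h2 (by rwa [Γ.tgt_bar])

namespace DG

variable (X : DG Γ) (B : Br Γ)

def Zdeg (i : I) (n a : ℤ) : Submodule K X.P3 :=
  if B.P i then X.degZ (B.ed i) n a else (⊥ : Submodule K (E → X.V)).prod ((⊥ : Submodule K (E → X.V)).prod (X.deg i n a))

def Zd (i : I) : X.P3 →ₗ[K] X.P3 := if B.P i then X.ZD (B.ed i) else X.Z3 ∘ₗ X.d i ∘ₗ X.Zp

def Zx (e : E) : X.P3 →ₗ[K] X.P3 :=
  if B.P (Γ.src e) then (if B.P (Γ.tgt e) then X.ZX e else X.Z3 ∘ₗ LinearMap.proj e ∘ₗ LinearMap.fst K _ _)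
  else if B.P (Γ.tgt e) then X.ZI (B.ed (Γ.tgt e)) ∘ₗ X.x e ∘ₗ X.Zp else X.Z3 ∘ₗ X.x e ∘ₗ X.Zp

def Zτ (i : I) : X.P3 →ₗ[K] X.P3 := if B.P i then X.ZS (B.ed i) else X.Z3 ∘ₗ X.τ i ∘ₗ X.Zp

variable {B}

theorem Zdeg_P {i : I} (h : B.P i) (n a : ℤ) : X.Zdeg B i n a = X.degZ (B.ed i) n a := if_pos h
theorem mem_Zdeg_ne {i : I} (h : ¬B.P i) {n a : ℤ} {p : X.P3} : p ∈ X.Zdeg B i n a ↔ p.1 = 0 ∧ p.2.1 = 0 ∧ p.2.2 ∈ X.deg i n a := by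
  rw [Zdeg, if_neg h]; rfl
theorem Zd_P {i : I} (h : B.P i) : X.Zd B i = X.ZD (B.ed i) := if_pos h
theorem Zd_ne {i : I} (h : ¬B.P i) (p : X.P3) : X.Zd B i p = (0, 0, X.d i p.2.2) := by rw [Zd, if_neg h]; rfl
theorem Zx_PP {e : E} (h1 : B.P (Γ.src e)) (h2 : B.P (Γ.tgt e)) : X.Zx B e = X.ZX e := by rw [Zx, if_pos h1, if_pos h2]
theorem Zx_out {e : E} (h1 : B.P (Γ.src e)) (h2 : ¬B.P (Γ.tgt e)) (p : X.P3) : X.Zx B e p = (0, 0, p.1 e) := by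
  rw [Zx, if_pos h1, if_neg h2]; rfl
theorem Zx_in {e : E} (h1 : ¬B.P (Γ.src e)) (h2 : B.P (Γ.tgt e)) (p : X.P3) : X.Zx B e p = X.ZI (B.ed (Γ.tgt e)) (X.x e p.2.2) := by
  rw [Zx, if_neg h1, if_pos h2]; rfl
theorem Zx_ne {e : E} (h1 : ¬B.P (Γ.src e)) (h2 : ¬B.P (Γ.tgt e)) (p : X.P3) : X.Zx B e p = (0, 0, X.x e p.2.2) := by
  rw [Zx, if_neg h1, if_neg h2]; rfl
theorem Zτ_P {i : I} (h : B.P i) : X.Zτ B i = X.ZS (B.ed i) := if_pos h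
theorem Zτ_ne {i : I} (h : ¬B.P i) (p : X.P3) : X.Zτ B i p = (0, 0, X.τ i p.2.2) := by rw [Zτ, if_neg h]; rfl

variable (B)

/-- the small model -/
@[reducible] def Zm : DG Γ where
  V := X.P3
  deg := X.Zdeg B
  d := X.Zd B
  x := X.Zx B
  τ := X.Zτ B
  d_mem {i n a p} h := by
    by_cases hi : B.P i
    · rw [X.Zdeg_P hi] at h ⊢
      rw [X.Zd_P hi]
      exact X.ZD_mem h
    · rw [X.mem_Zdeg_ne hi] at h ⊢
      rw [X.Zd_ne hi]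
      exact ⟨rfl, rfl, X.d_mem h.2.2⟩
  x_mem {e n a p} h := by
    by_cases h1 : B.P (Γ.src e) <;> by_cases h2 : B.P (Γ.tgt e)
    · rw [X.Zdeg_P h1, B.uniq h1 h2] at h
      rw [X.Zdeg_P h2, B.uniq' h1 h2, X.Zx_PP h1 h2]
      exact X.ZX_mem h
    · rw [X.Zdeg_P h1] at h
      rw [X.mem_Zdeg_ne h2, X.Zx_out h1 h2]
      exact ⟨rfl, rfl, (X.mem_degB.1 h.1.1).1 e (B.src h1).symm⟩
    · rw [X.mem_Zdeg_ne h1] at h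
      rw [X.Zdeg_P h2, X.Zx_in h1 h2]
      exact X.ZI_mem (X.x_mem' rfl (B.src h2).symm h.2.2)
    · rw [X.mem_Zdeg_ne h1] at h
      rw [X.mem_Zdeg_ne h2, X.Zx_ne h1 h2]
      exact ⟨rfl, rfl, X.x_mem h.2.2⟩
  τ_mem {i n a p} h := by
    by_cases hi : B.P i
    · rw [X.Zdeg_P hi] at h ⊢
      rw [X.Zτ_P hi]
      exact X.ZS_mem h
    · rw [X.mem_Zdeg_ne hi] at h ⊢
      rw [X.Zτ_ne hi]
      exact ⟨rfl, rfl, X.τ_mem h.2.2⟩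
  dd i p := by
    by_cases hi : B.P i
    · rw [X.Zd_P hi, ZD_ZD]
    · simp only [X.Zd_ne hi, X.dd, Prod.mk_eq_zero, and_self]
  dx e p := by
    by_cases h1 : B.P (Γ.src e) <;> by_cases h2 : B.P (Γ.tgt e)
    · rw [X.Zd_P h1, X.Zd_P h2, B.uniq h1 h2, B.uniq' h1 h2, X.Zx_PP h1 h2, X.ZD_ZX (B.J h1)]
    · rw [X.Zx_out h1 h2, X.Zx_out h1 h2, X.Zd_ne h2, X.Zd_P h1]
      rfl
    · rw [X.Zx_in h1 h2, X.Zx_in h1 h2, X.Zd_ne h1, X.Zd_P h2, X.ZD_ZI (by rw [B.src h2]; exact B.J h2) (B.J (B.tgt h2)), B.src h2, X.dx]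
    · rw [X.Zx_ne h1 h2, X.Zx_ne h1 h2, X.Zd_ne h1, X.Zd_ne h2, X.dx]
  rel i hJ p := by
    by_cases hi : B.P i
    · obtain ⟨ε, hε⟩ : ∃ ε, B.ed i = ε := ⟨_, rfl⟩
      have h2 : B.P (Γ.tgt ε) := hε ▸ B.tgt hi
      obtain rfl : Γ.src ε = i := hε ▸ B.src hi
      rw [X.Zd_P hi, X.Zτ_P hi, hε, X.ZD_ZS (B.J h2), ← Finset.add_sum_erase _ _ (Γ.mem_O.2 rfl : ε ∈ _), X.Zx_PP hi h2,
        X.Zx_PP (e := Γ.bar ε) h2 (by rwa [Γ.tgt_bar]), ← iA_sum, map_sum]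
      refine congrArg _ (Finset.sum_congr rfl fun e he => ?_)
      rw [Finset.mem_erase, Γ.mem_O] at he
      have h3 : B.P (Γ.src e) := he.2 ▸ hi
      have h4 : ¬B.P (Γ.tgt e) := fun h => he.1 (by rw [← B.uniq h3 h, he.2, hε])
      rw [X.Zx_out h3 h4, X.Zx_in (e := Γ.bar e) h4 (by rwa [Γ.tgt_bar]), Γ.tgt_bar, he.2, hε]
    · rw [Finset.sum_congr rfl (g := fun e => X.Z3 (X.x (Γ.bar e) (X.x e p.2.2))) fun e he => ?_, ← map_sum, ← X.rel i hJ]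
      · simp [X.Zd_ne hi, X.Zτ_ne hi]
      · have h1 : ¬B.P (Γ.src e) := by rwa [Γ.mem_O.1 he]
        by_cases h2 : B.P (Γ.tgt e)
        · rw [X.Zx_in h1 h2, X.Zx_out (e := Γ.bar e) h2 (by rwa [Γ.tgt_bar])]
          refine congrArg X.Z3 (X.oA_ne (e := Γ.bar e) (B.src h2).symm (fun h => ?_) _)
          have := B.tgt h2
          rw [← h, Γ.tgt_bar] at this
          exact h1 this
        · rw [X.Zx_ne h1 h2, X.Zx_ne (e := Γ.bar e) h2 (by rwa [Γ.tgt_bar])]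
          rfl
  bdd := by
    obtain ⟨N, hN⟩ := X.bdd
    refine ⟨N + 3, fun i n a p h h' => ?_⟩
    by_cases hi : B.P i
    · rw [X.Zdeg_P hi] at h
      exact Prod.ext (X.bddB hN h.1.1 (by grind)) (Prod.ext (X.bddB hN h.2.1.1 (by grind)) (hN _ _ _ _ h.2.2 (by grind)))
    · rw [X.mem_Zdeg_ne hi] at h
      exact Prod.ext h.1 (Prod.ext h.2.1 (hN _ _ _ _ h.2.2 (by grind)))

end DG

end Crest.Agent.R175.Mod
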