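import Crest.Agent.R175.Mod.Br1

/-! # R175/Mod/Braid (helper20).  The braid relation, through an explicit weak quasi-isomorphism. -/

set_option autoImplicit false
set_option linter.unusedSectionVars false
noncomputable section
open Classical

namespace Crest.Agent.R175.Mod

namespace Br

variable {I E : Type} [Fintype E] {Γ : Gr I E} (X : DG Γ) {s t : Γ.J} {e : E}

open Function LinearMap

/-- ambient spaces -/
abbrev V1 := (E → X.V) × X.V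
/-- ambient spaces -/
abbrev V2 := (E → V1 X) × V1 X
/-- ambient spaces -/
abbrev V3 := (E → V2 X) × V2 X

/-- normal form in `(T_s T_t T_s X)_s` -/
def n3 (e : E) (δ : E → X.V) (s1 : X.V) (k : E → X.V) (t1 : X.V) (c δ1 : E → X.V) (s2 : X.V) : V3 X :=
  (bj e (bj (Γ.bar e) (δ, s1) k, (0, t1)) (lf c), (0, (δ1, s2)))

/-- normal form in `(T_s T_t X)_s` -/
def n2 (e : E) (κ : E → X.V) (t1 : X.V) (c : E → X.V) (s1 : X.V) : V2 X := (bj e (κ, t1) c, (0, s1))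

theorem cases3 (h : Sg Γ s t e) {n a : ℤ} {p : V3 X} (hp : p ∈ (((X.T s).T t).T s).deg s n a) :
    ∃ δ s1 k t1 c δ1 s2, p = n3 X e δ s1 k t1 c δ1 s2 ∧ δ ∈ X.degB s n (a + 3) ∧ s1 ∈ X.deg s (n - 1) (a + 4) ∧
      Cm X t (Γ.bar e) n (a + 2) k ∧ t1 ∈ X.deg t (n - 1) (a + 3) ∧ Cm X s e n (a + 1) c ∧ δ1 ∈ X.degB s (n - 1) (a + 3) ∧
      s2 ∈ X.deg s (n - 2) (a + 4) := by
  obtain ⟨γ, τ1, c2, ⟨δ1, s2⟩, rfl, h1, h2, h3, h4⟩ := cases2 (X.T s) h hp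
  obtain ⟨⟨δ, s1⟩, k, rfl, hw, hk⟩ := bj_cases X h.symm h1
  obtain ⟨t1, rfl, ht⟩ := ne_cases X s h.ne h2
  obtain ⟨c, hc, hc'⟩ := lf_cases X h3 (bj (Γ.bar e) (δ, s1) k, ((0 : E → X.V), t1))
  obtain ⟨h5, h6⟩ := (X.T_mem_self s).1 hw
  obtain ⟨h7, h8⟩ := (X.T_mem_self s).1 h4
  refine ⟨δ, s1, k, t1, c, δ1, s2, ?_, X.castB h5, X.cast h6, hk, ht, hc', X.castB h7, X.cast h8⟩
  rw [hc]; rfl

theorem mem3 (h : Sg Γ s t e) {n a : ℤ} {δ k c δ1 : E → X.V} {s1 t1 s2 : X.V} (h1 : δ ∈ X.degB s n (a + 3))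
    (h2 : s1 ∈ X.deg s (n - 1) (a + 4)) (h3 : Cm X t (Γ.bar e) n (a + 2) k) (h4 : t1 ∈ X.deg t (n - 1) (a + 3))
    (h5 : Cm X s e n (a + 1) c) (h6 : δ1 ∈ X.degB s (n - 1) (a + 3)) (h7 : s2 ∈ X.deg s (n - 2) (a + 4)) :
    n3 X e δ s1 k t1 c δ1 s2 ∈ (((X.T s).T t).T s).deg s n a :=
  mem2 (X.T s) h (bj_mem X h.symm ((X.T_mem_self s).2 ⟨X.castB h1, X.cast h2⟩) h3) ((X.T_mem_ne s h.ne).2 ⟨rfl, h4⟩) h5.lf
    ((X.T_mem_self s).2 ⟨X.castB h6, X.cast h7⟩)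

theorem d3 (h : Sg Γ s t e) (δ k c δ1 : E → X.V) (s1 t1 s2 : X.V) :
    ((X.T s).T t).Td s s (n3 X e δ s1 k t1 c δ1 s2) =
      n3 X e (X.dB δ) (X.inn s δ + X.d s s1) (X.dB k) (δ e + inc X t (Γ.bar e) k + X.d t t1) (X.dB c)
        (δ + X.out s (inc X s e c) + X.dB δ1) (s1 + X.τ s (inc X s e c) + (X.inn s δ1 + X.d s s2)) := by
  rw [n3, d2 (X.T s) h, dB_bj X s h.symm.tgt, inn_bj X h.symm, dB_lf, inc_lf, bj_same, T_d, T_d, Td_zero, DG.Td_self,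
    DG.Td_self, Γ.bar_bar]
  simp only [n3, Prod.mk_add_mk, add_zero]

theorem d2' (h : Sg Γ s t e) (κ c : E → X.V) (t1 s1 : X.V) : (X.T t).Td s s (n2 X e κ t1 c s1) =
    n2 X e (X.dB κ) (X.inn t κ + X.d t t1) (X.dB c) (κ (Γ.bar e) + inc X s e c + X.d s s1) := d2 X h κ c t1 s1

theorem n3_add (δ k c δ1 δ' k' c' δ1' : E → X.V) (s1 t1 s2 s1' t1' s2' : X.V) :
    n3 X e δ s1 k t1 c δ1 s2 + n3 X e δ' s1' k' t1' c' δ1' s2' =
      n3 X e (δ + δ') (s1 + s1') (k + k') (t1 + t1') (c + c') (δ1 + δ1') (s2 + s2') := by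
  simp only [n3, Prod.mk_add_mk, bj_add, lf_add, add_zero]

theorem n2_add (κ c κ' c' : E → X.V) (t1 s1 t1' s1' : X.V) :
    n2 X e κ t1 c s1 + n2 X e κ' t1' c' s1' = n2 X e (κ + κ') (t1 + t1') (c + c') (s1 + s1') := by
  simp only [n2, Prod.mk_add_mk, bj_add, add_zero]

theorem n3_ext {δ k c δ1 δ' k' c' δ1' : E → X.V} {s1 t1 s2 s1' t1' s2' : X.V} (h1 : δ = δ') (h2 : s1 = s1')
    (h3 : ∀ e', e' ≠ Γ.bar e → k e' = k' e') (h4 : t1 = t1') (h5 : ∀ e', e' ≠ e → c e' = c' e') (h6 : δ1 = δ1') (h7 : s2 = s2') :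
    n3 X e δ s1 k t1 c δ1 s2 = n3 X e δ' s1' k' t1' c' δ1' s2' := by
  subst h1 h2 h4 h6 h7
  exact Prod.ext (bj_ext (Prod.ext (bj_ext rfl h3) rfl) fun e' h => by rw [lf_apply, lf_apply, h5 e' h]) rfl

theorem n2_ext {κ c κ' c' : E → X.V} {t1 s1 t1' s1' : X.V} (h1 : κ = κ') (h2 : t1 = t1')
    (h3 : ∀ e', e' ≠ e → c e' = c' e') (h4 : s1 = s1') : n2 X e κ t1 c s1 = n2 X e κ' t1' c' s1' := by
  subst h1 h2 h4
  exact Prod.ext (bj_ext rfl h3) rfl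

theorem n2_zero : n2 X e 0 0 0 0 = 0 := Prod.ext (bj_zero e) rfl

theorem n3_zero : n3 X e 0 0 0 0 0 0 0 = 0 := by
  rw [n3, lf_zero]
  refine Prod.ext ?_ rfl
  rw [show ((0 : E → X.V), (0 : X.V)) = 0 from rfl, bj_zero]
  exact bj_zero e

/-- linear version of `n2` -/
def n2L {M : Type} [AddCommGroup M] [Module K M] (e : E) (κ : M →ₗ[K] (E → X.V)) (t1 : M →ₗ[K] X.V) (c : M →ₗ[K] (E → X.V))
    (s1 : M →ₗ[K] X.V) : M →ₗ[K] V2 X := (bjL e (κ.prod t1) c).prod (inr K _ _ ∘ₗ s1)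

theorem n2L_apply {M : Type} [AddCommGroup M] [Module K M] (e : E) (κ : M →ₗ[K] (E → X.V)) (t1 : M →ₗ[K] X.V)
    (c : M →ₗ[K] (E → X.V)) (s1 : M →ₗ[K] X.V) (m : M) : n2L X e κ t1 c s1 m = n2 X e (κ m) (t1 m) (c m) (s1 m) :=
  Prod.ext (bjL_apply ..) rfl

/-- the comparison map at `s` -/
def F0 (s : I) (e : E) : V3 X →ₗ[K] V2 X :=
  n2L X e (upL (Γ.bar e) (inc X s e ∘ₗ sndB ∘ₗ sndB ∘ₗ fst K _ _) (sndB ∘ₗ fst K _ _ ∘ₗ proj e ∘ₗ fst K _ _))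
    (snd K _ _ ∘ₗ snd K _ _ ∘ₗ proj e ∘ₗ fst K _ _ + proj e ∘ₗ fst K _ _ ∘ₗ snd K _ _ ∘ₗ snd K _ _)
    (sndB ∘ₗ sndB ∘ₗ fst K _ _) 0

theorem F0_n3 (s : I) (δ k c δ1 : E → X.V) (s1 t1 s2 : X.V) : F0 X s e (n3 X e δ s1 k t1 c δ1 s2) =
    n2 X e (update k (Γ.bar e) (inc X s e c)) (t1 + δ1 e) c 0 := by
  have h1 : sndB (sndB (n3 X e δ s1 k t1 c δ1 s2).1) = update c e t1 := by
    rw [n3, sndB_bj]
    funext e'
    by_cases h : e' = e
    · simp [h, sndB_apply]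
    · simp [h, sndB_apply]
  rw [F0, n2L_apply, upL_apply]
  simp only [LinearMap.comp_apply, fst_apply, snd_apply, proj_apply, LinearMap.add_apply, h1, inc_update, LinearMap.zero_apply]
  refine n2_ext X ?_ ?_ (fun e' h => update_of_ne h ..) rfl
  · simp only [n3, bj_same, sndB_bj, update_idem]
  · simp only [n3, bj_same]

theorem fB_η (h : Sg Γ s t e) (n a : ℤ) {κ : E → X.V} (hκ : ∀ e', Γ.src e' ≠ t → κ e' = 0) :
    (X.η s).fB n a κ = bj (Γ.bar e) (X.out s (κ (Γ.bar e)), X.τ s (κ (Γ.bar e))) κ := by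
  funext e'
  rw [Hom.fB_apply]
  by_cases h1 : e' = Γ.bar e
  · rw [h1, bj_same, h.symm.tgt, DG.η_self]
  · rw [bj_ne h1]
    by_cases h2 : Γ.src e' = t
    · rw [X.η_ne s (h.symm.tgt_ne h2 h1)]
    · rw [hκ e' h2, map_zero]; rfl

theorem Ψ_n2 (h : Sg Γ s t e) (n a : ℤ) {κ c : E → X.V} (hκ : ∀ e', Γ.src e' ≠ t → κ e' = 0) (hc : ∀ e', Γ.src e' ≠ s → c e' = 0)
    (t1 s1 : X.V) : (((X.η s).T t).T s).f s n a (n2 X e κ t1 c s1) =
      n3 X e (X.out s (κ (Γ.bar e))) (X.τ s (κ (Γ.bar e))) κ t1 c (X.out s s1) (X.τ s s1) := by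
  rw [Hom.T_f_self, n2, n3, Hom.T_f_ne _ t h.symm.ne, DG.η_self]
  refine Prod.ext (funext fun e' => ?_) rfl
  show ((X.η s).T t).f (Γ.tgt e') n (a + 1) (bj e (κ, t1) c e') = bj e _ _ e'
  by_cases h1 : e' = e
  · rw [h1, bj_same, bj_same, h.tgt, Hom.T_f_self, fB_η X h _ _ hκ, X.η_ne s h.ne]
  · rw [bj_ne h1, bj_ne h1, lf_apply]
    by_cases h2 : Γ.src e' = s
    · rw [Hom.T_f_ne _ t (h.tgt_ne h2 h1), X.η_ne s (Γ.tgt_ne' h2)]
    · rw [hc e' h2]; exact map_zero _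

theorem F0_mem (h : Sg Γ s t e) {n a : ℤ} {p : V3 X} (hp : p ∈ (((X.T s).T t).T s).deg s n a) :
    F0 X s e p ∈ ((X.T t).T s).deg s n a := by
  obtain ⟨δ, s1, k, t1, c, δ1, s2, rfl, h1, h2, h3, h4, h5, h6, h7⟩ := cases3 X h hp
  rw [F0_n3]
  exact mem2 X h (upd_mem X h.symm h3 (X.cast h5.inc)) (add_mem h4 (degB_at h h6)) h5 (zero_mem _)

theorem F0_d (h : Sg Γ s t e) {n a : ℤ} {p : V3 X} (hp : p ∈ (((X.T s).T t).T s).deg s n a) :
    F0 X s e (((X.T s).T t).Td s s p) = (X.T t).Td s s (F0 X s e p) := by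
  obtain ⟨δ, s1, k, t1, c, δ1, s2, rfl, -⟩ := cases3 X h hp
  rw [d3 X h, F0_n3, F0_n3, d2' X h, dB_update X h.symm.tgt, inn_update X h.symm.src, update_self, d_inc]
  refine n2_ext X rfl ?_ (fun _ _ => rfl) (by rw [add_self', map_zero, add_zero])
  simp only [Pi.add_apply, X.out_apply_of h.src, DG.dB_apply, h.tgt, Γ.bar_bar, map_add]
  c2

/-- homotopy on `(T_s T_t X)_s` -/
def H1 (e : E) (q : V2 X) : V2 X := n2 X e (update 0 (Γ.bar e) q.2.2) 0 0 0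

/-- homotopy on `(T_s T_t T_s X)_s` -/
def H2 (e : E) (p : V3 X) : V3 X := n3 X e p.2.2.1 p.2.2.2 0 0 0 0 0

theorem H1_n2 (κ c : E → X.V) (t1 s1 : X.V) : H1 X e (n2 X e κ t1 c s1) = n2 X e (update 0 (Γ.bar e) s1) 0 0 0 := rfl

theorem H2_n3 (δ k c δ1 : E → X.V) (s1 t1 s2 : X.V) : H2 X e (n3 X e δ s1 k t1 c δ1 s2) = n3 X e δ1 s2 0 0 0 0 0 := rfl

theorem H1_mem (h : Sg Γ s t e) {n a : ℤ} {q : V2 X} (hq : q ∈ ((X.T t).T s).deg s n a) :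
    H1 X e q ∈ ((X.T t).T s).deg s (n - 1) a := by
  obtain ⟨κ, t1, c, s1, rfl, h1, h2, h3, h4⟩ := cases2 X h hq
  exact mem2 X h (upd_mem X h.symm (Cm.zero X _ _ _ _) h4) (zero_mem _) (Cm.zero X _ _ _ _) (zero_mem _)

theorem H2_mem (h : Sg Γ s t e) {n a : ℤ} {p : V3 X} (hp : p ∈ (((X.T s).T t).T s).deg s n a) :
    H2 X e p ∈ (((X.T s).T t).T s).deg s (n - 1) a := by
  obtain ⟨δ, s1, k, t1, c, δ1, s2, rfl, h1, h2, h3, h4, h5, h6, h7⟩ := cases3 X h hp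
  exact mem3 X h h6 (X.cast h7) (Cm.zero X _ _ _ _) (zero_mem _) (Cm.zero X _ _ _ _) (zero_mem _) (zero_mem _)

theorem FΨ (h : Sg Γ s t e) {n a : ℤ} {q : V2 X} (hq : q ∈ ((X.T t).T s).deg s n a) :
    F0 X s e ((((X.η s).T t).T s).f s n a q) + q = (X.T t).Td s s (H1 X e q) + H1 X e ((X.T t).Td s s q) := by
  obtain ⟨κ, t1, c, s1, rfl, h1, h2, h3, h4⟩ := cases2 X h hq
  show F0 X s e ((((X.η s).T t).T s).f s n a (n2 X e κ t1 c s1)) + n2 X e κ t1 c s1 =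
    (X.T t).Td s s (H1 X e (n2 X e κ t1 c s1)) + H1 X e ((X.T t).Td s s (n2 X e κ t1 c s1))
  rw [Ψ_n2 X h n a (X.mem_degB.1 h1).2 h3.2, F0_n3, H1_n2, d2' X h, d2' X h, H1_n2, n2_add, n2_add,
    dB_update X h.symm.tgt, inn_update X h.symm.src, update_self, upd_add]
  refine n2_ext X ?_ ?_ (fun _ _ => by simp [add_self']) (by simp)
  · funext e'
    by_cases h' : e' = Γ.bar e
    · simp only [h', Pi.add_apply, update_self]
      c2
    · simp [update_of_ne h', add_self']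
  · simp only [X.out_apply_of h.src, Γ.bar_bar, map_zero]
    c2

theorem ΨF (h : Sg Γ s t e) {n a : ℤ} {p : V3 X} (hp : p ∈ (((X.T s).T t).T s).deg s n a) :
    (((X.η s).T t).T s).f s n a (F0 X s e p) + p = ((X.T s).T t).Td s s (H2 X e p) + H2 X e (((X.T s).T t).Td s s p) := by
  obtain ⟨δ, s1, k, t1, c, δ1, s2, rfl, h1, h2, h3, h4, h5, h6, h7⟩ := cases3 X h hp
  rw [F0_n3, Ψ_n2 X h n a (X.mem_degB.1 (upd_mem X h.symm h3 (X.cast h5.inc))).2 h5.2, H2_n3, d3 X h, d3 X h, H2_n3,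
    n3_add, n3_add, update_self]
  refine n3_ext X (by c2) (by c2) (fun e' h' => by simp [update_of_ne h', add_self']) (by simp only [map_zero]; c2)
    (fun _ _ => by simp [add_self']) (by simp) (by simp)

theorem qiat_F0 (h : Sg Γ s t e) (a : ℤ) :
    QIat (X := (((X.T s).T t).T s).p) (Y := ((X.T t).T s).p) (fun _ _ _ => F0 X s e) s a :=
  qiat_of_htpy (fun n => (((X.η s).T t).T s).f s n a) (fun _ => H2 X e) (fun _ => H1 X e)
    (fun _ _ hy => (((X.η s).T t).T s).mem hy) (fun _ _ hy => (((X.η s).T t).T s).d hy) (fun _ => map_zero _)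
    (fun _ _ hv => H2_mem X h hv) (fun _ => n3_zero X) (fun _ _ hv => H1_mem X h hv)
    (fun _ => by rw [H1]; simp [n2_zero]) (fun _ _ hv => ΨF X h hv) (fun _ _ hv => FΨ X h hv)

theorem qiat_Ψ (h : Sg Γ s t e) (a : ℤ) : QIat (((X.η s).T t).T s).f s a :=
  qiat_of_htpy (fun _ => F0 X s e) (fun _ => H1 X e) (fun _ => H2 X e)
    (fun _ _ hy => F0_mem X h hy) (fun _ _ hy => F0_d X h hy) (fun _ => map_zero _)
    (fun _ _ hv => H1_mem X h hv) (fun _ => by rw [H1]; simp [n2_zero]) (fun _ _ hv => H2_mem X h hv)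
    (fun _ => n3_zero X) (fun _ _ hv => FΨ X h hv) (fun _ _ hv => ΨF X h hv)

/-! ### the weak morphism -/

theorem Tx_src' (Y : DG Γ) {s : I} {e : E} (h : Γ.src e = s) (b : E → Y.V) (v : Y.V) : Y.Tx s e (b, v) = (0, b e) := Y.Tx_src h _
theorem Tx_tgt' (Y : DG Γ) {s : I} {e : E} (h : Γ.tgt e = s) (b : E → Y.V) (v : Y.V) :
    Y.Tx s e (b, v) = (Y.out s (Y.x e v), Y.τ s (Y.x e v)) := Y.Tx_tgt h _
theorem Tx_ne' (Y : DG Γ) {s : I} {e : E} (h : Γ.src e ≠ s) (h' : Γ.tgt e ≠ s) (b : E → Y.V) (v : Y.V) :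
    Y.Tx s e (b, v) = (0, Y.x e v) := Y.Tx_ne h h' _
theorem Tτ_self' (Y : DG Γ) (s : I) (b : E → Y.V) (v : Y.V) : Y.Tτ s s (b, v) = (Y.out s v, Y.τ s v) := Y.Tτ_self _ _
theorem Tτ_ne' (Y : DG Γ) {s i : I} (h : i ≠ s) (b : E → Y.V) (v : Y.V) : Y.Tτ s i (b, v) = (0, Y.τ i v) := Y.Tτ_ne h _

/-- into the deepest `s`-slot of `(T_t T_s T_t X)_s` -/
def σ0 (e : E) : X.V →ₗ[K] V3 X := inr K _ _ ∘ₗ n2L X e (upL (Γ.bar e) LinearMap.id 0) 0 0 0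

theorem σ0_apply (u : X.V) : σ0 X e u = (0, n2 X e (update 0 (Γ.bar e) u) 0 0 0) := by
  rw [σ0, LinearMap.comp_apply, n2L_apply, upL_apply]; rfl

theorem σ0_mem (h : Sg Γ s t e) {n a : ℤ} {u : X.V} (hu : u ∈ X.deg s n (a + 2)) :
    σ0 X e u ∈ (((X.T t).T s).T t).deg s n a :=
  (((X.T t).T s).T_mem_ne t h.symm.ne).2
    ⟨rfl, by rw [σ0_apply]; exact mem2 X h (upd_mem X h.symm (Cm.zero X _ _ _ _) hu) (zero_mem _) (Cm.zero X _ _ _ _) (zero_mem _)⟩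

theorem d_σ0 (h : Sg Γ s t e) (u : X.V) : ((X.T t).T s).Td t s (σ0 X e u) =
    (0, n2 X e (update 0 (Γ.bar e) (X.d s u)) (X.x e u) 0 u) := by
  rw [σ0_apply, Td_zero, T_d, d2' X h, dB_update X h.symm.tgt, inn_update X h.symm.src, update_self]
  simp only [map_zero, add_zero, Γ.bar_bar]

/-- the homotopy along `e` -/
def hoE (t : I) (e : E) : V3 X →ₗ[K] V3 X :=
  (bjL (Γ.bar e) ((bjL e (((X.out t).prod (X.τ t)) ∘ₗ proj e ∘ₗ fst K _ _) (fst K _ _)).prod (inr K _ _ ∘ₗ snd K _ _) ∘ₗ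
    snd K _ _ ∘ₗ snd K _ _) 0).prod 0

/-- normal form in `(T_t T_s T_t X)_t` -/
theorem n3_bar (δ k c δ1 : E → X.V) (s1 t1 s2 : X.V) : n3 X (Γ.bar e) δ s1 k t1 c δ1 s2 =
    (bj (Γ.bar e) (n2 X e δ s1 k t1) (lf c), (0, (δ1, s2))) := by rw [n3, Γ.bar_bar]; rfl

theorem hoE_n3 (t : I) (δ k c δ1 : E → X.V) (s1 t1 s2 : X.V) : hoE X t e (n3 X e δ s1 k t1 c δ1 s2) =
    n3 X (Γ.bar e) (X.out t (δ1 e)) (X.τ t (δ1 e)) δ1 s2 0 0 0 := by
  rw [n3_bar, hoE]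
  refine Prod.ext ((bjL_apply ..).trans (bj_ext (Prod.ext (bjL_apply ..) rfl) fun _ _ => rfl)) rfl

theorem out2 (h : Sg Γ s t e) (u : X.V) :
    ((X.T t).out s (0, u), (X.T t).τ s (0, u)) = n2 X e (X.out t (X.x e u)) (X.τ t (X.x e u)) (X.out s u) (X.τ s u) := by
  rw [out_bj X h, T_τ, X.Tτ_ne h.symm.ne]; rfl

/-- `η` of `T_t T_s X` at `s`, on `(0, (δ, s1))` -/
theorem out3 (h : Sg Γ s t e) {δ : E → X.V} (hδ : ∀ e', Γ.src e' ≠ s → δ e' = 0) (s1 : X.V) :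
    (((X.T s).T t).out s (0, (δ, s1)), ((X.T s).T t).τ s (0, (δ, s1))) =
      n3 X e (X.out s (X.x (Γ.bar e) (δ e))) (X.τ s (X.x (Γ.bar e) (δ e))) (X.out t (δ e)) (X.τ t (δ e)) δ (X.out s s1) (X.τ s s1) := by
  have h1 := out2 X h.symm (δ e)
  rw [out2 (X.T s) h, out_lf X s hδ, T_x, X.Tx_src h.src, T_τ X s s, DG.Tτ_self]
  rw [Prod.ext_iff] at h1
  simp only at h1
  rw [h1.1, h1.2]
  rfl

/-- the arrow `e` of `T_t T_s T_t X` -/
theorem x_e3 (h : Sg Γ s t e) {κ : E → X.V} (hκ : ∀ e', Γ.src e' ≠ t → κ e' = 0) (c : E → X.V) (t1 s1 : X.V) :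
    ((X.T t).T s).Tx t e (0, n2 X e κ t1 c s1) =
      n3 X (Γ.bar e) (X.out t (X.x e (κ (Γ.bar e)))) (X.τ t (X.x e (κ (Γ.bar e)))) (X.out s (κ (Γ.bar e))) (X.τ s (κ (Γ.bar e))) κ
        (X.out t t1) (X.τ t t1) := by
  have h1 := out3 X h.symm hκ t1
  rw [Γ.bar_bar] at h1
  rw [Tx_tgt' _ h.tgt, T_x, n2, Tx_src' _ h.src, bj_same, h1]

/-- the other arrows out of `s` of `T_t T_s T_t X` -/
theorem x_o3 (h : Sg Γ s t e) {e' : E} (h1 : Γ.src e' = s) (h2 : e' ≠ e) (κ c : E → X.V) (t1 s1 : X.V) :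
    ((X.T t).T s).Tx t e' (0, n2 X e κ t1 c s1) = (0, (0, (0, c e'))) := by
  rw [Tx_ne' _ (h1 ▸ h.symm.ne) (h.tgt_ne h1 h2), T_x, n2, Tx_src' _ h1, bj_ne h2]

/-- the extension data -/
def ext (h : Sg Γ s t e) : Ext (((X.η t).T s).T t) s where
  F := inr K _ _ ∘ₗ F0 X s e
  ho e' := if e' = e then hoE X t e else 0
  hi e' := if e' = Γ.bar e then σ0 X e ∘ₗ snd K _ _ ∘ₗ proj (Γ.bar e) ∘ₗ fst K _ _
    else σ0 X e ∘ₗ X.τ s ∘ₗ X.x e' ∘ₗ snd K _ _ ∘ₗ snd K _ _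
  k := σ0 X e ∘ₗ snd K _ _ ∘ₗ snd K _ _ ∘ₗ snd K _ _
  F_mem hp := (((X.T t).T s).T_mem_ne t h.symm.ne).2 ⟨rfl, F0_mem X h hp⟩
  ho_mem {e' n a p} h1 hp := by
    split_ifs with h2
    · obtain ⟨δ, s1, k, t1, c, δ1, s2, rfl, -, -, -, -, -, h6, h7⟩ := cases3 X h hp
      have h8 := degB_at h h6
      rw [hoE_n3, h2, h.tgt]
      refine mem3 X h.symm (X.castB (X.out_mem h8)) (X.cast (X.τ_mem h8)) ?_ (X.cast h7) (Cm.zero X _ _ _ _) (zero_mem _) (zero_mem _)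
      exact (Cm.of_degB _ h6).cast
    · exact zero_mem _
  hi_mem {e' n a v} h1 hv := by
    split_ifs with h2
    · rw [h2, h.symm.src] at hv
      obtain ⟨δ, s1, k, t1, rfl, -, h3, -⟩ := cases2 X h.symm hv
      refine σ0_mem X h ?_
      simp only [fst_apply, snd_apply, proj_apply, LinearMap.comp_apply, bj_same]
      exact X.cast h3
    · have h3 : Γ.src e' ≠ t := fun h3 => h2 (h.symm.uniq e' h3 h1)
      have h4 := ((X.T_mem_ne s (Γ.src_ne' h1)).1 (((X.T s).T_mem_ne t h3).1 hv).2).2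
      exact σ0_mem X h (X.cast (X.τ_mem (X.x_mem' rfl h1 h4)))
  k_mem {n a p} hp := by
    obtain ⟨δ, s1, k, t1, c, δ1, s2, rfl, -, -, -, -, -, -, h7⟩ := cases3 X h hp
    exact σ0_mem X h (X.cast h7)
  F_d hp := by
    show (0, F0 X s e _) = ((X.T t).T s).Td t s (0, _)
    rw [Td_zero, F0_d X h hp]; rfl
  x_o {e' n a p} h1 hp := by
    obtain ⟨δ, s1, k, t1, c, δ1, s2, rfl, g1, g2, g3, g4, g5, g6, g7⟩ := cases3 X h hp
    rw [d3 X h]
    show _ + ((X.T t).T s).Tx t e' (0, F0 X s e _) = ((X.T t).T s).Td t _ _ + _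
    rw [F0_n3]
    by_cases h2 : e' = e
    · subst h2
      have h3 : (n3 X e' δ s1 k t1 c δ1 s2).1 e' = n2 X (Γ.bar e') δ s1 k t1 := bj_same ..
      rw [if_pos rfl, h3, h.tgt, Ψ_n2 X h.symm n (a + 1) (X.mem_degB.1 g1).2 g3.2, hoE_n3, hoE_n3, d3 X h.symm,
        x_e3 X h (X.mem_degB.1 (upd_mem X h.symm g3 (X.cast g5.inc))).2, n3_add, n3_add, update_self, Γ.bar_bar]
      simp only [Pi.add_apply, X.out_apply_of h.src, DG.dB_apply, h.tgt, map_add, map_zero, DG.dB_out, X.dτ t.2,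
        inn_eq X h.src δ1]
      refine n3_ext X (by c2) (by c2) (fun _ _ => by simp only [Pi.add_apply, DG.dB_apply]; c2) (by rw [X.out_apply_of h.symm.src]; c2)
        (fun e' h' => by simp [update_of_ne h', add_self']) (by c2) (by simp [add_add_self])
    · have h3 : (n3 X e δ s1 k t1 c δ1 s2).1 e' = (0, (0, c e')) := bj_ne h2 ..
      rw [if_neg h2, h3, x_o3 X h h1 h2, Hom.T_f_ne _ t (h.tgt_ne h1 h2), Hom.T_f_ne _ s (Γ.tgt_ne' h1),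
        X.η_ne t (h.tgt_ne h1 h2), add_self', LinearMap.zero_apply, LinearMap.zero_apply, LinearMap.map_zero, add_zero]
  x_i {e' n a v} h1 hv := by
    show (0, F0 X s e _) + ((X.T t).T s).Tx t e' _ = ((X.T t).T s).Td t s _ + _
    by_cases h2 : e' = Γ.bar e
    · subst h2
      rw [h.symm.src] at hv ⊢
      obtain ⟨δ, s1, k, t1, rfl, g1, g2, g3, g4⟩ := cases2 X h.symm hv
      have h3 := Ψ_n2 X h.symm n a (X.mem_degB.1 g1).2 g3.2 s1 t1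
      have h4 := d2' X h.symm δ k s1 t1
      rw [n2] at h3 h4
      rw [h3, if_pos rfl, T_d (X.T s), h4, T_x (X.T s), Tx_src' _ h.symm.src, bj_same, out3 X h (X.mem_degB.1 g1).2, F0_n3,
        n3_bar, Tx_src' _ h.symm.src, bj_same, Γ.bar_bar]
      simp only [fst_apply, snd_apply, proj_apply, LinearMap.comp_apply, bj_same, n2]
      rw [d_σ0 X h, σ0_apply]
      simp only [← n2.eq_1, Prod.mk_add_mk, n2_add, upd_add, add_zero]
      refine Prod.ext rfl (n2_ext X ?_ ?_ (fun _ _ => by simp [add_self']) (by simp))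
      · funext e'
        by_cases h' : e' = Γ.bar e
        · simp only [h', Pi.add_apply, update_self, X.out_apply_of h.symm.src, inn_eq X h.src δ]
          c2
        · simp [update_of_ne h', add_self']
      · rw [X.out_apply_of h.src]; c2
    · have h3 : Γ.src e' ≠ t := fun h3 => h2 (h.symm.uniq e' h3 h1)
      have h4 := Γ.src_ne' h1
      obtain ⟨w, rfl, hw⟩ := ne_cases (X.T s) t h3 hv
      obtain ⟨u, rfl, hu⟩ := ne_cases X s h4 hw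
      rw [if_neg h2, T_x (X.T s), Tx_ne' _ h3 (h1 ▸ h.symm.ne), T_x, Tx_tgt' _ h1, out3 X h fun _ h' => out_ne X _ h', F0_n3,
        Hom.T_f_ne _ t h3, Hom.T_f_ne _ s h4, X.η_ne t h3, Tx_ne' _ h3 (h1 ▸ h.symm.ne), T_x, Tx_tgt' _ h1, T_x,
        Tx_ne' _ h3 (h1 ▸ h.symm.ne), out2 X h, T_d (X.T s), Td_zero, T_d X s, Td_zero]
      simp only [snd_apply, LinearMap.comp_apply]
      rw [d_σ0 X h, σ0_apply, ← X.dx' rfl h1]
      simp only [Prod.mk_add_mk, n2_add, upd_add, add_zero, X.out_apply_of h.src, inc_out X s.2 h.src]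
      refine Prod.ext rfl (n2_ext X ?_ (by c2) (fun _ _ => by simp [add_self']) (by simp))
      funext e'
      by_cases h' : e' = Γ.bar e
      · simp only [h', Pi.add_apply, update_self, X.out_apply_of h.symm.src]
        c2
      · simp [update_of_ne h', add_self']
  τ_s {n a p} hp := by
    obtain ⟨δ, s1, k, t1, c, δ1, s2, rfl, g1, g2, g3, g4, g5, g6, g7⟩ := cases3 X h hp
    have h1 : ∑ e' ∈ (Γ.O s).erase e, σ0 X e (X.τ s (X.x (Γ.bar e') (c e'))) = σ0 X e (X.τ s (inc X s e c)) := by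
      rw [inc_apply, map_sum, map_sum]
    rw [← Finset.add_sum_erase _ _ (Γ.mem_O.2 h.src), Finset.sum_congr rfl (g := fun e' => σ0 X e (X.τ s (X.x (Γ.bar e') (c e'))))
      fun e' he' => ?_, h1, d3 X h, if_pos rfl, if_pos rfl, hoE_n3]
    · show (0, F0 X s e (((X.T s).T t).out s (0, (δ1, s2)), ((X.T s).T t).τ s (0, (δ1, s2)))) +
        ((X.T t).T s).Tτ t s (0, F0 X s e _) + (σ0 X e (((n3 X e δ s1 k t1 c δ1 s2).1 e).1 (Γ.bar e)).2 +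
        ((X.T t).T s).Tx t (Γ.bar e) _ + _) = ((X.T t).T s).Td t s (σ0 X e s2) + σ0 X e (s1 + X.τ s (inc X s e c) + (X.inn s δ1 + X.d s s2))
      rw [out3 X h (X.mem_degB.1 g6).2, F0_n3, F0_n3, Tτ_ne' _ h.symm.ne, T_τ, DG.Tτ_self, d_σ0 X h, n3_bar, Tx_src' _ h.symm.src,
        bj_same, show (((n3 X e δ s1 k t1 c δ1 s2).1 e).1 (Γ.bar e)).2 = s1 by simp only [n3, bj_same]]
      have h2 : ((X.T t).out s (n2 X e (update k (Γ.bar e) (inc X s e c)) (t1 + δ1 e) c 0).2,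
          (X.T t).τ s (n2 X e (update k (Γ.bar e) (inc X s e c)) (t1 + δ1 e) c 0).2) = 0 := Prod.ext (map_zero _) (map_zero _)
      simp only [h2, σ0_apply, Prod.mk_add_mk, n2_add, upd_add, add_zero, X.out_apply_of h.src, inn_eq X h.src δ1]
      refine Prod.ext rfl (n2_ext X ?_ (by c2) (fun _ _ => by simp [add_self']) (by simp))
      funext e'
      by_cases h' : e' = Γ.bar e
      · simp only [h', Pi.add_apply, update_self, X.out_apply_of h.symm.src]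
        c2
      · simp [update_of_ne h', add_self']
    · have h2 := Finset.ne_of_mem_erase he'
      have h3 : (n3 X e δ s1 k t1 c δ1 s2).1 e' = (0, (0, c e')) := bj_ne h2 ..
      rw [if_neg h2, if_neg fun h' => h2 (by rw [← Γ.bar_bar e', h', Γ.bar_bar]), h3, LinearMap.zero_apply, LinearMap.map_zero, add_zero]
      rfl
  τ_o {e' n a v} h1 hv := by
    by_cases h2 : e' = Γ.bar e
    · subst h2
      rw [h.symm.src] at hv
      obtain ⟨δ, s1, k, t1, rfl, g1, g2, g3, g4⟩ := cases2 X h.symm hv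
      rw [Γ.bar_bar, if_pos rfl, if_pos rfl, T_x (X.T s), Tx_src' _ h.symm.src, bj_same, out3 X h (X.mem_degB.1 g1).2, hoE_n3]
      simp only [fst_apply, snd_apply, proj_apply, LinearMap.comp_apply, bj_same]
      rw [σ0_apply, x_e3 X h fun e' h' => update_of_ne (by rintro rfl; exact h' h.symm.src) .., update_self,
        X.out_apply_of h.src]
      exact n3_ext X rfl rfl (fun _ _ => rfl) rfl (fun e' h' => (update_of_ne h' ..).symm) (map_zero _).symm (map_zero _).symm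
    · have h3 : Γ.bar e' ≠ e := fun h' => h2 (by rw [← h', Γ.bar_bar])
      rw [if_neg h3, if_neg h2, LinearMap.zero_apply, LinearMap.comp_apply, σ0_apply, T_x, x_o3 X h h1 h3]
      rfl

theorem braid_cl (h : Sg Γ s t e) : (((X.T s).T t).T s).p.cl = (((X.T t).T s).T t).p.cl := by
  refine (ext X h).cl_eq (fun a => qiat_inr _ t h.symm.ne (qiat_F0 X h a) fun _ _ => rfl) fun i hi a => ?_
  by_cases hit : i = t
  · rw [hit]; exact qiat_Ψ X h.symm a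
  · exact Hom.qiat_T_ne _ t hit (Hom.qiat_T_ne _ s hi (X.qiat_η_ne t hit a))

end Br

theorem braid_TT (G : P.Gr) : ∀ i ∈ G.J, ∀ j ∈ G.J, G.ne i j = 1 → TT G i * TT G j * TT G i = TT G j * TT G i * TT G j := by
  intro i hi j hj h
  obtain ⟨e, h1, h2, h3⟩ := ne_eq_one h
  refine Equiv.ext fun x => ?_
  obtain ⟨X, rfl⟩ := exists_rep x
  simp only [TT_eq hi, TT_eq hj, Equiv.Perm.mul_apply, Obj.T_cl]
  exact Br.braid_cl X (s := ⟨i, hi⟩) (t := ⟨j, hj⟩) ⟨h1, h2, h3⟩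

end Crest.Agent.R175.Mod
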