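import Crest.Agent.R175.Mod.BrW
import Crest.Agent.R175.Mod.Api

/-! # R175/Mod/Braid2 (helper48).  The braid relation: a weak quasi-isomorphism `S_s Z → T_t T_s X`. -/

set_option autoImplicit false
noncomputable section
open Classical

namespace Crest.Agent.R175.Mod

section
variable {I E : Type} [Fintype E] {Γ : Gr I E}

namespace DG

variable (X : DG Γ)

/-- the map at `tgt ε` -/
def Gt (ε : E) : X.P3 →ₗ[K] (E → (E → X.V) × X.V) × (E → X.V) × X.V :=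
  LinearMap.inl K _ _ ∘ₗ (X.iB ∘ₗ LinearMap.fst K _ _ + LinearMap.single K (fun _ => (E → X.V) × X.V) (Γ.bar ε) ∘ₗ X.Yv ε)

theorem Gt_apply (ε : E) (w : X.P3) : X.Gt ε w = (X.iB w.1 + Pi.single (Γ.bar ε) (X.Yv ε w), 0) := rfl

def Θf (ε : E) (i : I) : (E → X.P3) × X.P3 →ₗ[K] (E → (E → X.V) × X.V) × (E → X.V) × X.V :=
  if i = Γ.src ε then LinearMap.inr K _ _ ∘ₗ X.πs ε else if i = Γ.tgt ε then X.Gt ε ∘ₗ LinearMap.snd K _ _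
  else LinearMap.inr K _ _ ∘ₗ LinearMap.inr K _ _ ∘ₗ X.Zp ∘ₗ LinearMap.snd K _ _

def Θh (ε e : E) : (E → X.P3) × X.P3 →ₗ[K] (E → (E → X.V) × X.V) × (E → X.V) × X.V :=
  LinearMap.inl K _ _ ∘ₗ LinearMap.single K (fun _ => (E → X.V) × X.V) (Γ.bar ε) ∘ₗ
    if e = ε then X.κ ε ∘ₗ X.πs ε else if Γ.tgt e = Γ.tgt ε then
      LinearMap.inl K _ _ ∘ₗ LinearMap.single K (fun _ => X.V) ε ∘ₗ X.τ (Γ.tgt ε) ∘ₗ X.x e ∘ₗ X.Zp ∘ₗ LinearMap.snd K _ _ else 0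

theorem Θf_src (ε : E) (p : (E → X.P3) × X.P3) : X.Θf ε (Γ.src ε) p = (0, X.πs ε p) := by rw [Θf, if_pos rfl]; rfl
theorem Θf_tgt (ε : E) (p : (E → X.P3) × X.P3) : X.Θf ε (Γ.tgt ε) p = X.Gt ε p.2 := by rw [Θf, if_neg (Γ.tgt_ne ε), if_pos rfl]; rfl
theorem Θf_ne {ε : E} {i : I} (h : i ≠ Γ.src ε) (h' : i ≠ Γ.tgt ε) (p : (E → X.P3) × X.P3) : X.Θf ε i p = (0, 0, p.2.2.2) := by
  rw [Θf, if_neg h, if_neg h']; rfl
theorem Θh_self (ε : E) (p : (E → X.P3) × X.P3) : X.Θh ε ε p = (Pi.single (Γ.bar ε) (X.κ ε (X.πs ε p)), 0) := by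
  rw [Θh, if_pos rfl]; rfl
theorem Θh_in {ε e : E} (h : e ≠ ε) (h' : Γ.tgt e = Γ.tgt ε) (p : (E → X.P3) × X.P3) :
    X.Θh ε e p = (Pi.single (Γ.bar ε) (Pi.single ε (X.τ (Γ.tgt ε) (X.x e p.2.2.2)), 0), 0) := by
  rw [Θh, if_neg h, if_pos h']; rfl
theorem Θh_ne {ε e : E} (h' : Γ.tgt e ≠ Γ.tgt ε) (p : (E → X.P3) × X.P3) : X.Θh ε e p = 0 := by
  rw [Θh, if_neg (fun h : e = ε => h' (h ▸ rfl)), if_neg h']; simp

theorem Yv_mem {ε : E} {n a : ℤ} {w : X.P3} (hw : w ∈ X.degZ (Γ.bar ε) n a) :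
    (X.Yv ε w).1 ∈ X.degB (Γ.src ε) n (a + 2) ∧ (X.Yv ε w).2 ∈ X.deg (Γ.src ε) (n - 1) (a + 3) := by
  rw [mem_degZ, Γ.bar_bar, Γ.tgt_bar] at hw
  exact ⟨add_mem hw.2.1.1 (X.single_mem rfl (X.cast (X.iA_mem hw.1))), hw.2.2⟩

variable {B : Br Γ} {ε : E} (h1 : B.P (Γ.src ε)) (h2 : B.P (Γ.tgt ε))

theorem SZ_mem (hs : Γ.src ε ∈ Γ.J) {n a : ℤ} {p : (E → X.P3) × X.P3} : p ∈ ((X.Zm B).S ⟨Γ.src ε, hs⟩).deg (Γ.src ε) n a ↔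
    p.1 ∈ (X.Zm B).degB (Γ.src ε) n (a - 1) ∧ p.2 ∈ X.Zdeg B (Γ.src ε) (n + 1) (a - 2) := (X.Zm B).mem_degT_self

include h1 h2

theorem SZ_src {n a : ℤ} {p : (E → X.P3) × X.P3} : p ∈ ((X.Zm B).S ⟨Γ.src ε, B.J h1⟩).deg (Γ.src ε) n a ↔
    ∃ α ∈ X.degA ε n (a - 1), ∃ w ∈ X.degZ (Γ.bar ε) n (a - 1), ∃ z ∈ X.degZ ε (n + 1) (a - 2), p = (X.jB α + Pi.single ε w, z) := by
  rw [SZ_mem, X.Z_memB h1 h2, X.Zdeg_P h1, B.uniq h1 h2]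
  constructor
  · rintro ⟨⟨α, hα, w, hw, h⟩, hz⟩
    exact ⟨α, hα, w, hw, p.2, hz, Prod.ext h rfl⟩
  · rintro ⟨α, hα, w, hw, z, hz, rfl⟩
    exact ⟨⟨α, hα, w, hw, rfl⟩, hz⟩

theorem SZ_tgt {n a : ℤ} {p : (E → X.P3) × X.P3} : p ∈ ((X.Zm B).S ⟨Γ.src ε, B.J h1⟩).deg (Γ.tgt ε) n a ↔
    ∃ w ∈ X.degZ (Γ.bar ε) n a, p = (0, w) := by
  rw [(X.Zm B).S_mem_ne _ (Γ.tgt_ne ε), show (X.Zm B).deg = X.Zdeg B from rfl, X.Zdeg_P h2, B.uniq' h1 h2]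
  exact ⟨fun h => ⟨p.2, h.2, Prod.ext h.1 rfl⟩, by rintro ⟨w, hw, rfl⟩; exact ⟨rfl, hw⟩⟩

omit h2 in
theorem SZ_ne {i : I} (hi : ¬B.P i) {n a : ℤ} {p : (E → X.P3) × X.P3} : p ∈ ((X.Zm B).S ⟨Γ.src ε, B.J h1⟩).deg i n a ↔
    ∃ v ∈ X.deg i n a, p = (0, 0, 0, v) := by
  rw [(X.Zm B).S_mem_ne _ (fun h : i = Γ.src ε => hi (h ▸ h1)), show (X.Zm B).deg = X.Zdeg B from rfl, X.mem_Zdeg_ne hi]
  exact ⟨fun h => ⟨p.2.2.2, h.2.2.2, Prod.ext h.1 (Prod.ext h.2.1 (Prod.ext h.2.2.1 rfl))⟩,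
    by rintro ⟨w, hw, rfl⟩; exact ⟨rfl, rfl, rfl, hw⟩⟩

omit h1 h2 in
theorem πs_mem {n a : ℤ} {α : E → X.V} (hα : α ∈ X.degA ε n (a - 1)) {w z : X.P3} (hw : w ∈ X.degZ (Γ.bar ε) n (a - 1))
    (hz : z ∈ X.degZ ε (n + 1) (a - 2)) : (X.πs ε (X.jB α + Pi.single ε w, z)).1 ∈ X.degB (Γ.src ε) n (a + 1) ∧
      (X.πs ε (X.jB α + Pi.single ε w, z)).2 ∈ X.deg (Γ.src ε) (n - 1) (a + 2) := by
  rw [X.πs_mk (X.mem_degA.1 hα).2]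
  rw [mem_degZ, Γ.bar_bar, Γ.tgt_bar] at hw
  have := X.iA_mem hα
  exact ⟨add_mem (add_mem (X.castB (X.oA_mem this).1) (X.castB hw.2.1.1)) (X.single_mem rfl
    (add_mem (add_mem (X.cast (X.x_mem this)) (X.cast (X.iA_mem hw.1))) (X.cast hz.2.2))), add_mem (X.cast (X.τ_mem this)) (X.cast hw.2.2)⟩

omit [Fintype E] in
theorem _root_.Crest.Agent.R175.Mod.Br.hu : ∀ e, Γ.src e = Γ.tgt ε → e ≠ Γ.bar ε → Γ.tgt e ≠ Γ.src ε := fun _ h he h' =>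
  B.nP (ε := Γ.bar ε) h2 (by rwa [Γ.tgt_bar]) h he (h' ▸ h1)

/-- the weak morphism `S_s Z → T_t T_s X` -/
def Θ (hP : ∀ i, B.P i → i = Γ.src ε ∨ i = Γ.tgt ε) :
    WHom ((X.Zm B).S ⟨Γ.src ε, B.J h1⟩).p ((X.T ⟨Γ.src ε, B.J h1⟩).T ⟨Γ.tgt ε, B.J h2⟩).p where
  f i _ _ := X.Θf ε i
  h e _ _ := X.Θh ε e
  k _ _ _ := 0
  mem {i n a p} h := by
    by_cases hs : i = Γ.src ε
    · subst hs
      obtain ⟨α, hα, w, hw, z, hz, rfl⟩ := (X.SZ_src h1 h2).1 h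
      rw [Θf_src]
      exact (T_mem_ne _ _ (Γ.tgt_ne ε).symm).2 ⟨rfl, (X.T_mem_self ⟨Γ.src ε, B.J h1⟩).2 (X.πs_mem hα hw hz)⟩
    by_cases ht : i = Γ.tgt ε
    · subst ht
      obtain ⟨w, hw, rfl⟩ := (X.SZ_tgt h1 h2).1 h
      rw [Θf_tgt]
      have := X.Yv_mem hw
      exact (T_mem_self _ ⟨Γ.tgt ε, B.J h2⟩).2 ⟨(X.Tt_memB ⟨Γ.src ε, B.J h1⟩ rfl (B.hu h1 h2)).2 ⟨_, hw.1, _,
        (X.T_mem_self ⟨Γ.src ε, B.J h1⟩).2 ⟨X.castB this.1, X.cast this.2⟩, rfl⟩, zero_mem _⟩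
    · obtain ⟨v, hv, rfl⟩ := (X.SZ_ne h1 fun h => (hP i h).elim hs ht).1 h
      rw [X.Θf_ne hs ht]
      exact (T_mem_ne _ _ ht).2 ⟨rfl, (T_mem_ne _ _ hs).2 ⟨rfl, hv⟩⟩
  h_mem {e n a p} h := by
    by_cases ht : Γ.tgt e = Γ.tgt ε
    · rw [ht]
      refine (T_mem_self _ ⟨Γ.tgt ε, B.J h2⟩).2 ?_
      by_cases he : e = ε
      · subst he
        obtain ⟨α, hα, w, hw, z, hz, rfl⟩ := (X.SZ_src h1 h2).1 h
        have := X.πs_mem hα hw hz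
        rw [Θh_self]
        refine ⟨single_mem _ rfl ?_, zero_mem _⟩
        rw [Γ.tgt_bar]
        exact (X.T_mem_self ⟨Γ.src e, B.J h1⟩).2 ⟨add_mem (X.castB (X.oA_mem this.2).1)
          (X.single_mem rfl (X.cast (X.τ_mem ((X.mem_degB.1 this.1).1 e rfl)))), X.cast (X.τ_mem this.2)⟩
      · have h3 : ¬B.P (Γ.src e) := B.nP (ε := Γ.bar ε) (e := Γ.bar e) h2 (by rwa [Γ.tgt_bar]) ht
          (fun h => he (by simpa using congrArg Γ.bar h)) ∘ (by rw [Γ.tgt_bar]; exact id)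
        obtain ⟨v, hv, rfl⟩ := (X.SZ_ne h1 h3).1 h
        rw [X.Θh_in he ht]
        refine ⟨single_mem _ rfl ?_, zero_mem _⟩
        rw [Γ.tgt_bar]
        exact (X.T_mem_self ⟨Γ.src ε, B.J h1⟩).2 ⟨X.single_mem rfl (X.cast (X.τ_mem (X.x_mem' rfl ht hv))), zero_mem _⟩
    · rw [X.Θh_ne ht]
      exact zero_mem _
  k_mem _ := zero_mem _
  d {i n a p} h := by
    show X.Θf ε i ((X.Zm B).Sd (Γ.src ε) i p) = (X.T ⟨Γ.src ε, B.J h1⟩).Td (Γ.tgt ε) i (X.Θf ε i p)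
    by_cases hs : i = Γ.src ε
    · subst hs
      obtain ⟨α, hα, w, hw, z, hz, rfl⟩ := (X.SZ_src h1 h2).1 h
      rw [Θf_src, Θf_src, Td_ne _ (Γ.tgt_ne ε).symm, X.πs_Sd h1 h2 hα (by simpa using (X.mem_degA.1 hw.2.1).2) hz.1]
    by_cases ht : i = Γ.tgt ε
    · subst ht
      obtain ⟨w, hw, rfl⟩ := (X.SZ_tgt h1 h2).1 h
      have h3 : w.2.1 ε = 0 := by simpa using (X.mem_degA.1 hw.2.1).2
      rw [Θf_tgt, Θf_tgt, Sd_ne _ hs, Td_self, Gt_apply, Gt_apply]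
      simp only [X.Tt_dB ⟨Γ.src ε, B.J h1⟩ rfl (B.hu h1 h2) hw.1, X.Tt_inn ⟨Γ.src ε, B.J h1⟩ rfl (B.hu h1 h2) (X.mem_degA.1 hw.1).2,
        X.Td_Yv h3, X.Zd_P h2, B.uniq' h1 h2]
      simp [ZD_apply, Yv_apply, h3, add_self', Prod.mk_zero_zero]
    · have hi : ¬B.P i := fun h => (hP i h).elim hs ht
      simp [X.Θf_ne hs ht, Sd_ne _ hs, Td_ne _ hs, Td_ne _ ht, X.Zd_ne hi]
  x {e n a p} h := by
    show X.Θf ε (Γ.tgt e) ((X.Zm B).Sx (Γ.src ε) e p) + (X.T ⟨Γ.src ε, B.J h1⟩).Tx (Γ.tgt ε) e (X.Θf ε (Γ.src e) p) =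
      (X.T ⟨Γ.src ε, B.J h1⟩).Td (Γ.tgt ε) (Γ.tgt e) (X.Θh ε e p) + X.Θh ε e ((X.Zm B).Sd (Γ.src ε) (Γ.src e) p)
    by_cases hs : Γ.src e = Γ.src ε
    · rw [hs] at h ⊢
      obtain ⟨α, hα, w, hw, z, hz, rfl⟩ := (X.SZ_src h1 h2).1 h
      have h3 : w.2.1 ε = 0 := by simpa using (X.mem_degA.1 hw.2.1).2
      rw [Sx_src _ hs, X.Z_ev h1 h2 (by simpa [(X.mem_degA.1 hα).2] using h3), Θf_src]
      by_cases he : e = ε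
      · subst he
        rw [Θf_tgt, Θh_self, Θh_self, X.πs_Sd h1 h2 hα h3 hz.1, Tx_tgt _ rfl, Td_self, Gt_apply]
        generalize X.πs e _ = q
        have h4 := X.Tt_dB ⟨Γ.src e, B.J h1⟩ rfl (B.hu h1 h2) (zero_mem (X.degA (Γ.bar e) 0 0)) (X.κ e q)
        have h5 := X.Tt_inn ⟨Γ.src e, B.J h1⟩ rfl (B.hu h1 h2) (γ := 0) rfl (X.κ e q)
        simp only [map_zero, zero_add] at h4 h5
        simp only [X.Zx_PP h1 h2, X.Tt_out ⟨Γ.src e, B.J h1⟩ rfl (B.hu h1 h2), X.Tx_src (e := e) rfl, h4, h5, X.Tτ_ne (Γ.tgt_ne e),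
          map_zero, add_zero, zero_add, Prod.mk_add_mk, ← Pi.single_add, ← X.W1 (B.J h1) (B.J h2)]
        simp only [Pi.single_add, ZX_apply, Mz, κ_apply, Pi.add_apply, oA_self, Pi.single_eq_same, zero_add, Prod.mk.injEq, and_true]
        c2
      · have h4 := B.nP h1 h2 hs he
        have h5 : Γ.tgt e ≠ Γ.tgt ε := fun h => h4 (h ▸ h2)
        simp [X.Θf_ne (Γ.tgt_ne' hs) h5, X.Θh_ne h5, Tx_ne _ (hs ▸ (Γ.tgt_ne ε).symm) h5, X.Tx_src hs, X.Zx_out (hs ▸ h1) h4, Mz, he,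
          add_self', Prod.mk_zero_zero]
    by_cases ht : Γ.src e = Γ.tgt ε
    · rw [ht] at h ⊢
      obtain ⟨w, hw, rfl⟩ := (X.SZ_tgt h1 h2).1 h
      rw [X.Θh_ne (Γ.tgt_ne' ht), X.Θh_ne (Γ.tgt_ne' ht), Tx_src _ ht, Θf_tgt, Gt_apply]
      by_cases he : e = Γ.bar ε
      · subst he
        rw [Sx_tgt _ (Γ.tgt_bar ε), Γ.tgt_bar, Θf_src, Γ.bar_bar]
        simp [πs_apply, pB_single, (X.mem_degA.1 hw.1).2, add_self', Prod.mk_zero_zero]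
      · have h4 := B.nP (ε := Γ.bar ε) h2 (by rwa [Γ.tgt_bar]) ht he
        have h5 := B.hu h1 h2 e ht he
        simp [X.Θf_ne h5 (Γ.tgt_ne' ht), Sx_ne _ hs h5, X.Zx_out (ht ▸ h2) h4, he, add_self', Prod.mk_zero_zero]
    have hi : ¬B.P (Γ.src e) := fun h => (hP _ h).elim hs ht
    obtain ⟨v, hv, rfl⟩ := (X.SZ_ne h1 hi).1 h
    rw [X.Θf_ne hs ht, Sd_ne _ hs]
    by_cases hs' : Γ.tgt e = Γ.src ε
    · have h5 : Γ.tgt e ≠ Γ.tgt ε := hs' ▸ (Γ.tgt_ne ε).symm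
      have h6 : Γ.bar e ≠ ε := fun h => ht (by rw [← h, Γ.tgt_bar])
      rw [X.Θh_ne h5, X.Θh_ne h5, Sx_tgt _ hs', Tx_ne _ ht h5, hs', Θf_src]
      simp [πs_apply, pB_single, X.iA_single_ne (e := Γ.bar e) hs' h6, h6.symm, X.Tx_tgt hs', add_self', Prod.mk_zero_zero]
    by_cases ht' : Γ.tgt e = Γ.tgt ε
    · have he : e ≠ ε := fun h => hs (h ▸ rfl)
      rw [X.Θh_in he ht', X.Θh_in he ht', Sx_ne _ hs hs', Tx_tgt _ ht', ht', Θf_tgt, Gt_apply, Td_self]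
      have h4 := fun q => X.Tt_dB ⟨Γ.src ε, B.J h1⟩ rfl (B.hu h1 h2) (zero_mem (X.degA (Γ.bar ε) 0 0)) q
      have h5 := fun q => X.Tt_inn ⟨Γ.src ε, B.J h1⟩ rfl (B.hu h1 h2) (γ := 0) rfl q
      simp only [map_zero, zero_add] at h4 h5
      simp only [X.Zx_in hi (ht' ▸ h2), ht', B.uniq' h1 h2, X.Tt_out ⟨Γ.src ε, B.J h1⟩ rfl (B.hu h1 h2), X.Tx_ne hs hs', h4, h5,
        X.Tτ_ne (Γ.tgt_ne ε), X.Zd_ne hi, ← X.dx' rfl ht', map_zero, add_zero, zero_add, Prod.mk_add_mk, ← Pi.single_add,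
        ← X.W2 (B.J h2)]
      simp only [Pi.single_add, ZI_apply, Pi.single_eq_same, Prod.mk.injEq, and_true]
      c2
    · have hj : ¬B.P (Γ.tgt e) := fun h => (hP _ h).elim hs' ht'
      simp [X.Θf_ne hs' ht', X.Θh_ne ht', Sx_ne _ hs hs', Tx_ne _ ht ht', X.Tx_ne hs hs', X.Zx_ne hi hj, add_self', Prod.mk_zero_zero]
  τ {i n a p} hJ h := by
    show X.Θf ε i ((X.Zm B).Sτ (Γ.src ε) i p) + (X.T ⟨Γ.src ε, B.J h1⟩).Tτ (Γ.tgt ε) i (X.Θf ε i p) +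
      ∑ e ∈ Γ.O i, (X.Θh ε (Γ.bar e) ((X.Zm B).Sx (Γ.src ε) e p) + (X.T ⟨Γ.src ε, B.J h1⟩).Tx (Γ.tgt ε) (Γ.bar e) (X.Θh ε e p)) =
      (X.T ⟨Γ.src ε, B.J h1⟩).Td (Γ.tgt ε) i 0 + 0
    rw [map_zero, add_zero]
    by_cases hs : i = Γ.src ε
    · subst hs
      obtain ⟨α, hα, w, hw, z, hz, rfl⟩ := (X.SZ_src h1 h2).1 h
      have h3 : w.2.1 ε = 0 := by simpa using (X.mem_degA.1 hw.2.1).2
      rw [Finset.sum_eq_single ε (fun e he hne => ?_) (by simp), Sτ_self, X.Z_ev h1 h2 (by simpa [(X.mem_degA.1 hα).2] using h3),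
        Θf_src, Θf_src, X.Θh_ne (e := Γ.bar ε) (by rw [Γ.tgt_bar]; exact (Γ.tgt_ne ε).symm), Θh_self, Tx_src _ (Γ.src_bar ε),
        Tτ_ne _ (Γ.tgt_ne ε).symm]
      · generalize X.πs ε (X.jB α + Pi.single ε w, z) = q
        simp only [πs_apply, Mz, κ_apply, X.Tτ_self, out_eq, Pi.single_eq_same, Pi.zero_apply, Pi.single_add, map_zero, zero_add,
          Prod.mk_add_mk, Prod.mk_eq_zero, true_and, Prod.mk_zero_zero, add_zero]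
        exact ⟨by c2, by c2⟩
      · rw [Γ.mem_O] at he
        rw [X.Θh_ne (e := Γ.bar e) (by rw [Γ.tgt_bar, he]; exact (Γ.tgt_ne ε).symm),
          X.Θh_ne (ε := ε) (e := e) (fun h => B.nP h1 h2 he hne (h ▸ h2)), map_zero, add_zero]
    by_cases ht : i = Γ.tgt ε
    · subst ht
      obtain ⟨w, hw, rfl⟩ := (X.SZ_tgt h1 h2).1 h
      have h3 : w.2.1 ε = 0 := by simpa using (X.mem_degA.1 hw.2.1).2
      rw [← Finset.add_sum_erase _ _ (Γ.mem_O.2 rfl : Γ.bar ε ∈ Γ.O (Γ.tgt ε)), Finset.sum_congr rfl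
        (g := fun e => (Pi.single (Γ.bar ε) (Pi.single ε (X.τ (Γ.tgt ε) (X.x (Γ.bar e) (w.1 e))), 0), 0)) fun e he => ?_,
        X.Θh_ne (e := Γ.bar ε) (by rw [Γ.tgt_bar]; exact (Γ.tgt_ne ε).symm), Γ.bar_bar, Θh_self, Sx_tgt _ (Γ.tgt_bar ε), Γ.bar_bar,
        Sτ_ne _ hs, Θf_tgt, Θf_tgt, Gt_apply, Gt_apply, Tτ_self]
      · have h4 : ∑ e ∈ (Γ.O (Γ.tgt ε)).erase (Γ.bar ε), ((Pi.single (Γ.bar ε) (Pi.single ε (X.τ (Γ.tgt ε) (X.x (Γ.bar e) (w.1 e))), 0), 0) :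
            (E → (E → X.V) × X.V) × (E → X.V) × X.V) = (Pi.single (Γ.bar ε) (Pi.single ε (X.τ (Γ.tgt ε) (X.iA (Γ.bar ε) w.1)), 0), 0) := by
          rw [← X.iA_sum (Γ.bar ε)]
          exact (map_sum (LinearMap.inl K _ _ ∘ₗ LinearMap.single K (fun _ => (E → X.V) × X.V) (Γ.bar ε) ∘ₗ LinearMap.inl K _ _ ∘ₗ
            LinearMap.single K (fun _ => X.V) ε ∘ₗ X.τ (Γ.tgt ε)) _ _).symm
        rw [h4]
        simp [X.Zτ_P h2, B.uniq' h1 h2, ZS_apply, πs_apply, pB_single, Yv_apply, κ_apply, h3, ← Pi.single_add, add_add_self, add_assoc,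
          add_self', Prod.mk_zero_zero]
      · rw [Finset.mem_erase, Γ.mem_O] at he
        rw [X.Θh_ne (Γ.tgt_ne' he.2), map_zero, add_zero, X.Θh_in (fun h => he.1 (by rw [← h, Γ.bar_bar])) (by rw [Γ.tgt_bar, he.2]),
          Sx_ne _ (by rw [he.2]; exact hs) (B.hu h1 h2 e he.2 he.1)]
        simp only [X.Zx_out (he.2 ▸ h2) (B.nP (ε := Γ.bar ε) h2 (by rwa [Γ.tgt_bar]) he.2 he.1)]
    · have hi : ¬B.P i := fun h => (hP _ h).elim hs ht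
      rw [Finset.sum_eq_zero fun e he => ?_]
      · simp [X.Θf_ne hs ht, Sτ_ne _ hs, Tτ_ne _ ht, X.Tτ_ne hs, X.Zτ_ne hi, add_self', Prod.mk_zero_zero]
      · rw [Γ.mem_O] at he
        rw [X.Θh_ne (e := Γ.bar e) (by rwa [Γ.tgt_bar, he]), zero_add]
        by_cases ht' : Γ.tgt e = Γ.tgt ε
        · have h3 : e ≠ ε := fun h => hs (by rw [← he, h])
          have h4 : Γ.bar e ≠ Γ.bar ε := fun h => h3 (by simpa using congrArg Γ.bar h)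
          rw [X.Θh_in h3 ht', Tx_src _ (e := Γ.bar e) ht']
          simp [h4, Prod.mk_zero_zero]
        · rw [X.Θh_ne ht', map_zero]

theorem qiat_Θ_src (hP : ∀ i, B.P i → i = Γ.src ε ∨ i = Γ.tgt ε) (a : ℤ) : QIat (X.Θ h1 h2 hP).f (Γ.src ε) a := by
  have hne := (Γ.tgt_ne ε).symm
  refine qiat_of_htpy (fun _ y => ((Pi.single ε (0, y.2.1 + Pi.single ε (y.2.1 ε), y.2.2), 0, 0, y.2.1 ε) : (E → X.P3) × X.P3))
    (fun _ p => (0, X.pB p.1 + Pi.single ε (p.1 ε).2.2, (p.1 ε).1, 0)) (fun _ _ => 0) (fun n y hy => ?_) (fun n y _ => ?_)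
    (fun _ => by simp [Prod.mk_zero_zero]) (fun n p hp => ?_) (fun _ => by simp [Prod.mk_zero_zero]) (fun _ _ _ => zero_mem _)
    (fun _ => rfl) (fun n p hp => ?_) (fun n y hy => ?_)
  · have h3 := (X.T_mem_self ⟨Γ.src ε, B.J h1⟩).1 ((T_mem_ne _ _ hne).1 hy).2
    have h4 := (X.mem_degB.1 h3.1).1 ε rfl
    refine (X.SZ_src h1 h2).2 ⟨0, zero_mem _, (0, y.2.1 + Pi.single ε (y.2.1 ε), y.2.2), ?_, (0, 0, y.2.1 ε),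
      ⟨zero_mem _, zero_mem _, X.cast h4⟩, by rw [map_zero, zero_add]⟩
    rw [mem_degZ, Γ.bar_bar, Γ.tgt_bar]
    exact ⟨zero_mem _, ⟨X.castB (add_mem h3.1 (X.single_mem rfl h4)), by simp [add_self']⟩, X.cast h3.2⟩
  · have := X.Z_Sd h1 h2 (zero_mem (X.degA ε 0 0)) (0, y.2.1 + Pi.single ε (y.2.1 ε), y.2.2) (z := (0, 0, y.2.1 ε))
      (zero_mem (X.degA ε 0 0))
    rw [map_zero, zero_add] at this
    refine Eq.trans ?_ this.symm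
    rw [show ((X.T ⟨Γ.src ε, B.J h1⟩).T ⟨Γ.tgt ε, B.J h2⟩).p.d (Γ.src ε) n a y = _ from Td_ne _ hne y]
    simp only [Td_ne _ hne, X.Td_self, ZD_apply, ZX_apply, map_add, map_zero, dB_single, dB_apply, iA_single_self, inn_eq, Γ.bar_bar,
      Γ.tgt_bar, zero_add, add_zero, Prod.mk_add_mk]
    rw [add_right_comm]
  · obtain ⟨α, hα, w, hw, z, hz, rfl⟩ := (X.SZ_src h1 h2).1 hp
    refine (X.SZ_src h1 h2).2 ⟨0, zero_mem _, 0, zero_mem _, (α, w.1, 0), ⟨X.castA hα, X.castA hw.1, zero_mem _⟩, ?_⟩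
    simp [pB_single, (X.mem_degA.1 hα).2, add_assoc, add_self']
  · obtain ⟨α, hα, w, hw, z, hz, rfl⟩ := (X.SZ_src h1 h2).1 hp
    have h3 : w.2.1 ε = 0 := by simpa using (X.mem_degA.1 hw.2.1).2
    have h4 := (X.mem_degA.1 hα).2
    have h5 := X.Z_Sd h1 h2 (zero_mem (X.degA ε 0 0)) 0 (z := (α, w.1, 0)) hα
    have h6 := X.Z_Sd h1 h2 hα w hz.1
    rw [map_zero, Pi.single_zero, zero_add] at h5
    show (_, _) + _ = (X.Zm B).Sd _ _ _ + (0, X.pB ((X.Zm B).Sd _ _ _).1 + Pi.single ε (((X.Zm B).Sd _ _ _).1 ε).2.2,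
      (((X.Zm B).Sd _ _ _).1 ε).1, 0)
    have h7 : X.pB (X.jB α + Pi.single ε w) + Pi.single ε ((X.jB α + Pi.single ε w : E → X.P3) ε).2.2 = α := by
      simp [pB_single, h4, add_assoc, add_self']
    have h8 : ((X.jB α + Pi.single ε w : E → X.P3) ε).1 = w.1 := by simp
    simp only [h7, h8]
    rw [h5, h6]
    obtain ⟨γ, α₁, v⟩ := w
    obtain ⟨α₂, γ₂, u⟩ := z
    have h9 : α₂ ε = 0 := (X.mem_degA.1 hz.1).2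
    simp only [Θ, Θf_src, X.πs_mk h4, ZD_apply, ZX_apply, map_add, map_zero, pB_jB, pB_single, Pi.add_apply, jB_apply, dB_apply, h4, h9,
      oA_self, show α₁ ε = 0 from h3, Pi.single_eq_same, zero_add, add_zero, Prod.mk_add_mk, Prod.mk.injEq]
    refine ⟨?_, by c2, by c2, by c2⟩
    rw [add_left_comm, ← Pi.single_add, Prod.mk_add_mk, Prod.mk_add_mk]
    congr 4
    · c2
    · c2
    · c2
  · obtain ⟨β, b, v⟩ := y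
    obtain rfl : β = 0 := ((T_mem_ne _ _ hne).1 hy).1
    simp [Θ, Θf_src, πs_apply, pB_single, Yv_apply, add_assoc, add_self', add_add_self, Prod.mk_zero_zero]

theorem qiat_Θ_tgt (hP : ∀ i, B.P i → i = Γ.src ε ∨ i = Γ.tgt ε) (a : ℤ) : QIat (X.Θ h1 h2 hP).f (Γ.tgt ε) a := by
  have hne := Γ.tgt_ne ε
  have key : ∀ {n : ℤ} {y : (E → (E → X.V) × X.V) × (E → X.V) × X.V},
      y ∈ ((X.T ⟨Γ.src ε, B.J h1⟩).T ⟨Γ.tgt ε, B.J h2⟩).deg (Γ.tgt ε) n a → ∃ γ ∈ X.degA (Γ.bar ε) n (a + 1),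
        ∃ α ∈ X.degA ε n (a + 2), ∃ u ∈ X.deg (Γ.tgt ε) n (a + 2), ∃ v ∈ X.deg (Γ.src ε) (n - 1) (a + 3),
          ∃ u' ∈ X.deg (Γ.tgt ε) (n - 1) (a + 2), y = (X.iB γ + Pi.single (Γ.bar ε) (α + Pi.single ε u, v), 0, u') := by
    rintro n ⟨β, b, u'⟩ hy
    obtain ⟨h3, h4⟩ := (T_mem_self _ ⟨Γ.tgt ε, B.J h2⟩).1 hy
    obtain ⟨γ, hγ, ⟨c, v⟩, hw, rfl⟩ := (X.Tt_memB ⟨Γ.src ε, B.J h1⟩ rfl (B.hu h1 h2)).1 h3
    obtain ⟨h5, h6⟩ := (X.T_mem_self ⟨Γ.src ε, B.J h1⟩).1 hw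
    obtain ⟨α, hα, u, hu, rfl⟩ := (X.degB_split ε).1 h5
    obtain ⟨rfl, h7⟩ := (X.T_mem_ne ⟨Γ.src ε, B.J h1⟩ hne).1 h4
    exact ⟨γ, hγ, α, X.castA hα, u, X.cast hu, v, X.cast h6, u', h7, rfl⟩
  have hd : ∀ {n a : ℤ} {γ : E → X.V}, γ ∈ X.degA (Γ.bar ε) n a → ∀ (w : (E → X.V) × X.V) (u' : X.V),
      (X.T ⟨Γ.src ε, B.J h1⟩).Td (Γ.tgt ε) (Γ.tgt ε) (X.iB γ + Pi.single (Γ.bar ε) w, 0, u') =
      (X.iB (X.dB γ) + Pi.single (Γ.bar ε) (X.dB w.1, X.inn (Γ.src ε) w.1 + X.d (Γ.src ε) w.2), 0,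
        X.iA (Γ.bar ε) γ + w.1 ε + X.d (Γ.tgt ε) u') := by
    intro n a γ hγ w u'
    rw [Td_self]
    simp only [X.Tt_dB ⟨Γ.src ε, B.J h1⟩ rfl (B.hu h1 h2) hγ, X.Tt_inn ⟨Γ.src ε, B.J h1⟩ rfl (B.hu h1 h2) (X.mem_degA.1 hγ).2,
      X.Td_ne hne, X.Td_self, Prod.mk_add_mk, add_zero]
  refine qiat_of_htpy (fun _ y => ((0, X.sB y.1 + Pi.single (Γ.bar ε) (y.1 (Γ.bar ε)).2,
      (y.1 (Γ.bar ε)).1 + Pi.single ε ((y.1 (Γ.bar ε)).1 ε), (y.1 (Γ.bar ε)).2 + X.x (Γ.bar ε) y.2.2) : (E → X.P3) × X.P3))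
    (fun _ _ => 0) (fun _ y => (Pi.single (Γ.bar ε) (Pi.single ε y.2.2, 0), 0)) (fun n y hy => ?_) (fun n y hy => ?_)
    (fun _ => by simp [Prod.mk_zero_zero]) (fun _ _ _ => zero_mem _) (fun _ => rfl) (fun n y hy => ?_)
    (fun _ => by simp [Prod.mk_zero_zero]) (fun n p hp => ?_) (fun n y hy => ?_)
  · obtain ⟨γ, hγ, α, hα, u, hu, v, hv, u', hu', rfl⟩ := key hy
    refine (X.SZ_tgt h1 h2).2 ⟨(γ, α, v + X.x (Γ.bar ε) u'), ?_, ?_⟩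
    · rw [mem_degZ, Γ.bar_bar, Γ.tgt_bar]
      exact ⟨hγ, hα, add_mem hv (X.cast (X.xbar_mem hu'))⟩
    · simp [sB_single, (X.mem_degA.1 hγ).2, (X.mem_degA.1 hα).2, add_assoc, add_self']
  · obtain ⟨γ, hγ, α, hα, u, hu, v, hv, u', hu', rfl⟩ := key hy
    show _ = (X.Zm B).Sd _ _ _
    rw [show ((X.T ⟨Γ.src ε, B.J h1⟩).T ⟨Γ.tgt ε, B.J h2⟩).p.d (Γ.tgt ε) n a _ = _ from hd hγ _ _, Sd_ne _ hne]
    simp only [X.Zd_P h2, B.uniq' h1 h2, ZD_apply, map_add, sB_iB, sB_single, Pi.add_apply, iB_apply, dB_apply, (X.mem_degA.1 hγ).2,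
      (X.mem_degA.1 hα).2, Pi.single_eq_same, dB_single, inn_eq, iA_single_self, Γ.bar_bar, Γ.tgt_bar, dx_bar, map_zero, zero_add,
      add_zero, Prod.mk_add_mk, Prod.mk.injEq, true_and]
    exact ⟨by c2, by c2⟩
  · obtain ⟨γ, hγ, α, hα, u, hu, v, hv, u', hu', rfl⟩ := key hy
    refine (T_mem_self _ ⟨Γ.tgt ε, B.J h2⟩).2 ⟨single_mem _ rfl ?_, zero_mem _⟩
    rw [Γ.tgt_bar]
    exact (X.T_mem_self ⟨Γ.src ε, B.J h1⟩).2 ⟨X.single_mem rfl (X.cast hu'), zero_mem _⟩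
  · obtain ⟨⟨γ, α, v⟩, hw, rfl⟩ := (X.SZ_tgt h1 h2).1 hp
    have h3 : α ε = 0 := by simpa using (X.mem_degA.1 hw.2.1).2
    have h4 : γ (Γ.bar ε) = 0 := (X.mem_degA.1 hw.1).2
    simp [Θ, Θf_tgt, Gt_apply, Yv_apply, sB_single, h3, h4, add_assoc, add_self', add_add_self, Prod.mk_zero_zero]
  · obtain ⟨γ, hγ, α, hα, u, hu, v, hv, u', hu', rfl⟩ := key hy
    have h3 := hd (zero_mem (X.degA (Γ.bar ε) 0 0)) (Pi.single ε u', 0) 0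
    rw [map_zero, zero_add] at h3
    rw [show ((X.T ⟨Γ.src ε, B.J h1⟩).T ⟨Γ.tgt ε, B.J h2⟩).p.d (Γ.tgt ε) n a _ = _ from hd hγ _ _,
      show ((X.T ⟨Γ.src ε, B.J h1⟩).T ⟨Γ.tgt ε, B.J h2⟩).p.d (Γ.tgt ε) (n - 1) a (_, 0) = _ from h3]
    simp only [Θ, Θf_tgt, Gt_apply, Yv_apply, map_add, sB_iB, sB_single, Pi.add_apply, iB_apply, (X.mem_degA.1 hγ).2,
      (X.mem_degA.1 hα).2, Pi.single_eq_same, dB_single, inn_eq, iA_single_self, map_zero, zero_add,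
      add_zero, Prod.mk_add_mk, Prod.mk.injEq, and_true, add_assoc, add_self', ← Pi.single_add]
    rw [add_left_comm, add_add_self, ← Pi.single_add, Prod.mk_add_mk]
    simp only [Pi.single_add]
    congr 2
    · c2
    · c2

theorem qiat_Θ (hP : ∀ i, B.P i → i = Γ.src ε ∨ i = Γ.tgt ε) (i : I) (a : ℤ) : QIat (X.Θ h1 h2 hP).f i a := by
  by_cases hs : i = Γ.src ε
  · exact hs ▸ X.qiat_Θ_src h1 h2 hP a
  by_cases ht : i = Γ.tgt ε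
  · exact ht ▸ X.qiat_Θ_tgt h1 h2 hP a
  have hi : ¬B.P i := fun h => (hP _ h).elim hs ht
  refine qiat_of_inv (fun _ y => ((0, 0, 0, y.2.2) : (E → X.P3) × X.P3)) (fun n y hy => ?_) (fun n y _ => ?_) (fun _ => rfl)
    (fun n p hp => ?_) (fun n y hy => ?_)
  · exact (X.SZ_ne h1 hi).2 ⟨_, ((T_mem_ne _ _ hs).1 ((T_mem_ne _ _ ht).1 hy).2).2, rfl⟩
  · show (0, 0, 0, ((X.T _).Td _ i y).2.2) = (X.Zm B).Sd _ i _
    simp [Td_ne _ ht, X.Td_ne hs, Sd_ne _ hs, X.Zd_ne hi]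
  · obtain ⟨v, hv, rfl⟩ := (X.SZ_ne h1 hi).1 hp
    simp [Θ, X.Θf_ne hs ht]
  · obtain ⟨β, b, v⟩ := y
    obtain ⟨rfl, h⟩ := (T_mem_ne _ _ ht).1 hy
    obtain ⟨rfl, -⟩ := (T_mem_ne _ _ hs).1 h
    simp [Θ, X.Θf_ne hs ht]

theorem Zm_cl (hP : ∀ i, B.P i → i = Γ.src ε ∨ i = Γ.tgt ε) :
    (Obj.T ⟨Γ.src ε, B.J h1⟩ * Obj.T ⟨Γ.tgt ε, B.J h2⟩ * Obj.T ⟨Γ.src ε, B.J h1⟩) X.p.cl = (X.Zm B).p.cl := by
  rw [Equiv.Perm.mul_apply, Equiv.Perm.mul_apply, Obj.T_cl, Obj.T_cl, ← cl_eq_of_whom _ (X.qiat_Θ h1 h2 hP), ← Obj.T_inv_cl,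
    Equiv.Perm.coe_inv, Equiv.apply_symm_apply]

end DG

theorem Obj.braid (ε : E) (hs : Γ.src ε ∈ Γ.J) (ht : Γ.tgt ε ∈ Γ.J) (hu : ∀ e, Γ.src e = Γ.src ε → Γ.tgt e = Γ.tgt ε → e = ε) :
    Obj.T ⟨Γ.src ε, hs⟩ * Obj.T ⟨Γ.tgt ε, ht⟩ * Obj.T ⟨Γ.src ε, hs⟩ = Obj.T ⟨Γ.tgt ε, ht⟩ * Obj.T ⟨Γ.src ε, hs⟩ * Obj.T ⟨Γ.tgt ε, ht⟩ := by
  let B : Br Γ :=
    { P := fun i => i = Γ.src ε ∨ i = Γ.tgt ε
      ed := fun i => if i = Γ.src ε then ε else Γ.bar ε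
      J := by rintro i (rfl | rfl) <;> assumption
      src := by rintro i (rfl | rfl) <;> simp [Γ.tgt_ne ε]
      tgt := by rintro i (rfl | rfl) <;> simp [Γ.tgt_ne ε]
      uniq := by
        rintro e (h | h) (h' | h')
        · exact absurd (h'.trans h.symm) (Γ.tgt_ne e)
        · rw [if_pos h, hu e h h']
        · rw [if_neg (h ▸ Γ.tgt_ne ε), ← hu (Γ.bar e) h' (by rwa [Γ.tgt_bar]), Γ.bar_bar]
        · exact absurd (h'.trans h.symm) (Γ.tgt_ne e) }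
  refine Equiv.ext fun x => ?_
  obtain ⟨X, rfl⟩ := exists_rep x
  have := X.Zm_cl (B := B) (ε := Γ.bar ε) (Or.inr rfl) (Or.inl (Γ.tgt_bar ε)) fun i h => by rw [Γ.tgt_bar]; exact h.symm
  simp only [Γ.tgt_bar] at this
  exact (X.Zm_cl (B := B) (Or.inl rfl) (Or.inr rfl) fun _ h => h).trans this.symm

end

theorem braid_TT2 (G : P.Gr) : ∀ i ∈ G.J, ∀ j ∈ G.J, G.ne i j = 1 → TT G i * TT G j * TT G i = TT G j * TT G i * TT G j := by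
  intro i hi j hj h
  obtain ⟨ε, rfl, rfl, hu⟩ := ne_eq_one h
  rw [TT_eq hi, TT_eq hj]
  exact Obj.braid (Γ := toGr G) ε hi hj hu

end Crest.Agent.R175.Mod
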