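import Crest.Agent.R175.Mod.K0
import Crest.Agent.R175.Mod.Api

/-! # R175/Mod/C0 (helper9): cycles, boundaries, dimensions of cohomology -/

set_option autoImplicit false
noncomputable section
open Classical Module

namespace Crest.Agent.R175.Mod

/-! ### subquotients -/

section SQ
variable {V W : Type*} [AddCommGroup V] [Module K V] [AddCommGroup W] [Module K W]

/-- the subquotient `Z / (B ∩ Z)` -/
abbrev SQ (Z B : Submodule K V) := Z ⧸ B.submoduleOf Z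

/-- the class of `v ∈ Z` -/
def SQ.mk {Z : Submodule K V} (B : Submodule K V) (v : V) (hv : v ∈ Z) : SQ Z B := Submodule.Quotient.mk ⟨v, hv⟩

theorem SQ.mk_eq_zero {Z B : Submodule K V} {v : V} (hv : v ∈ Z) : SQ.mk B v hv = 0 ↔ v ∈ B :=
  Submodule.Quotient.mk_eq_zero _

theorem SQ.mk_add {Z B : Submodule K V} {v w : V} (hv : v ∈ Z) (hw : w ∈ Z) :
    SQ.mk B (v + w) (add_mem hv hw) = SQ.mk B v hv + SQ.mk B w hw := rfl

theorem SQ.mk_eq {Z B : Submodule K V} {v w : V} (hv : v ∈ Z) (hw : w ∈ Z) :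
    SQ.mk B v hv = SQ.mk B w hw ↔ v + w ∈ B := by
  rw [eq_iff_add, ← SQ.mk_add, SQ.mk_eq_zero]

theorem SQ.ind {Z B : Submodule K V} (q : SQ Z B) : ∃ v hv, SQ.mk B v hv = q := by
  obtain ⟨⟨v, hv⟩, rfl⟩ := Submodule.Quotient.mk_surjective _ q
  exact ⟨v, hv, rfl⟩

/-- induced map -/
def SQ.map {Z B : Submodule K V} {Z' B' : Submodule K W} (f : V →ₗ[K] W) (hZ : ∀ v ∈ Z, f v ∈ Z')
    (hB : ∀ v ∈ B, f v ∈ B') : SQ Z B →ₗ[K] SQ Z' B' :=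
  Submodule.mapQ _ _ (f.restrict hZ) fun v hv => hB v hv

theorem SQ.map_mk {Z B : Submodule K V} {Z' B' : Submodule K W} (f : V →ₗ[K] W) (hZ : ∀ v ∈ Z, f v ∈ Z')
    (hB : ∀ v ∈ B, f v ∈ B') (v : V) (hv : v ∈ Z) :
    SQ.map f hZ hB (SQ.mk B v hv) = SQ.mk B' (f v) (hZ v hv) := rfl

end SQ

theorem sq_eq_finrank {V : Type} [AddCommGroup V] [Module K V] [Finite V] {Z B : Submodule K V} (h : B ≤ Z) :
    sq Z B = finrank K (SQ Z B) := by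
  have h1 : finrank K (SQ Z B) + finrank K (B.submoduleOf Z) = finrank K Z :=
    (B.submoduleOf Z).finrank_quotient_add_finrank
  have h2 := (Submodule.submoduleOfEquivOfLe h).finrank_eq
  unfold sq
  omega


variable {I E : Type} [Fintype E] {Γ : Gr I E}

namespace DG
variable (X : DG Γ)

/-- cycles -/
abbrev Z (i : I) (n a : ℤ) : Submodule K X.V := X.p.Z i n a
/-- boundaries -/
abbrev Bd (i : I) (n a : ℤ) : Submodule K X.V := X.p.B i n a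
/-- cycles of the neighbours -/
def ZB (s : I) (n a : ℤ) : Submodule K (E → X.V) := X.degB s n a ⊓ LinearMap.ker X.dB
/-- boundaries of the neighbours -/
def BdB (s : I) (n a : ℤ) : Submodule K (E → X.V) := (X.degB s (n - 1) a).map X.dB

variable {X}

theorem mem_Z {i : I} {n a : ℤ} {v : X.V} : v ∈ X.Z i n a ↔ v ∈ X.deg i n a ∧ X.d i v = 0 := Iff.rfl
theorem mem_Bd {i : I} {n a : ℤ} {v : X.V} : v ∈ X.Bd i n a ↔ ∃ w ∈ X.deg i (n - 1) a, X.d i w = v := Iff.rfl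
theorem mem_ZB {s : I} {n a : ℤ} {b : E → X.V} : b ∈ X.ZB s n a ↔ b ∈ X.degB s n a ∧ X.dB b = 0 := Iff.rfl
theorem mem_BdB {s : I} {n a : ℤ} {b : E → X.V} :
    b ∈ X.BdB s n a ↔ ∃ c ∈ X.degB s (n - 1) a, X.dB c = b := Iff.rfl

theorem Bd_le_Z {i : I} {n a : ℤ} {v : X.V} (h : v ∈ X.Bd i n a) : v ∈ X.Z i n a := by
  obtain ⟨w, hw, rfl⟩ := h
  exact ⟨X.cast (X.d_mem hw), X.dd _ _⟩

theorem castZ {i : I} {n a n' a' : ℤ} {v : X.V} (h : v ∈ X.Z i n a) (hn : n = n' := by omega)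
    (ha : a = a' := by omega) : v ∈ X.Z i n' a' := hn ▸ ha ▸ h
theorem castBd {i : I} {n a n' a' : ℤ} {v : X.V} (h : v ∈ X.Bd i n a) (hn : n = n' := by omega)
    (ha : a = a' := by omega) : v ∈ X.Bd i n' a' := hn ▸ ha ▸ h
theorem castZB {i : I} {n a n' a' : ℤ} {v : E → X.V} (h : v ∈ X.ZB i n a) (hn : n = n' := by omega)
    (ha : a = a' := by omega) : v ∈ X.ZB i n' a' := hn ▸ ha ▸ h
theorem castBdB {i : I} {n a n' a' : ℤ} {v : E → X.V} (h : v ∈ X.BdB i n a) (hn : n = n' := by omega)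
    (ha : a = a' := by omega) : v ∈ X.BdB i n' a' := hn ▸ ha ▸ h

theorem mem_ZB_iff {s : I} {n a : ℤ} {b : E → X.V} : b ∈ X.ZB s n a ↔
    (∀ e, Γ.src e = s → b e ∈ X.Z (Γ.tgt e) n a) ∧ ∀ e, Γ.src e ≠ s → b e = 0 := by
  rw [mem_ZB, mem_degB]
  constructor
  · rintro ⟨⟨h1, h2⟩, h3⟩
    exact ⟨fun e he => ⟨h1 e he, congrFun h3 e⟩, h2⟩
  · rintro ⟨h1, h2⟩
    refine ⟨⟨fun e he => (h1 e he).1, h2⟩, funext fun e => ?_⟩
    by_cases he : Γ.src e = s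
    · exact (h1 e he).2
    · simp [h2 e he]

theorem mem_BdB_iff {s : I} {n a : ℤ} {b : E → X.V} : b ∈ X.BdB s n a ↔
    (∀ e, Γ.src e = s → b e ∈ X.Bd (Γ.tgt e) n a) ∧ ∀ e, Γ.src e ≠ s → b e = 0 := by
  constructor
  · rintro ⟨c, hc, rfl⟩
    have hc' := X.mem_degB.1 hc
    exact ⟨fun e he => ⟨c e, hc'.1 e he, rfl⟩, fun e he => by simp [hc'.2 e he]⟩
  · rintro ⟨h1, h2⟩
    have : ∀ e, ∃ w, (Γ.src e = s → w ∈ X.deg (Γ.tgt e) (n - 1) a) ∧ (Γ.src e ≠ s → w = 0) ∧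
        X.d (Γ.tgt e) w = b e := by
      intro e
      by_cases he : Γ.src e = s
      · obtain ⟨w, hw, hw'⟩ := h1 e he
        exact ⟨w, fun _ => hw, fun h' => absurd he h', hw'⟩
      · exact ⟨0, fun h' => absurd h' he, fun _ => rfl, by rw [map_zero, h2 e he]⟩
    choose w hw using this
    exact ⟨w, X.mem_degB.2 ⟨fun e => (hw e).1, fun e => (hw e).2.1⟩, funext fun e => (hw e).2.2⟩

theorem x_Z {e : E} {i j : I} {n a : ℤ} {v : X.V} (hi : Γ.src e = i) (hj : Γ.tgt e = j) (h : v ∈ X.Z i n a) :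
    X.x e v ∈ X.Z j n (a + 1) :=
  ⟨X.x_mem' hi hj h.1, by
    change X.d j _ = 0
    rw [X.dx' hi hj, show X.d i v = 0 from h.2, map_zero]⟩

theorem x_Bd {e : E} {i j : I} {n a : ℤ} {v : X.V} (hi : Γ.src e = i) (hj : Γ.tgt e = j) (h : v ∈ X.Bd i n a) :
    X.x e v ∈ X.Bd j n (a + 1) := by
  obtain ⟨w, hw, rfl⟩ := h
  exact ⟨X.x e w, X.x_mem' hi hj hw, X.dx' hi hj w⟩

theorem out_ZB {s : I} {n a : ℤ} {v : X.V} (h : v ∈ X.Z s n a) : X.out s v ∈ X.ZB s n (a + 1) :=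
  ⟨X.out_mem h.1, by
    change X.dB _ = 0
    rw [dB_out, show X.d s v = 0 from h.2, map_zero]⟩

theorem out_BdB {s : I} {n a : ℤ} {v : X.V} (h : v ∈ X.Bd s n a) : X.out s v ∈ X.BdB s n (a + 1) := by
  obtain ⟨w, hw, rfl⟩ := h
  exact ⟨X.out s w, X.out_mem hw, X.dB_out s w⟩

theorem inn_Z {s : I} {n a : ℤ} {b : E → X.V} (h : b ∈ X.ZB s n a) : X.inn s b ∈ X.Z s n (a + 1) :=
  ⟨X.inn_mem h.1, by
    change X.d s _ = 0
    rw [d_inn, show X.dB b = 0 from h.2, map_zero]⟩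

theorem inn_Bd {s : I} {n a : ℤ} {b : E → X.V} (h : b ∈ X.BdB s n a) : X.inn s b ∈ X.Bd s n (a + 1) := by
  obtain ⟨w, hw, rfl⟩ := h
  exact ⟨X.inn s w, X.inn_mem hw, X.d_inn s w⟩

theorem inn_out_Bd {s : I} (hs : s ∈ Γ.J) {n a : ℤ} {v : X.V} (h : v ∈ X.Z s n a) :
    X.inn s (X.out s v) ∈ X.Bd s n (a + 2) :=
  ⟨X.τ s v, X.τ_mem h.1, by rw [X.inn_out hs, show X.d s v = 0 from h.2, map_zero, add_zero]⟩

theorem hz_iff9 {i : I} {n a : ℤ} : X.Hz i n a ↔ ∀ v ∈ X.Z i n a, v ∈ X.Bd i n a :=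
  ⟨fun h v hv => h v hv.1 hv.2, fun h v hv hd => h v ⟨hv, hd⟩⟩

theorem hd_eq (i : I) (n a : ℤ) : X.p.hd i n a = finrank K (SQ (X.Z i n a) (X.Bd i n a)) :=
  sq_eq_finrank (X.p.B_le_Z i n a)

/-- the dimension of the cohomology of the neighbours -/
theorem finrank_HB (s : I) (n a : ℤ) :
    finrank K (SQ (X.ZB s n a) (X.BdB s n a)) = ∑ e ∈ Γ.O s, X.p.hd (Γ.tgt e) n a := by
  let Φ : SQ (X.ZB s n a) (X.BdB s n a) →ₗ[K] ∀ e : Γ.O s, SQ (X.Z (Γ.tgt e) n a) (X.Bd (Γ.tgt e) n a) :=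
    LinearMap.pi fun e => SQ.map (LinearMap.proj e.1) (fun b hb => (mem_ZB_iff.1 hb).1 e (Γ.mem_O.1 e.2))
      fun b hb => (mem_BdB_iff.1 hb).1 e (Γ.mem_O.1 e.2)
  have hinj : Function.Injective Φ := by
    rw [injective_iff_map_eq_zero]
    intro q hq
    obtain ⟨b, hb, rfl⟩ := SQ.ind q
    refine (SQ.mk_eq_zero hb).2 (mem_BdB_iff.2 ⟨fun e he => ?_, (mem_ZB_iff.1 hb).2⟩)
    exact (SQ.mk_eq_zero ((mem_ZB_iff.1 hb).1 e he)).1 (congrFun hq ⟨e, Γ.mem_O.2 he⟩)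
  have hsur : Function.Surjective Φ := by
    intro q
    choose v hv hq using fun e => SQ.ind (q e)
    refine ⟨SQ.mk _ (fun e => if h : Γ.src e = s then v ⟨e, Γ.mem_O.2 h⟩ else 0)
      (mem_ZB_iff.2 ⟨fun e he => by rw [dif_pos he]; exact hv ⟨e, Γ.mem_O.2 he⟩, fun e he => dif_neg he⟩), funext fun e => ?_⟩
    rw [← hq e]
    refine (SQ.mk_eq _ _).2 ?_
    have he := Γ.mem_O.1 e.2
    change (if h : Γ.src e.1 = s then v ⟨e.1, Γ.mem_O.2 h⟩ else 0) + v e ∈ _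
    rw [dif_pos he, add_self']
    exact zero_mem _
  rw [(LinearEquiv.ofBijective Φ ⟨hinj, hsur⟩).finrank_eq, Module.finrank_pi_fintype]
  simp only [hd_eq]
  exact Finset.sum_coe_sort (Γ.O s) fun e => finrank K (SQ (X.Z (Γ.tgt e) n a) (X.Bd (Γ.tgt e) n a))

end DG

end Crest.Agent.R175.Mod
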