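import Crest.Agent.R175.Mod.C0

/-! # R175/Mod/C1 (helper9): surjections of top cohomology modules -/

set_option autoImplicit false
noncomputable section
open Classical Module

namespace Crest.Agent.R175.Mod

variable {I E : Type} [Fintype E] {Γ : Gr I E}

/-- `R` is the graph of a surjection of modules `H^m X → H^m Y` -/
structure SurP (m : ℤ) (X Y : PDG Γ) (R : I → ℤ → X.V → Y.V → Prop) : Prop where
  mem : ∀ {i a v w}, R i a v w → v ∈ X.Z i m a ∧ w ∈ Y.Z i m a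
  add : ∀ {i a v w v' w'}, R i a v w → R i a v' w' → R i a (v + v') (w + w')
  tot : ∀ {i a v}, v ∈ X.Z i m a → ∃ w, R i a v w
  ont : ∀ {i a w}, w ∈ Y.Z i m a → ∃ v, R i a v w
  bd : ∀ {i a v w}, R i a v w → v ∈ X.B i m a → w ∈ Y.B i m a
  zb : ∀ {i a w}, w ∈ Y.B i m a → R i a 0 w
  x : ∀ {e a v w}, R (Γ.src e) a v w → R (Γ.tgt e) (a + 1) (X.x e m a v) (Y.x e m a w)

/-- `H^m X` surjects onto `H^m Y` -/
def SurD (m : ℤ) (X Y : PDG Γ) : Prop := ∃ R, SurP m X Y R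

namespace SurP
variable {m : ℤ} {X Y W : PDG Γ} {R : I → ℤ → X.V → Y.V → Prop}

theorem zero (h : SurP m X Y R) (i : I) (a : ℤ) : R i a 0 0 := h.zb (zero_mem _)

theorem sat (h : SurP m X Y R) {i : I} {a : ℤ} {v v' : X.V} {w w' : Y.V} (hr : R i a v w)
    (hv : v' + v ∈ X.B i m a) (hw : w' + w ∈ Y.B i m a) : R i a v' w' := by
  obtain ⟨u, hu⟩ := h.tot (X.B_le_Z _ _ _ hv)
  have := h.add (h.add hu (h.zb (add_mem (h.bd hu hv) hw))) hr
  rwa [add_zero, add_add_self, add_assoc, add_self', add_zero, add_assoc, add_self', add_zero] at this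

theorem sum (h : SurP m X Y R) {i : I} {a : ℤ} (S : Finset E) {f : E → X.V} {g : E → Y.V}
    (hr : ∀ e ∈ S, R i a (f e) (g e)) : R i a (∑ e ∈ S, f e) (∑ e ∈ S, g e) := by
  induction S using Finset.induction_on with
  | empty => simpa using h.zero i a
  | insert e S he ih =>
    rw [Finset.sum_insert he, Finset.sum_insert he]
    exact h.add (hr e (by simp)) (ih fun e' he' => hr e' (by simp [he']))

theorem hd_le (h : SurP m X Y R) (i : I) (a : ℤ) : Y.hd i m a ≤ X.hd i m a := by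
  let P : Submodule K (X.V × Y.V) :=
    { carrier := {p | R i a p.1 p.2}
      add_mem' := fun h1 h2 => h.add h1 h2
      zero_mem' := h.zero i a
      smul_mem' := fun c p hp => by
        rcases (by decide : ∀ c : K, c = 0 ∨ c = 1) c with rfl | rfl
        · simpa using h.zero i a
        · simpa using hp }
  exact sq_le_of_rel (X.B_le_Z _ _ _) (Y.B_le_Z _ _ _) P (fun p hp => h.mem hp) (fun p hp => h.bd hp)
    fun w hw => h.ont hw

end SurP

theorem SurD.trans {m : ℤ} {X Y W : PDG Γ} (h1 : SurD m X Y) (h2 : SurD m Y W) : SurD m X W := by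
  obtain ⟨R, h⟩ := h1
  obtain ⟨R', h'⟩ := h2
  refine ⟨fun i a v u => ∃ w, R i a v w ∧ R' i a w u, ?_, ?_, ?_, ?_, ?_, ?_, ?_⟩
  · rintro i a v u ⟨w, h1, h2⟩
    exact ⟨(h.mem h1).1, (h'.mem h2).2⟩
  · rintro i a v u v' u' ⟨w, h1, h2⟩ ⟨w', h1', h2'⟩
    exact ⟨_, h.add h1 h1', h'.add h2 h2'⟩
  · intro i a v hv
    obtain ⟨w, hw⟩ := h.tot hv
    obtain ⟨u, hu⟩ := h'.tot (h.mem hw).2
    exact ⟨u, w, hw, hu⟩
  · intro i a u hu
    obtain ⟨w, hw⟩ := h'.ont hu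
    obtain ⟨v, hv⟩ := h.ont (h'.mem hw).1
    exact ⟨v, w, hv, hw⟩
  · rintro i a v u ⟨w, h1, h2⟩ hv
    exact h'.bd h2 (h.bd h1 hv)
  · exact fun hu => ⟨0, h.zero _ _, h'.zb hu⟩
  · rintro e a v u ⟨w, h1, h2⟩
    exact ⟨_, h.x h1, h'.x h2⟩

theorem add4 {V : Type*} [AddCommGroup V] (a b c d : V) : a + c + (b + d) = a + b + (c + d) := by abel

/-- a strict map that is onto on `H^m` -/
theorem surD_of_hom {m : ℤ} {X Y : PDG Γ} (φ : Hom X Y) (h : ∀ i a, SurAt φ.f i m a) : SurD m X Y := by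
  refine ⟨fun i a v w => v ∈ X.Z i m a ∧ w ∈ Y.Z i m a ∧ φ.f i m a v + w ∈ Y.B i m a, ?_, ?_, ?_, ?_, ?_, ?_, ?_⟩
  · exact fun h => ⟨h.1, h.2.1⟩
  · rintro i a v w v' w' ⟨h1, h2, h3⟩ ⟨h1', h2', h3'⟩
    refine ⟨add_mem h1 h1', add_mem h2 h2', ?_⟩
    rw [map_add, add4]
    exact add_mem h3 h3'
  · intro i a v hv
    exact ⟨_, hv, φ.map_Z hv, by rw [add_self']; exact zero_mem _⟩
  · intro i a w hw
    obtain ⟨v, hv, h'⟩ := h i a w hw
    exact ⟨v, hv, hw, h'⟩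
  · rintro i a v w ⟨-, -, h3⟩ hv
    have := add_mem (φ.map_B hv) h3
    rwa [add_add_self] at this
  · exact fun hw => ⟨zero_mem _, Y.B_le_Z _ _ _ hw, by rwa [map_zero, zero_add]⟩
  · rintro e a v w ⟨h1, h2, h3⟩
    refine ⟨X.x_Z h1, Y.x_Z h2, ?_⟩
    rw [φ.x h1.1, ← map_add]
    exact Y.x_B h3

/-- a strict map that is bijective on `H^m`, backwards -/
theorem surD_of_hom' {m : ℤ} {X Y : PDG Γ} (φ : Hom X Y) (h : ∀ i a, SurAt φ.f i m a) (h' : ∀ i a, InjAt φ.f i m a) :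
    SurD m Y X := by
  refine ⟨fun i a w v => v ∈ X.Z i m a ∧ w ∈ Y.Z i m a ∧ φ.f i m a v + w ∈ Y.B i m a, ?_, ?_, ?_, ?_, ?_, ?_, ?_⟩
  · exact fun h => ⟨h.2.1, h.1⟩
  · rintro i a v w v' w' ⟨h1, h2, h3⟩ ⟨h1', h2', h3'⟩
    refine ⟨add_mem h1 h1', add_mem h2 h2', ?_⟩
    rw [map_add, add4]
    exact add_mem h3 h3'
  · intro i a w hw
    obtain ⟨v, hv, h'⟩ := h i a w hw
    exact ⟨v, hv, hw, h'⟩
  · intro i a v hv
    exact ⟨_, hv, φ.map_Z hv, by rw [add_self']; exact zero_mem _⟩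
  · rintro i a w v ⟨h1, -, h3⟩ hw
    have := add_mem h3 hw
    rw [add_assoc, add_self', add_zero] at this
    exact h' i a v h1 this
  · exact fun hv => ⟨X.B_le_Z _ _ _ hv, zero_mem _, by rw [add_zero]; exact φ.map_B hv⟩
  · rintro e a w v ⟨h1, h2, h3⟩
    refine ⟨X.x_Z h1, Y.x_Z h2, ?_⟩
    rw [φ.x h1.1, ← map_add]
    exact Y.x_B h3

theorem SurD.refl (m : ℤ) (X : PDG Γ) : SurD m X X :=
  surD_of_hom (Hom.id X) fun _ _ w hw => ⟨w, hw, by
    change w + w ∈ _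
    rw [add_self']; exact zero_mem _⟩

theorem surD_of_cl_eq (m : ℤ) {X Y : PDG Γ} (h : X.cl = Y.cl) : SurD m X Y :=
  (rel_of_cl_eq (R := fun X Y => SurD m X Y ∧ SurD m Y X) (fun X => ⟨.refl m X, .refl m X⟩)
    (fun _ _ h => h.symm) (fun _ _ _ h1 h2 => ⟨h1.1.trans h2.1, h2.2.trans h1.2⟩)
    (fun _ _ φ hφ => ⟨surD_of_hom φ fun i a => (hφ i a m).2,
      surD_of_hom' φ (fun i a => (hφ i a m).2) fun i a => (hφ i a m).1⟩) h).1

/-- `H^m x` surjects onto `H^m y` -/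
def SurO (m : ℤ) (x y : Obj Γ) : Prop := ∀ X Y : PDG Γ, X.cl = x → Y.cl = y → SurD m X Y

theorem surO_cl {m : ℤ} {X Y : PDG Γ} : SurO m X.cl Y.cl ↔ SurD m X Y :=
  ⟨fun h => h X Y rfl rfl, fun h _ _ h1 h2 => ((surD_of_cl_eq m h1).trans h).trans (surD_of_cl_eq m h2.symm)⟩

/-! ### the top degree at a vertex -/

namespace DG
variable {X Y : DG Γ}

variable (X) in
/-- nothing above degree `m` at `s` and its neighbours -/
def LeD (s : I) (m : ℤ) : Prop := ∀ n, m < n → ∀ a, X.Hz s n a ∧ X.HzB s n a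

variable (X) in
/-- `inn` is onto on `H^m` -/
def Onto (s : I) (m : ℤ) : Prop := ∀ a, ∀ v ∈ X.Z s m (a + 1), ∃ b ∈ X.ZB s m a, X.inn s b + v ∈ X.Bd s m (a + 1)

theorem leD_T_iff (s : Γ.J) {m : ℤ} (h : X.LeD s m) : (X.T s).LeD s m ↔ X.Onto s m := by
  constructor
  · intro hT a v hv
    obtain ⟨b, hb, v', hv', h1, h2⟩ := (X.hz_T_iff s).1 (hT (m + 1) (by omega) (a - 1)).1 0 (zero_mem _) v
      (X.cast hv.1) (map_zero _) (by rw [map_zero, zero_add]; exact hv.2)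
    refine ⟨b, ⟨X.castB hb, h1⟩, v', X.cast hv', ?_⟩
    change X.d s v' = _
    rw [← h2, add_add_self]
  · intro hO n hn a
    refine ⟨?_, fun e he => (X.hz_T_ne s (Γ.tgt_ne' he) _ _).2 ((h n hn a).2 e he)⟩
    rcases (by omega : n = m + 1 ∨ m < n - 1) with rfl | hn'
    · rw [hz_T_iff]
      intro b hb v hv h1 h2
      obtain ⟨b', hb', rfl⟩ := (h _ hn _).2.ex hb h1
      obtain ⟨c, hc, w, hw, h3⟩ := hO (a + 1) (X.inn s b' + v)
        ⟨add_mem (X.cast (X.inn_mem hb')) (X.cast hv), by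
          change X.d s _ = 0
          rw [map_add, d_inn]; exact h2⟩
      refine ⟨b' + c, add_mem hb' (X.castB hc.1), w, X.cast hw, ?_, ?_⟩
      · rw [map_add, show X.dB c = 0 from hc.2, add_zero]
      · rw [show X.d s w = _ from h3, map_add, add_comm (X.inn s b'), ← add_assoc, ← add_assoc,
          add_assoc (X.inn s c), add_comm (X.inn s b'), add_add_self, add_self', zero_add]
    · exact X.hz_T_self s (h n hn _).2 (h _ hn' _).1

/-- componentwise relation on the neighbours -/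
def RB (R : I → ℤ → X.V → Y.V → Prop) (s : I) (a : ℤ) (b : E → X.V) (c : E → Y.V) : Prop :=
  (∀ e, Γ.src e = s → R (Γ.tgt e) a (b e) (c e)) ∧ ∀ e, Γ.src e ≠ s → b e = 0 ∧ c e = 0

section
variable {m : ℤ} {R : I → ℤ → X.V → Y.V → Prop} (h : SurP m X.p Y.p R) {s : I} {a : ℤ}
include h

theorem x_R {e : E} {i j : I} (hi : Γ.src e = i) (hj : Γ.tgt e = j) {v : X.V} {w : Y.V} (hr : R i a v w) :
    R j (a + 1) (X.x e v) (Y.x e w) := by
  subst hi hj
  exact h.x hr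

theorem RB.mem {b : E → X.V} {c : E → Y.V} (hr : RB R s a b c) : b ∈ X.ZB s m a ∧ c ∈ Y.ZB s m a :=
  ⟨mem_ZB_iff.2 ⟨fun e he => (h.mem (hr.1 e he)).1, fun e he => (hr.2 e he).1⟩,
    mem_ZB_iff.2 ⟨fun e he => (h.mem (hr.1 e he)).2, fun e he => (hr.2 e he).2⟩⟩

theorem RB.add {b b' : E → X.V} {c c' : E → Y.V} (hr : RB R s a b c) (hr' : RB R s a b' c') :
    RB R s a (b + b') (c + c') :=
  ⟨fun e he => h.add (hr.1 e he) (hr'.1 e he), fun e he => by simp [hr.2 e he, hr'.2 e he]⟩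

theorem RB.zero : RB R s a 0 0 := ⟨fun _ _ => h.zero _ _, fun _ _ => ⟨rfl, rfl⟩⟩

theorem RB.tot {b : E → X.V} (hb : b ∈ X.ZB s m a) : ∃ c, RB R s a b c := by
  have hb' := mem_ZB_iff.1 hb
  choose c hc using fun e (he : Γ.src e = s) => h.tot (hb'.1 e he)
  exact ⟨fun e => if he : Γ.src e = s then c e he else 0, fun e he => by simpa [he] using hc e he,
    fun e he => ⟨hb'.2 e he, dif_neg he⟩⟩

theorem RB.ont {c : E → Y.V} (hc : c ∈ Y.ZB s m a) : ∃ b, RB R s a b c := by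
  have hc' := mem_ZB_iff.1 hc
  choose b hb using fun e (he : Γ.src e = s) => h.ont (hc'.1 e he)
  exact ⟨fun e => if he : Γ.src e = s then b e he else 0, fun e he => by simpa [he] using hb e he,
    fun e he => ⟨dif_neg he, hc'.2 e he⟩⟩

theorem RB.bd {b : E → X.V} {c : E → Y.V} (hr : RB R s a b c) (hb : b ∈ X.BdB s m a) : c ∈ Y.BdB s m a :=
  mem_BdB_iff.2 ⟨fun e he => h.bd (hr.1 e he) ((mem_BdB_iff.1 hb).1 e he), fun e he => (hr.2 e he).2⟩

theorem RB.inn {b : E → X.V} {c : E → Y.V} (hr : RB R s a b c) : R s (a + 1) (X.inn s b) (Y.inn s c) := by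
  rw [inn_apply, inn_apply]
  exact h.sum _ fun e he => x_R h rfl (by simpa using he) (hr.1 e (by simpa using he))

theorem RB.out {v : X.V} {w : Y.V} (hr : R s a v w) : RB R s (a + 1) (X.out s v) (Y.out s w) :=
  ⟨fun e he => by rw [X.out_apply_of he, Y.out_apply_of he]; exact x_R h he rfl hr,
    fun e he => by simp [out_apply, he]⟩

theorem RB.single {e : E} (he : Γ.src e = s) {v : X.V} {w : Y.V} (hr : R (Γ.tgt e) a v w) :
    RB R s a (Pi.single e v) (Pi.single e w) := by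
  refine ⟨fun e' _ => ?_, fun e' he' => ?_⟩
  · by_cases h' : e' = e
    · subst h'
      simpa using hr
    · simpa [h'] using h.zero _ _
  · have : e' ≠ e := by rintro rfl; exact he' he
    simp [this]

theorem onto_of_sur (hO : X.Onto s m) : Y.Onto s m := by
  intro a w hw
  obtain ⟨v, hv⟩ := h.ont hw
  obtain ⟨b, hb, h1⟩ := hO a v (h.mem hv).1
  obtain ⟨c, hc⟩ := RB.tot h hb
  exact ⟨c, (hc.mem h).2, h.bd (h.add (hc.inn h) hv) h1⟩

end

theorem onto_T_ne (s : Γ.J) {j : I} (hj : j ≠ s) {m : ℤ} (hO : X.Onto j m) : (X.T s).Onto j m := by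
  intro a p hp
  obtain ⟨v, hv, h1⟩ := (X.qiat_η_ne s hj (a + 1) m).2 p hp
  obtain ⟨b, hb, h2⟩ := hO a v hv
  refine ⟨(X.η s).fB m a b, ⟨(X.η s).fB_mem hb.1, ?_⟩, ?_⟩
  · have := (X.η s).fB_dB hb.1
    rw [show X.dB b = 0 from hb.2, map_zero] at this
    exact this.symm
  · have := add_mem ((X.η s).map_B h2) h1
    rw [map_add, add_assoc, add_add_self, (X.η s).f_inn hb.1 rfl] at this
    exact this

theorem surD_fold (s : Γ.J) {m : ℤ} (hO : X.Onto s m) : SurD m (X.S s).p X.p := by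
  refine surD_of_hom (X.ε s) fun i a => ?_
  by_cases hi : i = s
  · subst hi
    intro v hv
    obtain ⟨b, hb, h1⟩ := hO (a - 1) v (castZ hv)
    refine ⟨(b, 0), ⟨(X.mem_S_self s).2 ⟨hb.1, zero_mem _⟩, ?_⟩, ?_⟩
    · refine (X.S_d_self s _).trans ?_
      simp [show X.dB b = 0 from hb.2]
    · rw [ε_self]
      simpa using castBd h1
  · exact (X.qiat_ε_ne s hi a m).2

end DG

end Crest.Agent.R175.Mod
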