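import Crest.Agent.R175.Mod.C1

/-! # R175/Mod/C2 (helper9): the down-move on the top cohomology, dimension counts, `exact` -/

set_option autoImplicit false
noncomputable section
open Classical Module

namespace Crest.Agent.R175.Mod

variable {I E : Type} [Fintype E] {Γ : Gr I E}

namespace DG
variable {X Y : DG Γ}

theorem inl_Z (s : Γ.J) {n a a' : ℤ} {b : E → X.V} (hb : b ∈ X.ZB s n a) (ha : a' = a + 1 := by omega) :
    (b, 0) ∈ (X.S s).Z s n a' :=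
  ⟨(X.mem_S_self s).2 ⟨X.castB hb.1, zero_mem _⟩, (X.S_d_self s _).trans (by simp [show X.dB b = 0 from hb.2])⟩

theorem inl_Bd_iff (s : Γ.J) {n a a' : ℤ} {b : E → X.V} (ha : a' = a + 2 := by omega) :
    (b, 0) ∈ (X.S s).Bd s n a' ↔ ∃ v ∈ X.Z s n a, b + X.out s v ∈ X.BdB s n (a + 1) := by
  constructor
  · rintro ⟨p, hp, h⟩
    have h' := (X.S_d_self s p).symm.trans h
    obtain ⟨h1, h2⟩ := (X.mem_S_self s).1 hp
    refine ⟨p.2, ⟨X.cast h2, congrArg Prod.snd h'⟩, p.1, X.castB h1, ?_⟩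
    rw [← show X.dB p.1 + X.out s p.2 = b from congrArg Prod.fst h', add_assoc, add_self', add_zero]
  · rintro ⟨v, hv, c, hc, h⟩
    refine ⟨(c, v), (X.mem_S_self s).2 ⟨X.castB hc, X.cast hv.1⟩, (X.S_d_self s _).trans (Prod.ext ?_ hv.2)⟩
    change X.dB c + X.out s v = b
    rw [h, add_assoc, add_self', add_zero]

theorem inl_Bd (s : Γ.J) {n a a' : ℤ} {b : E → X.V} (hb : b ∈ X.BdB s n a) (ha : a' = a + 1 := by omega) :
    (b, 0) ∈ (X.S s).Bd s n a' :=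
  (inl_Bd_iff s (a := a - 1)).2 ⟨0, zero_mem _, by rw [map_zero, add_zero]; exact castBdB hb⟩

theorem exists_inl (s : Γ.J) {n a a' : ℤ} (hV : X.Hz s (n + 1) (a - 1)) {p : (E → X.V) × X.V}
    (hp : p ∈ (X.S s).Z s n a') (ha : a' = a + 1 := by omega) :
    ∃ b ∈ X.ZB s n a, p + (b, 0) ∈ (X.S s).Bd s n a' := by
  have h' := (X.S_d_self s p).symm.trans hp.2
  obtain ⟨h1, h2⟩ := (X.mem_S_self s).1 hp.1
  obtain ⟨v, hv, hd⟩ := hV p.2 (X.cast h2) (congrArg Prod.snd h')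
  refine ⟨p.1 + X.out s v, ⟨add_mem (X.castB h1) (X.castB (X.out_mem hv)), ?_⟩, (0, v),
    (X.mem_S_self s).2 ⟨zero_mem _, X.cast hv⟩, (X.S_d_self s _).trans (Prod.ext ?_ ?_)⟩
  · change X.dB _ = 0
    rw [map_add, dB_out, hd]
    exact congrArg Prod.fst h'
  · change X.dB 0 + X.out s v = p.1 + (p.1 + X.out s v)
    rw [map_zero, zero_add, add_add_self]
  · change X.d s v = p.2 + 0
    rw [hd, add_zero]

theorem S_Z_ne (s : Γ.J) {j : I} (hj : j ≠ s) {n a : ℤ} {p : (E → X.V) × X.V} :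
    p ∈ (X.S s).Z j n a ↔ p.1 = 0 ∧ p.2 ∈ X.Z j n a := by
  constructor
  · intro h
    have := (X.S_mem_ne s hj).1 h.1
    exact ⟨this.1, this.2, congrArg Prod.snd ((X.Sd_ne hj p).symm.trans h.2)⟩
  · rintro ⟨h1, h2⟩
    exact ⟨(X.S_mem_ne s hj).2 ⟨h1, h2.1⟩, (X.Sd_ne hj p).trans (Prod.ext rfl h2.2)⟩

theorem S_Bd_ne (s : Γ.J) {j : I} (hj : j ≠ s) {n a : ℤ} {p : (E → X.V) × X.V} :
    p ∈ (X.S s).Bd j n a ↔ p.1 = 0 ∧ p.2 ∈ X.Bd j n a := by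
  constructor
  · rintro ⟨q, hq, h⟩
    have h' := (X.Sd_ne hj q).symm.trans h
    exact ⟨(congrArg Prod.fst h').symm, q.2, ((X.S_mem_ne s hj).1 hq).2, congrArg Prod.snd h'⟩
  · rintro ⟨h1, v, hv, h2⟩
    exact ⟨(0, v), (X.S_mem_ne s hj).2 ⟨rfl, hv⟩, (X.Sd_ne hj _).trans (Prod.ext h1.symm h2)⟩

theorem T_Z_ne (s : Γ.J) {j : I} (hj : j ≠ s) {n a : ℤ} {p : (E → X.V) × X.V} :
    p ∈ (X.T s).Z j n a ↔ p.1 = 0 ∧ p.2 ∈ X.Z j n a := by
  constructor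
  · intro h
    have := (X.T_mem_ne s hj).1 h.1
    exact ⟨this.1, this.2, congrArg Prod.snd ((X.Td_ne hj p).symm.trans h.2)⟩
  · rintro ⟨h1, h2⟩
    exact ⟨(X.T_mem_ne s hj).2 ⟨h1, h2.1⟩, (X.Td_ne hj p).trans (Prod.ext rfl h2.2)⟩

theorem T_Bd_ne (s : Γ.J) {j : I} (hj : j ≠ s) {n a : ℤ} {p : (E → X.V) × X.V} :
    p ∈ (X.T s).Bd j n a ↔ p.1 = 0 ∧ p.2 ∈ X.Bd j n a := by
  constructor
  · rintro ⟨q, hq, h⟩
    have h' := (X.Td_ne hj q).symm.trans h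
    exact ⟨(congrArg Prod.fst h').symm, q.2, ((X.T_mem_ne s hj).1 hq).2, congrArg Prod.snd h'⟩
  · rintro ⟨h1, v, hv, h2⟩
    exact ⟨(0, v), (X.T_mem_ne s hj).2 ⟨rfl, hv⟩, (X.Td_ne hj _).trans (Prod.ext h1.symm h2)⟩

theorem ev_add_inn (s : Γ.J) {n a : ℤ} {p : (E → X.V) × X.V} {b : E → X.V}
    (h : p + (b, 0) ∈ (X.S s).Bd s n a) : X.ev s p + X.inn s b ∈ X.Bd s n a := by
  have := (X.ε s).map_B h
  rw [ε_self] at this
  simpa [ev_apply, add_right_comm] using this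

theorem surD_S (s : Γ.J) {m : ℤ} (hX : X.LeD s m) (hY : Y.LeD s m) (h : SurD m X.p Y.p) :
    SurD m (X.S s).p (Y.S s).p := by
  obtain ⟨R, h⟩ := h
  let R' : I → ℤ → (E → X.V) × X.V → (E → Y.V) × Y.V → Prop := fun i a p q =>
    if i = s then p ∈ (X.S s).Z s m a ∧ q ∈ (Y.S s).Z s m a ∧ ∃ b c, RB R s (a - 1) b c ∧
      p + (b, 0) ∈ (X.S s).Bd s m a ∧ q + (c, 0) ∈ (Y.S s).Bd s m a
    else p.1 = 0 ∧ q.1 = 0 ∧ R i a p.2 q.2
  have e1 : ∀ a p q, R' s a p q ↔ p ∈ (X.S s).Z s m a ∧ q ∈ (Y.S s).Z s m a ∧ ∃ b c, RB R s (a - 1) b c ∧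
      p + (b, 0) ∈ (X.S s).Bd s m a ∧ q + (c, 0) ∈ (Y.S s).Bd s m a := fun a p q => by simp only [R', if_pos]
  have e2 : ∀ {i : I}, i ≠ s → ∀ a p q, R' i a p q ↔ p.1 = 0 ∧ q.1 = 0 ∧ R i a p.2 q.2 := fun hi a p q => by
    simp only [R', if_neg hi]
  have key : ∀ {a b c}, RB R s (a - 1) b c → R' s a (b, 0) (c, 0) := fun hr =>
    (e1 _ _ _).2 ⟨inl_Z s (hr.mem h).1, inl_Z s (hr.mem h).2, _, _, hr, by rw [add_self']; exact zero_mem _,
      by rw [add_self']; exact zero_mem _⟩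
  refine ⟨R', ?_, ?_, ?_, ?_, ?_, ?_, ?_⟩
  · intro i a p q hr
    by_cases hi : i = s
    · subst hi
      exact ⟨((e1 _ _ _).1 hr).1, ((e1 _ _ _).1 hr).2.1⟩
    · obtain ⟨h1, h2, h3⟩ := (e2 hi _ _ _).1 hr
      exact ⟨(S_Z_ne s hi).2 ⟨h1, (h.mem h3).1⟩, (S_Z_ne s hi).2 ⟨h2, (h.mem h3).2⟩⟩
  · intro i a p q p' q' hr hr'
    by_cases hi : i = s
    · subst hi
      obtain ⟨h1, h2, b, c, h3, h4, h5⟩ := (e1 _ _ _).1 hr
      obtain ⟨h1', h2', b', c', h3', h4', h5'⟩ := (e1 _ _ _).1 hr'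
      refine (e1 _ _ _).2 ⟨add_mem h1 h1', add_mem h2 h2', _, _, h3.add h h3', ?_, ?_⟩
      · have := add_mem h4 h4'
        rwa [← add4, Prod.mk_add_mk b b', add_zero] at this
      · have := add_mem h5 h5'
        rwa [← add4, Prod.mk_add_mk c c', add_zero] at this
    · obtain ⟨h1, h2, h3⟩ := (e2 hi _ _ _).1 hr
      obtain ⟨h1', h2', h3'⟩ := (e2 hi _ _ _).1 hr'
      exact (e2 hi _ _ _).2 ⟨by simp [h1, h1'], by simp [h2, h2'], h.add h3 h3'⟩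
  · intro i a p hp
    by_cases hi : i = s
    · subst hi
      obtain ⟨b, hb, h1⟩ := exists_inl s (a := a - 1) (hX _ (by omega) _).1 hp
      obtain ⟨c, hc⟩ := RB.tot h hb
      exact ⟨(c, 0), (e1 _ _ _).2 ⟨hp, inl_Z s (hc.mem h).2, b, c, hc, h1, by rw [add_self']; exact zero_mem _⟩⟩
    · obtain ⟨h1, h2⟩ := (S_Z_ne s hi).1 hp
      obtain ⟨w, hw⟩ := h.tot h2
      exact ⟨(0, w), (e2 hi _ _ _).2 ⟨h1, rfl, hw⟩⟩
  · intro i a q hq
    by_cases hi : i = s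
    · subst hi
      obtain ⟨c, hc, h1⟩ := exists_inl s (a := a - 1) (hY _ (by omega) _).1 hq
      obtain ⟨b, hb⟩ := RB.ont h hc
      exact ⟨(b, 0), (e1 _ _ _).2 ⟨inl_Z s (hb.mem h).1, hq, b, c, hb, by rw [add_self']; exact zero_mem _, h1⟩⟩
    · obtain ⟨h1, h2⟩ := (S_Z_ne s hi).1 hq
      obtain ⟨v, hv⟩ := h.ont h2
      exact ⟨(0, v), (e2 hi _ _ _).2 ⟨rfl, h1, hv⟩⟩
  · intro i a p q hr hp
    by_cases hi : i = s
    · subst hi
      obtain ⟨-, -, b, c, h3, h4, h5⟩ := (e1 _ _ _).1 hr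
      have h6 := add_mem hp h4
      rw [add_add_self] at h6
      obtain ⟨v, hv, h7⟩ := (inl_Bd_iff s (a := a - 2)).1 h6
      obtain ⟨w, hw⟩ := h.tot hv
      have h8 : RB R s (a - 2 + 1) b c := by rwa [show a - 2 + 1 = a - 1 by omega]
      have h9 := (inl_Bd_iff s (a := a - 2) (a' := a)).2 ⟨w, (h.mem hw).2, (h8.add h (RB.out h hw)).bd h h7⟩
      have := add_mem h5 h9
      rwa [add_assoc, add_self', add_zero] at this
    · obtain ⟨h1, h2, h3⟩ := (e2 hi _ _ _).1 hr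
      exact (S_Bd_ne s hi).2 ⟨h2, h.bd h3 ((S_Bd_ne s hi).1 hp).2⟩
  · intro i a q hq
    by_cases hi : i = s
    · subst hi
      exact (e1 _ _ _).2 ⟨zero_mem _, Bd_le_Z hq, 0, 0, RB.zero h,
        by rw [Prod.mk_zero_zero, add_zero]; exact zero_mem _, by rw [Prod.mk_zero_zero, add_zero]; exact hq⟩
    · obtain ⟨h1, h2⟩ := (S_Bd_ne s hi).1 hq
      exact (e2 hi _ _ _).2 ⟨rfl, h1, h.zb h2⟩
  · intro e a p q hr
    change R' _ _ (X.Sx s e p) (Y.Sx s e q)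
    by_cases h1 : Γ.src e = s
    · rw [h1] at hr
      obtain ⟨-, -, b, c, h3, h4, h5⟩ := (e1 _ _ _).1 hr
      rw [X.Sx_src h1, Y.Sx_src h1]
      refine (e2 (Γ.tgt_ne' h1) _ _ _).2 ⟨rfl, rfl, ?_⟩
      have h6 : R s a (X.inn s b) (Y.inn s c) := by simpa using h3.inn h
      refine h.sat (x_R h h1 rfl h6) ?_ ?_
      · rw [← map_add]; exact x_Bd h1 rfl (ev_add_inn s h4)
      · rw [← map_add]; exact x_Bd h1 rfl (ev_add_inn s h5)
    · obtain ⟨-, -, h3⟩ := (e2 h1 _ _ _).1 hr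
      by_cases h2 : Γ.tgt e = s
      · rw [X.Sx_tgt h2, Y.Sx_tgt h2, h2]
        exact key (RB.single h (e := Γ.bar e) h2 (by simpa using h3))
      · rw [X.Sx_ne h1 h2, Y.Sx_ne h1 h2]
        exact (e2 h2 _ _ _).2 ⟨rfl, rfl, h.x h3⟩

theorem surD_T (s : Γ.J) {m : ℤ} (hinj : ∀ a, ∀ v ∈ X.Z s m a, X.out s v ∈ X.BdB s m (a + 1) → v ∈ X.Bd s m a)
    (hex : ∀ a, ∀ b ∈ X.ZB s m (a + 1), X.inn s b ∈ X.Bd s m (a + 1 + 1) →
      ∃ v ∈ X.Z s m a, b + X.out s v ∈ X.BdB s m (a + 1)) : SurD m (X.T s).p X.p := by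
  let R' : I → ℤ → (E → X.V) × X.V → X.V → Prop := fun i a p v => p ∈ (X.T s).Z i m a ∧ v ∈ X.Z i m a ∧
    if i = s then p.1 + X.out s v ∈ X.BdB s m (a + 1) else p.2 + v ∈ X.Bd i m a
  refine ⟨R', fun h => ⟨h.1, h.2.1⟩, ?_, ?_, ?_, ?_, ?_, ?_⟩
  · rintro i a p v p' v' ⟨h1, h2, h3⟩ ⟨h1', h2', h3'⟩
    refine ⟨add_mem h1 h1', add_mem h2 h2', ?_⟩
    split_ifs at h3 h3' ⊢
    · rw [map_add, Prod.fst_add, add4]; exact add_mem h3 h3'
    · rw [Prod.snd_add, add4]; exact add_mem h3 h3'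
  · intro i a p hp
    by_cases hi : i = s
    · subst hi
      have h' := (X.T_d_self s p).symm.trans hp.2
      obtain ⟨h1, h2⟩ := (X.mem_T_self s).1 hp.1
      obtain ⟨v, hv, h3⟩ := hex a p.1 ⟨h1, congrArg Prod.fst h'⟩ ⟨p.2, X.cast h2,
        (eq_iff_add.2 (show X.inn s p.1 + X.d s p.2 = 0 from congrArg Prod.snd h')).symm⟩
      exact ⟨v, hp, hv, by rwa [if_pos rfl]⟩
    · exact ⟨p.2, hp, ((T_Z_ne s hi).1 hp).2, by rw [if_neg hi, add_self']; exact zero_mem _⟩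
  · intro i a v hv
    refine ⟨_, (X.η s).map_Z hv, hv, ?_⟩
    by_cases hi : i = s
    · subst hi
      rw [if_pos rfl, η_self, add_self']; exact zero_mem _
    · rw [if_neg hi, X.η_ne s hi, add_self']; exact zero_mem _
  · rintro i a p v ⟨-, h2, h3⟩ hp
    by_cases hi : i = s
    · subst hi
      rw [if_pos rfl] at h3
      obtain ⟨q, hq, h4⟩ := hp
      have h5 : p.1 ∈ X.BdB s m (a + 1) :=
        ⟨q.1, ((X.mem_T_self s).1 hq).1, congrArg Prod.fst ((X.T_d_self s q).symm.trans h4)⟩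
      have := add_mem h5 h3
      rw [add_add_self] at this
      exact hinj a v h2 this
    · rw [if_neg hi] at h3
      have := add_mem ((T_Bd_ne s hi).1 hp).2 h3
      rwa [add_add_self] at this
  · intro i a v hv
    refine ⟨zero_mem _, Bd_le_Z hv, ?_⟩
    by_cases hi : i = s
    · subst hi
      rw [if_pos rfl, Prod.fst_zero, zero_add]; exact out_BdB hv
    · rw [if_neg hi, Prod.snd_zero, zero_add]; exact hv
  · rintro e a p v ⟨h1, h2, h3⟩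
    refine ⟨(X.T s).p.x_Z h1, X.p.x_Z h2, ?_⟩
    change if _ then (X.Tx s e p).1 + X.out s (X.x e v) ∈ _ else (X.Tx s e p).2 + X.x e v ∈ _
    by_cases hs : Γ.src e = s
    · rw [if_pos hs] at h3
      rw [if_neg (Γ.tgt_ne' hs), X.Tx_src hs, ← X.out_apply_of hs]
      exact (mem_BdB_iff.1 h3).1 e hs
    · rw [if_neg hs] at h3
      by_cases ht : Γ.tgt e = s
      · rw [if_pos ht, X.Tx_tgt ht, ← map_add, ← map_add]
        exact out_BdB (x_Bd rfl ht h3)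
      · rw [if_neg ht, X.Tx_ne hs ht, ← map_add]
        exact x_Bd rfl rfl h3

end DG

end Crest.Agent.R175.Mod
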