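import Crest.Agent.R175.Mod.C2

/-! # R175/Mod/C3 (helper9): dimension counts in the top degree -/

set_option autoImplicit false
noncomputable section
open Classical Module

namespace Crest.Agent.R175.Mod

variable {I E : Type} [Fintype E] {Γ : Gr I E}

theorem eq_of_finsum_le {f g : ℤ → ℕ} (hf : (Function.support f).Finite) (hg : (Function.support g).Finite)
    (h : ∀ a, f a ≤ g a) (h' : ∑ᶠ a, g a ≤ ∑ᶠ a, f a) (a : ℤ) : f a = g a := by
  have hd : (Function.support fun a => g a - f a).Finite := hg.subset fun a ha h0 => ha (by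
    simp only at h0 ⊢
    omega)
  have h1 : ∑ᶠ a, g a = ∑ᶠ a, f a + ∑ᶠ a, (g a - f a) := by
    rw [← finsum_add_distrib hf hd]
    exact finsum_congr fun a => by have := h a; omega
  have h2 := single_le_finsum (f := fun a => g a - f a) a hd fun _ => Nat.zero_le _
  have := h a
  omega

theorem finsum_shift (f : ℤ → ℕ) (c : ℤ) : ∑ᶠ a, f (a + c) = ∑ᶠ a, f a :=
  finsum_comp_equiv (Equiv.addRight c)

theorem fin_shift {f : ℤ → ℕ} (hf : (Function.support f).Finite) (c : ℤ) :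
    (Function.support fun a => f (a + c)).Finite :=
  hf.preimage (f := fun a => a + c) (add_left_injective c).injOn

namespace DG
variable (X : DG Γ) (s : Γ.J) (m : ℤ)

/-- `H^{m,a}(V_s)` -/
abbrev HV (a : ℤ) := SQ (X.Z s m a) (X.Bd s m a)
/-- `H^{m,a}(B_s)` -/
abbrev HB (a : ℤ) := SQ (X.ZB s m a) (X.BdB s m a)

/-- `out` on cohomology -/
def Hout (a : ℤ) : X.HV s m a →ₗ[K] X.HB s m (a + 1) := SQ.map (X.out s) (fun _ => out_ZB) fun _ => out_BdB
/-- `inn` on cohomology -/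
def Hinn (a : ℤ) : X.HB s m a →ₗ[K] X.HV s m (a + 1) := SQ.map (X.inn s) (fun _ => inn_Z) fun _ => inn_Bd
/-- `H(B) → H(S X)` -/
def Hinl (a : ℤ) : X.HB s m a →ₗ[K] (X.S s).HV s m (a + 1) :=
  SQ.map (LinearMap.inl K _ _) (fun _ hb => inl_Z s hb) fun _ hb => inl_Bd s hb

theorem ker_Hinl (a : ℤ) : LinearMap.ker (X.Hinl s m (a + 1)) = LinearMap.range (X.Hout s m a) := by
  ext q
  obtain ⟨b, hb, rfl⟩ := SQ.ind q
  rw [LinearMap.mem_ker, Hinl, SQ.map_mk, SQ.mk_eq_zero]
  refine (inl_Bd_iff s (a := a)).trans ⟨?_, ?_⟩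
  · rintro ⟨v, hv, h⟩
    exact ⟨SQ.mk _ v hv, ((SQ.mk_eq hb (out_ZB hv)).2 h).symm⟩
  · rintro ⟨q, hq⟩
    obtain ⟨v, hv, rfl⟩ := SQ.ind q
    exact ⟨v, hv, (SQ.mk_eq hb (out_ZB hv)).1 hq.symm⟩

theorem range_le_ker (a : ℤ) : LinearMap.range (X.Hout s m a) ≤ LinearMap.ker (X.Hinn s m (a + 1)) := by
  rintro _ ⟨q, rfl⟩
  obtain ⟨v, hv, rfl⟩ := SQ.ind q
  exact (SQ.mk_eq_zero (inn_Z (out_ZB hv))).2 (castBd (inn_out_Bd s.2 hv))

theorem hB_fin : (Function.support fun a => finrank K (X.HB s m a)).Finite := by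
  simp only [finrank_HB]
  refine ((Γ.O s).finite_toSet.biUnion fun e _ => X.p.cl.hd_fin (Γ.tgt e) m).subset fun a ha => ?_
  obtain ⟨e, he, h⟩ := Finset.exists_ne_zero_of_sum_ne_zero ha
  exact Set.mem_biUnion he h

theorem hV_fin : (Function.support fun a => finrank K (X.HV s m a)).Finite := by
  simp only [← hd_eq]
  exact X.p.cl.hd_fin s m

theorem sum_hB : ∑ᶠ a, finrank K (X.HB s m a) = ∑ e ∈ Γ.O s, X.p.cl.h m (Γ.tgt e) := by
  simp only [finrank_HB]
  exact finsum_sum_comm _ _ fun e _ => X.p.cl.hd_fin (Γ.tgt e) m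

theorem sum_hV : ∑ᶠ a, finrank K (X.HV s m a) = X.p.cl.h m s := by
  simp only [← hd_eq]
  rfl

theorem down_ineq : ∑ e ∈ Γ.O s, X.p.cl.h m (Γ.tgt e) ≤ X.p.cl.h m s + (X.S s).p.cl.h m s := by
  rw [← sum_hB, ← sum_hV, ← sum_hV, ← finsum_shift _ 1, ← finsum_shift (fun a => finrank K ((X.S s).HV s m a)) (1 + 1),
    ← finsum_add_distrib (X.hV_fin s m) (fin_shift ((X.S s).hV_fin s m) _)]
  refine finsum_le_finsum' (fin_shift (X.hB_fin s m) _)
    (((X.hV_fin s m).union (fin_shift ((X.S s).hV_fin s m) (1 + 1))).subset (Function.support_add _ _)) fun a => ?_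
  have h1 := (X.Hinl s m (a + 1)).finrank_range_add_finrank_ker
  have h2 := (LinearMap.range (X.Hinl s m (a + 1))).finrank_le
  have h3 := (X.Hout s m a).finrank_range_le
  rw [ker_Hinl] at h1
  change finrank K (X.HB s m (a + 1)) ≤ finrank K (X.HV s m a) + finrank K ((X.S s).HV s m (a + (1 + 1)))
  rw [← add_assoc]
  omega

variable {X s m}

theorem surD_exact (hX : X.LeD s m) (hO : X.Onto s m) (h1 : (X.S s).p.cl.h m s = X.p.cl.h m s)
    (h2 : 2 * X.p.cl.h m s = ∑ e ∈ Γ.O s, X.p.cl.h m (Γ.tgt e)) : SurD m (X.T s).p X.p := by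
  rw [← sum_hB, ← sum_hV] at h2
  rw [← sum_hV, ← sum_hV] at h1
  have hr : ∀ a, finrank K (LinearMap.range (X.Hout s m a)) ≤ finrank K (X.HV s m a) := fun a =>
    (X.Hout s m a).finrank_range_le
  have hrf : (Function.support fun a => finrank K (LinearMap.range (X.Hout s m a))).Finite :=
    (X.hV_fin s m).subset fun a ha h0 => ha (by have := hr a; simp only at h0 ⊢; omega)
  have hkf : (Function.support fun a => finrank K (LinearMap.ker (X.Hinn s m a))).Finite :=
    (X.hB_fin s m).subset fun a ha h0 => ha (by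
      have := (LinearMap.ker (X.Hinn s m a)).finrank_le
      simp only at h0 ⊢; omega)
  have e1 : ∀ a, finrank K (X.HB s m (a + 1)) =
      finrank K ((X.S s).HV s m (a + (1 + 1))) + finrank K (LinearMap.range (X.Hout s m a)) := fun a => by
    have h := (X.Hinl s m (a + 1)).finrank_range_add_finrank_ker
    have ht : LinearMap.range (X.Hinl s m (a + 1)) = ⊤ := by
      rw [eq_top_iff]
      intro q _
      obtain ⟨p, hp, rfl⟩ := SQ.ind q
      obtain ⟨b, hb, h⟩ := exists_inl s (a := a + 1) (hX _ (by omega) _).1 hp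
      exact ⟨SQ.mk _ b hb, ((SQ.mk_eq hp (inl_Z s hb)).2 h).symm⟩
    rw [ker_Hinl, ht, finrank_top] at h
    rw [← add_assoc, h]
  have e2 : ∀ a, finrank K (X.HB s m a) =
      finrank K (X.HV s m (a + 1)) + finrank K (LinearMap.ker (X.Hinn s m a)) := fun a => by
    have h := (X.Hinn s m a).finrank_range_add_finrank_ker
    have ht : LinearMap.range (X.Hinn s m a) = ⊤ := by
      rw [eq_top_iff]
      intro q _
      obtain ⟨v, hv, rfl⟩ := SQ.ind q
      obtain ⟨b, hb, h⟩ := hO a v hv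
      exact ⟨SQ.mk _ b hb, (SQ.mk_eq _ _).2 h⟩
    rw [ht, finrank_top] at h
    rw [h]
  have s1 := finsum_congr e1
  rw [finsum_add_distrib (fin_shift ((X.S s).hV_fin s m) _) hrf, finsum_shift (fun a => finrank K (X.HB s m a)),
    finsum_shift (fun a => finrank K ((X.S s).HV s m a))] at s1
  have s2 := finsum_congr e2
  rw [finsum_add_distrib (fin_shift (X.hV_fin s m) _) hkf, finsum_shift (fun a => finrank K (X.HV s m a))] at s2
  have r1 := eq_of_finsum_le hrf (X.hV_fin s m) hr (by omega)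
  have r2 := eq_of_finsum_le hrf (fin_shift hkf 1) (fun a => Submodule.finrank_mono (X.range_le_ker s m a))
    (by rw [finsum_shift (fun a => finrank K (LinearMap.ker (X.Hinn s m a)))]; omega)
  refine surD_T s (fun a v hv h => ?_) fun a b hb h => ?_
  · have h3 := (X.Hout s m a).finrank_range_add_finrank_ker
    have h4 : LinearMap.ker (X.Hout s m a) = ⊥ := Submodule.finrank_eq_zero.1 (by have := r1 a; omega)
    exact (SQ.mk_eq_zero hv).1 (LinearMap.ker_eq_bot'.1 h4 _ ((SQ.mk_eq_zero (out_ZB hv)).2 h))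
  · have h3 := Submodule.eq_of_le_of_finrank_eq (X.range_le_ker s m a) (r2 a)
    have h4 : SQ.mk _ b hb ∈ LinearMap.range (X.Hout s m a) := by
      rw [h3]; exact (SQ.mk_eq_zero (inn_Z hb)).2 h
    obtain ⟨q, hq⟩ := h4
    obtain ⟨v, hv, rfl⟩ := SQ.ind q
    exact ⟨v, hv, (SQ.mk_eq hb (out_ZB hv)).1 hq.symm⟩

end DG

end Crest.Agent.R175.Mod
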