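import Crest.Agent.R175.Mod.Api

/-! # R175/Mod/Comm.  Moves at non-adjacent vertices commute. -/

set_option autoImplicit false
noncomputable section
open Classical

namespace Crest.Agent.R175.Mod

section
variable {I E : Type} [Fintype E] {Γ : Gr I E}

namespace DG

theorem cm_memB (X : DG Γ) {s : I} {t : Γ.J} (h : ∀ e, Γ.src e = s → Γ.tgt e ≠ t) {n a : ℤ} {β : E → (E → X.V) × X.V} :
    β ∈ (X.T t).degB s n a ↔ ∃ b ∈ X.degB s n a, β = X.iB b := by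
  simp only [mem_degB]
  constructor
  · rintro ⟨h1, h2⟩
    refine ⟨X.sB β, ⟨fun e he => ((X.T_mem_ne t (h e he)).1 (h1 e he)).2, fun e he => by simp [h2 e he]⟩, funext fun e => ?_⟩
    by_cases he : Γ.src e = s
    · exact Prod.ext ((X.T_mem_ne t (h e he)).1 (h1 e he)).1 rfl
    · simp [h2 e he]; rfl
  · rintro ⟨b, ⟨h1, h2⟩, rfl⟩
    exact ⟨fun e he => (X.T_mem_ne t (h e he)).2 ⟨rfl, h1 e he⟩, fun e he => by simp [h2 e he]⟩

theorem cm_dB (X : DG Γ) {s : I} {t : Γ.J} (h : ∀ e, Γ.src e = s → Γ.tgt e ≠ t) {n a : ℤ} {b : E → X.V} (hb : b ∈ X.degB s n a) :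
    (X.T t).dB (X.iB b) = X.iB (X.dB b) := by
  ext1 e
  by_cases he : Γ.src e = s
  · exact X.Td_ne (h e he) _
  · simp only [dB_apply, iB_apply, (X.mem_degB.1 hb).2 e he, map_zero]
    exact map_zero _

theorem cm_inn (X : DG Γ) {s : I} {t : Γ.J} (hst : s ≠ t) (h : ∀ e, Γ.src e = s → Γ.tgt e ≠ t) (β : E → (E → X.V) × X.V) :
    (X.T t).inn s β = (0, X.inn s (X.sB β)) := by
  rw [inn_apply, inn_apply, ← Finset.sum_const_zero (s := Γ.O s), ← sum_pair]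
  exact Finset.sum_congr rfl fun e he =>
    X.Tx_ne (e := Γ.bar e) (h e (Γ.mem_O.1 he)) (by rw [Γ.tgt_bar, Γ.mem_O.1 he]; exact hst) _

theorem cm_out (X : DG Γ) {s : I} {t : Γ.J} (hst : s ≠ t) (h : ∀ e, Γ.src e = s → Γ.tgt e ≠ t) (p : (E → X.V) × X.V) :
    (X.T t).out s p = X.iB (X.out s p.2) := by
  ext1 e
  rw [out_apply, iB_apply, out_apply]
  split_ifs with he
  · exact X.Tx_ne (he ▸ hst) (h e he) _
  · rfl

omit [Fintype E] in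
theorem cm_symm {s t : I} (h : ∀ e, Γ.src e = s → Γ.tgt e ≠ t) : ∀ e, Γ.src e = t → Γ.tgt e ≠ s := fun e h1 h2 =>
  h (Γ.bar e) h2 (by rw [Γ.tgt_bar]; exact h1)

/-- the exchange map -/
def cmF (X : DG Γ) : (E → (E → X.V) × X.V) × (E → X.V) × X.V →ₗ[K] (E → (E → X.V) × X.V) × (E → X.V) × X.V :=
  (X.iB ∘ₗ LinearMap.fst K _ _ ∘ₗ LinearMap.snd K _ _).prod
    ((X.sB ∘ₗ LinearMap.fst K _ _).prod (LinearMap.snd K _ _ ∘ₗ LinearMap.snd K _ _))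

theorem cmF_apply (X : DG Γ) (β : E → (E → X.V) × X.V) (b : E → X.V) (v : X.V) : X.cmF (β, b, v) = (X.iB b, X.sB β, v) := rfl

theorem cm_mem_s (X : DG Γ) {s t : Γ.J} (hst : (s : I) ≠ t) (h : ∀ e, Γ.src e = s → Γ.tgt e ≠ t) {n a : ℤ}
    {p : (E → (E → X.V) × X.V) × (E → X.V) × X.V} :
    p ∈ ((X.T t).T s).deg s n a ↔ ∃ c ∈ X.degB s n (a + 1), ∃ v ∈ X.deg s (n - 1) (a + 2), p = (X.iB c, 0, v) := by
  rw [T_mem_self, X.T_mem_ne t hst, X.cm_memB h]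
  obtain ⟨β, b, v⟩ := p
  constructor
  · rintro ⟨⟨c, hc, rfl⟩, rfl, hv⟩
    exact ⟨c, hc, v, hv, rfl⟩
  · rintro ⟨c, hc, v, hv, h1⟩
    obtain ⟨rfl, rfl, rfl⟩ : β = X.iB c ∧ b = 0 ∧ _ = v := by simpa using h1
    exact ⟨⟨c, hc, rfl⟩, rfl, hv⟩

theorem cm_mem_t (X : DG Γ) {s t : Γ.J} (hst : (s : I) ≠ t) {n a : ℤ}
    {p : (E → (E → X.V) × X.V) × (E → X.V) × X.V} :
    p ∈ ((X.T t).T s).deg t n a ↔ ∃ c ∈ X.degB t n (a + 1), ∃ v ∈ X.deg t (n - 1) (a + 2), p = (0, c, v) := by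
  rw [T_mem_ne _ _ hst.symm, T_mem_self]
  obtain ⟨β, b, v⟩ := p
  constructor
  · rintro ⟨rfl, hc, hv⟩
    exact ⟨b, hc, v, hv, rfl⟩
  · rintro ⟨c, hc, v, hv, h1⟩
    obtain ⟨rfl, rfl, rfl⟩ : β = 0 ∧ b = c ∧ _ = v := by simpa using h1
    exact ⟨rfl, hc, hv⟩

theorem cm_mem_o (X : DG Γ) {s t : Γ.J} {i : I} (hs : i ≠ s) (ht : i ≠ t) {n a : ℤ}
    {p : (E → (E → X.V) × X.V) × (E → X.V) × X.V} :
    p ∈ ((X.T t).T s).deg i n a ↔ ∃ v ∈ X.deg i n a, p = (0, 0, v) := by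
  rw [T_mem_ne _ _ hs, T_mem_ne _ _ ht]
  obtain ⟨β, b, v⟩ := p
  constructor
  · rintro ⟨rfl, rfl, hv⟩
    exact ⟨v, hv, rfl⟩
  · rintro ⟨v, hv, h1⟩
    obtain ⟨rfl, rfl, rfl⟩ : β = 0 ∧ b = 0 ∧ _ = v := by simpa using h1
    exact ⟨rfl, rfl, hv⟩

/-- the exchange morphism -/
def cmHom (X : DG Γ) {s t : Γ.J} (hst : (s : I) ≠ t) (h : ∀ e, Γ.src e = s → Γ.tgt e ≠ t) : Hom ((X.T t).T s).p ((X.T s).T t).p where
  f _ _ _ := X.cmF
  mem {i n a p} hp := by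
    by_cases hs : i = s
    · subst hs
      obtain ⟨c, hc, v, hv, rfl⟩ := (X.cm_mem_s hst h).1 hp
      exact (X.cm_mem_t hst.symm).2 ⟨c, hc, v, hv, by rw [cmF_apply, map_zero, sB_iB]⟩
    by_cases ht : i = t
    · subst ht
      obtain ⟨c, hc, v, hv, rfl⟩ := (X.cm_mem_t hst).1 hp
      exact (X.cm_mem_s hst.symm (cm_symm h)).2 ⟨c, hc, v, hv, by rw [cmF_apply, map_zero]⟩
    · obtain ⟨v, hv, rfl⟩ := (X.cm_mem_o hs ht).1 hp
      exact (X.cm_mem_o ht hs).2 ⟨v, hv, by rw [cmF_apply, map_zero, map_zero]⟩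
  d {i n a p} hp := by
    show X.cmF ((X.T t).Td s i p) = (X.T s).Td t i (X.cmF p)
    by_cases hs : i = s
    · subst hs
      obtain ⟨c, hc, v, hv, rfl⟩ := (X.cm_mem_s hst h).1 hp
      rw [(X.T t).Td_self, (X.T s).Td_ne hst, X.cm_dB h hc, X.cm_inn hst h]
      simp [X.Td_ne hst, Td_self, cmF_apply]
    by_cases ht : i = t
    · subst ht
      obtain ⟨c, hc, v, hv, rfl⟩ := (X.cm_mem_t hst).1 hp
      rw [X.cmF_apply 0 c v, (X.T s).Td_self, (X.T t).Td_ne hst.symm, X.cm_dB (cm_symm h) hc, X.cm_inn hst.symm (cm_symm h)]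
      simp [X.Td_ne hst.symm, Td_self, cmF_apply]
    · obtain ⟨v, hv, rfl⟩ := (X.cm_mem_o hs ht).1 hp
      simp [Td_ne _ hs, Td_ne _ ht, cmF_apply]
  x {e n a p} hp := by
    show X.cmF ((X.T t).Tx s e p) = (X.T s).Tx t e (X.cmF p)
    by_cases hs : Γ.src e = s
    · rw [hs] at hp
      obtain ⟨c, hc, v, hv, rfl⟩ := (X.cm_mem_s hst h).1 hp
      rw [Tx_src _ hs, Tx_ne _ (hs ▸ hst) (h e hs)]
      simp [X.Tx_src hs, cmF_apply]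
    by_cases ht : Γ.src e = t
    · rw [ht] at hp
      obtain ⟨c, hc, v, hv, rfl⟩ := (X.cm_mem_t hst).1 hp
      rw [Tx_src _ ht, Tx_ne _ hs (cm_symm h e ht)]
      simp [X.Tx_src ht, cmF_apply]
    obtain ⟨v, hv, rfl⟩ := (X.cm_mem_o hs ht).1 hp
    by_cases hs' : Γ.tgt e = s
    · have ht' : Γ.tgt e ≠ t := hs' ▸ hst
      rw [(X.T t).Tx_tgt hs', (X.T s).Tx_ne ht ht', X.cm_out hst h]
      simp [X.Tx_tgt hs', X.Tx_ne ht ht', X.Tτ_ne hst, cmF_apply]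
    by_cases ht' : Γ.tgt e = t
    · rw [Tx_tgt _ ht', Tx_ne _ hs hs', X.cm_out hst.symm (cm_symm h)]
      simp [X.Tx_tgt ht', X.Tx_ne hs hs', X.Tτ_ne hst.symm, cmF_apply]
    · simp [Tx_ne _ hs hs', Tx_ne _ ht ht', cmF_apply]
  τ {i n a p} _ hp := by
    show X.cmF ((X.T t).Tτ s i p) = (X.T s).Tτ t i (X.cmF p)
    by_cases hs : i = s
    · subst hs
      obtain ⟨c, hc, v, hv, rfl⟩ := (X.cm_mem_s hst h).1 hp
      rw [(X.T t).Tτ_self, (X.T s).Tτ_ne hst, X.cm_out hst h]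
      simp [X.Tτ_ne hst, Tτ_self, cmF_apply]
    by_cases ht : i = t
    · subst ht
      obtain ⟨c, hc, v, hv, rfl⟩ := (X.cm_mem_t hst).1 hp
      rw [Tτ_self, Tτ_ne _ hst.symm, X.cm_out hst.symm (cm_symm h)]
      simp [X.Tτ_ne hst.symm, Tτ_self, cmF_apply]
    · obtain ⟨v, hv, rfl⟩ := (X.cm_mem_o hs ht).1 hp
      simp [Tτ_ne _ hs, Tτ_ne _ ht, cmF_apply]

theorem cmF_cmF (X : DG Γ) {s t : Γ.J} (hst : (s : I) ≠ t) (h : ∀ e, Γ.src e = s → Γ.tgt e ≠ t) (i : I) (n a : ℤ) :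
    ∀ p ∈ ((X.T t).T s).deg i n a, X.cmF (X.cmF p) = p := by
  intro p hp
  by_cases hs : i = s
  · subst hs
    obtain ⟨c, hc, v, hv, rfl⟩ := (X.cm_mem_s hst h).1 hp
    simp [cmF_apply]
  by_cases ht : i = t
  · subst ht
    obtain ⟨c, hc, v, hv, rfl⟩ := (X.cm_mem_t hst).1 hp
    simp [cmF_apply]
  · obtain ⟨v, hv, rfl⟩ := (X.cm_mem_o hs ht).1 hp
    simp [cmF_apply]

end DG

/-- leaf Comm.  Strict isomorphism `f (β, (b, v)) = (fun e => (0, b e), (fun e => (β e).2, v))` (the same linear map at every label);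
the inverse is the same map with `s`, `t` exchanged (`qiat_of_iso`, `cl_eq_of_hom`).  Cases: vertex `= s`, `= t`, other; use
`T_mem_self/ne`, `Td_self/ne`, `Tx_src/tgt/ne`, `Tτ_self/ne`, `mem_degB`, `inn_apply`, `out_apply`. -/
theorem DG.T_comm (X : DG Γ) {s t : Γ.J} (hst : (s : I) ≠ t) (h : ∀ e, Γ.src e = s → Γ.tgt e ≠ t) :
    ((X.T t).T s).p.cl = ((X.T s).T t).p.cl := by
  exact cl_eq_of_hom (X.cmHom hst h) (qiat_of_iso (X.cmHom hst h) (X.cmHom hst.symm (DG.cm_symm h)) (X.cmF_cmF hst h)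
    (X.cmF_cmF hst.symm (DG.cm_symm h)))

end

theorem comm_TT (G : P.Gr) : ∀ i ∈ G.J, ∀ j ∈ G.J, G.ne i j = 0 → TT G i * TT G j = TT G j * TT G i := by
  intro i hi j hj h
  by_cases hij : i = j
  · rw [hij]
  refine Equiv.ext fun x => ?_
  obtain ⟨X, rfl⟩ := exists_rep x
  simp only [TT_eq hi, TT_eq hj, Equiv.Perm.mul_apply, Obj.T_cl]
  exact X.T_comm (s := ⟨i, hi⟩) (t := ⟨j, hj⟩) hij fun e h1 h2 => ne_ne_zero.2 ⟨e, h1, h2⟩ h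

end Crest.Agent.R175.Mod
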