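import Mathlib

/-! # R175/Mod/Defs (owner helper48).  dg modules over the (framed) derived preprojective algebra over `F_2`.

Every vertex space is a copy of one finite ambient space `V`; all identities hold on the whole ambient space; the graded pieces
`deg i n a` (vertex, cohomological degree, Adams degree) are a family of subspaces respected by the structure maps. -/

set_option autoImplicit false
noncomputable section
open Classical

namespace Crest.Agent.R175.Mod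

abbrev K := ZMod 2

theorem add_self' {V : Type*} [AddCommGroup V] [Module K V] (v : V) : v + v = 0 := by
  rw [← two_smul K v, show (2 : K) = 0 from rfl, zero_smul]

theorem add_add_self {V : Type*} [AddCommGroup V] [Module K V] (v w : V) : v + (v + w) = w := by
  rw [← add_assoc, add_self', zero_add]

theorem eq_iff_add {V : Type*} [AddCommGroup V] [Module K V] {v w : V} : v = w ↔ v + w = 0 := by
  constructor
  · rintro rfl
    exact add_self' v
  · intro h
    rw [← add_add_self v w, h, add_zero]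

/-- closes an identity in an `F_2`-space from a linear combination of hypotheses -/
theorem two_eq {V : Type*} [AddCommGroup V] [Module K V] {v w : V} (z : V) (h : v + z + z = w) : v = w := by
  rwa [add_assoc, add_self', add_zero] at h

/-- doubled quiver without loops (multiple edges allowed); `J` = the unframed vertices -/
structure Gr (I E : Type) where
  src : E → I
  bar : E → E
  bar_bar : ∀ e, bar (bar e) = e
  noloop : ∀ e, src (bar e) ≠ src e
  J : Set I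

variable {I E : Type}

/-- target of an oriented edge -/
def Gr.tgt (Γ : Gr I E) (e : E) : I := Γ.src (Γ.bar e)

@[simp] theorem Gr.src_bar (Γ : Gr I E) (e : E) : Γ.src (Γ.bar e) = Γ.tgt e := rfl
@[simp] theorem Gr.tgt_bar (Γ : Gr I E) (e : E) : Γ.tgt (Γ.bar e) = Γ.src e := by rw [Gr.tgt, Γ.bar_bar]
attribute [simp] Gr.bar_bar
theorem Gr.tgt_ne (Γ : Gr I E) (e : E) : Γ.tgt e ≠ Γ.src e := Γ.noloop e
theorem Gr.tgt_ne' (Γ : Gr I E) {e : E} {s : I} (h : Γ.src e = s) : Γ.tgt e ≠ s := h ▸ Γ.noloop e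
theorem Gr.src_ne' (Γ : Gr I E) {e : E} {s : I} (h : Γ.tgt e = s) : Γ.src e ≠ s := h ▸ (Γ.noloop e).symm

variable [Fintype E]

/-- edges out of a vertex -/
def Gr.O (Γ : Gr I E) (i : I) : Finset E := Finset.univ.filter fun e => Γ.src e = i

@[simp] theorem Gr.mem_O (Γ : Gr I E) {i : I} {e : E} : e ∈ Γ.O i ↔ Γ.src e = i := by simp [Gr.O]

/-- bigraded dg module over the derived preprojective algebra, relation at the vertices of `Γ.J` -/
structure DG (Γ : Gr I E) where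
  V : Type
  [acg : AddCommGroup V]
  [mod : Module K V]
  [fin : Finite V]
  deg : I → ℤ → ℤ → Submodule K V
  d : I → V →ₗ[K] V
  x : E → V →ₗ[K] V
  τ : I → V →ₗ[K] V
  d_mem : ∀ {i n a v}, v ∈ deg i n a → d i v ∈ deg i (n + 1) a
  x_mem : ∀ {e n a v}, v ∈ deg (Γ.src e) n a → x e v ∈ deg (Γ.tgt e) n (a + 1)
  τ_mem : ∀ {i n a v}, v ∈ deg i n a → τ i v ∈ deg i (n - 1) (a + 2)
  dd : ∀ i v, d i (d i v) = 0
  dx : ∀ e v, d (Γ.tgt e) (x e v) = x e (d (Γ.src e) v)
  rel : ∀ i ∈ Γ.J, ∀ v, d i (τ i v) + τ i (d i v) = ∑ e ∈ Γ.O i, x (Γ.bar e) (x e v)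
  bdd : ∃ N : ℤ, ∀ i n a v, v ∈ deg i n a → N < |n| ∨ N < |a| → v = 0

attribute [instance] DG.acg DG.mod DG.fin

variable {Γ : Gr I E}

namespace DG

variable (X : DG Γ)

theorem cast {i : I} {n a n' a' : ℤ} {v : X.V} (h : v ∈ X.deg i n a) (hn : n = n' := by omega) (ha : a = a' := by omega) :
    v ∈ X.deg i n' a' := hn ▸ ha ▸ h

theorem x_mem' {e : E} {i j : I} {n a : ℤ} {v : X.V} (hi : Γ.src e = i) (hj : Γ.tgt e = j) (h : v ∈ X.deg i n a) :
    X.x e v ∈ X.deg j n (a + 1) := hj ▸ X.x_mem (hi ▸ h)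

theorem dx' {e : E} {i j : I} (hi : Γ.src e = i) (hj : Γ.tgt e = j) (v : X.V) : X.d j (X.x e v) = X.x e (X.d i v) :=
  hi ▸ hj ▸ X.dx e v

/-- the sum of the arrows into `s` -/
def inn (s : I) : (E → X.V) →ₗ[K] X.V := ∑ e ∈ Γ.O s, X.x (Γ.bar e) ∘ₗ LinearMap.proj e

/-- the arrows out of `s` -/
def out (s : I) : X.V →ₗ[K] (E → X.V) := LinearMap.pi fun e => if Γ.src e = s then X.x e else 0

/-- the differential of the neighbours -/
def dB : (E → X.V) →ₗ[K] (E → X.V) := LinearMap.pi fun e => X.d (Γ.tgt e) ∘ₗ LinearMap.proj e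

/-- graded pieces of the neighbours of `s` -/
def degB (s : I) (n a : ℤ) : Submodule K (E → X.V) :=
  Submodule.pi Set.univ fun e => if Γ.src e = s then X.deg (Γ.tgt e) n a else ⊥

theorem inn_apply (s : I) (b : E → X.V) : X.inn s b = ∑ e ∈ Γ.O s, X.x (Γ.bar e) (b e) := by
  simp [inn, LinearMap.sum_apply]

theorem out_apply (s : I) (v : X.V) (e : E) : X.out s v e = if Γ.src e = s then X.x e v else 0 := by
  simp only [out, LinearMap.pi_apply]
  split_ifs <;> rfl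

theorem out_apply_of {s : I} {e : E} (h : Γ.src e = s) (v : X.V) : X.out s v e = X.x e v := by rw [out_apply, if_pos h]

@[simp] theorem dB_apply (b : E → X.V) (e : E) : X.dB b e = X.d (Γ.tgt e) (b e) := rfl

theorem mem_degB {s : I} {n a : ℤ} {b : E → X.V} :
    b ∈ X.degB s n a ↔ (∀ e, Γ.src e = s → b e ∈ X.deg (Γ.tgt e) n a) ∧ ∀ e, Γ.src e ≠ s → b e = 0 := by
  simp only [degB, Submodule.mem_pi, Set.mem_univ, forall_const]
  constructor
  · intro h
    refine ⟨fun e he => ?_, fun e he => ?_⟩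
    · simpa [he] using h e
    · simpa [he] using h e
  · rintro ⟨h1, h2⟩ e
    split_ifs with he
    · exact h1 e he
    · simp [h2 e he]

theorem castB {s : I} {n a n' a' : ℤ} {b : E → X.V} (h : b ∈ X.degB s n a) (hn : n = n' := by omega) (ha : a = a' := by omega) :
    b ∈ X.degB s n' a' := hn ▸ ha ▸ h

theorem dB_dB (b : E → X.V) : X.dB (X.dB b) = 0 := by
  ext e
  simp [X.dd]

theorem d_inn (s : I) (b : E → X.V) : X.d s (X.inn s b) = X.inn s (X.dB b) := by
  simp only [inn_apply, map_sum, dB_apply]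
  refine Finset.sum_congr rfl fun e he => X.dx' rfl (by simpa using he) _

theorem dB_out (s : I) (v : X.V) : X.dB (X.out s v) = X.out s (X.d s v) := by
  ext e
  simp only [dB_apply, out_apply]
  split_ifs with h
  · exact X.dx' h rfl v
  · simp

theorem inn_out {s : I} (hs : s ∈ Γ.J) (v : X.V) : X.inn s (X.out s v) = X.d s (X.τ s v) + X.τ s (X.d s v) := by
  rw [X.rel s hs, inn_apply]
  exact Finset.sum_congr rfl fun e he => by rw [X.out_apply_of (by simpa using he)]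

theorem dτ {s : I} (hs : s ∈ Γ.J) (v : X.V) : X.d s (X.τ s v) = X.inn s (X.out s v) + X.τ s (X.d s v) := by
  rw [X.inn_out hs, add_assoc, add_self', add_zero]

theorem dB_mem {s : I} {n a : ℤ} {b : E → X.V} (h : b ∈ X.degB s n a) : X.dB b ∈ X.degB s (n + 1) a := by
  rw [mem_degB] at h ⊢
  exact ⟨fun e he => X.d_mem (h.1 e he), fun e he => by simp [h.2 e he]⟩

theorem inn_mem {s : I} {n a : ℤ} {b : E → X.V} (h : b ∈ X.degB s n a) : X.inn s b ∈ X.deg s n (a + 1) := by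
  rw [mem_degB] at h
  rw [inn_apply]
  exact Submodule.sum_mem _ fun e he => X.x_mem' rfl (by simpa using he) (h.1 e (by simpa using he))

theorem out_mem {s : I} {n a : ℤ} {v : X.V} (h : v ∈ X.deg s n a) : X.out s v ∈ X.degB s n (a + 1) := by
  rw [mem_degB]
  exact ⟨fun e he => by rw [X.out_apply_of he]; exact X.x_mem' he rfl h, fun e he => by rw [out_apply, if_neg he]⟩

theorem bddB {N : ℤ} (hN : ∀ i n a v, v ∈ X.deg i n a → N < |n| ∨ N < |a| → v = 0) {s : I} {n a : ℤ} {b : E → X.V}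
    (h : b ∈ X.degB s n a) (h' : N < |n| ∨ N < |a|) : b = 0 := by
  rw [mem_degB] at h
  ext e
  by_cases he : Γ.src e = s
  · exact hN _ _ _ _ (h.1 e he) h'
  · exact h.2 e he

/-- `(b, v) ↦ (0, f v)` -/
def low (f : X.V →ₗ[K] X.V) : (E → X.V) × X.V →ₗ[K] (E → X.V) × X.V := LinearMap.inr K _ _ ∘ₗ f ∘ₗ LinearMap.snd K _ _

@[simp] theorem low_apply (f : X.V →ₗ[K] X.V) (p : (E → X.V) × X.V) : X.low f p = (0, f p.2) := rfl

/-- graded pieces: `(n₁, a₁)` for the neighbours and `(n₂, a₂)` for the vertex at `s` -/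
def degT (s i : I) (n a n₁ a₁ n₂ a₂ : ℤ) : Submodule K ((E → X.V) × X.V) :=
  if i = s then (X.degB s n₁ a₁).prod (X.deg s n₂ a₂) else (⊥ : Submodule K (E → X.V)).prod (X.deg i n a)

theorem mem_degT_self {s : I} {n a n₁ a₁ n₂ a₂ : ℤ} {p : (E → X.V) × X.V} :
    p ∈ X.degT s s n a n₁ a₁ n₂ a₂ ↔ p.1 ∈ X.degB s n₁ a₁ ∧ p.2 ∈ X.deg s n₂ a₂ := by
  rw [degT, if_pos rfl, Submodule.mem_prod]

theorem mem_degT_ne {s i : I} (h : i ≠ s) {n a n₁ a₁ n₂ a₂ : ℤ} {p : (E → X.V) × X.V} :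
    p ∈ X.degT s i n a n₁ a₁ n₂ a₂ ↔ p.1 = 0 ∧ p.2 ∈ X.deg i n a := by
  rw [degT, if_neg h, Submodule.mem_prod, Submodule.mem_bot]

/-! ### the up-move: cocone of `inn` -/

def Td (s i : I) : (E → X.V) × X.V →ₗ[K] (E → X.V) × X.V :=
  if i = s then (X.dB ∘ₗ LinearMap.fst K _ _).prod (X.inn s ∘ₗ LinearMap.fst K _ _ + X.d s ∘ₗ LinearMap.snd K _ _)
  else X.low (X.d i)

def Tx (s : I) (e : E) : (E → X.V) × X.V →ₗ[K] (E → X.V) × X.V :=
  if Γ.src e = s then LinearMap.inr K _ _ ∘ₗ LinearMap.proj e ∘ₗ LinearMap.fst K _ _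
  else if Γ.tgt e = s then ((X.out s).prod (X.τ s)) ∘ₗ X.x e ∘ₗ LinearMap.snd K _ _
  else X.low (X.x e)

def Tτ (s i : I) : (E → X.V) × X.V →ₗ[K] (E → X.V) × X.V :=
  if i = s then ((X.out s).prod (X.τ s)) ∘ₗ LinearMap.snd K _ _ else X.low (X.τ i)

theorem Td_self (s : I) (p : (E → X.V) × X.V) : X.Td s s p = (X.dB p.1, X.inn s p.1 + X.d s p.2) := by
  rw [Td, if_pos rfl]; rfl
theorem Td_ne {s i : I} (h : i ≠ s) (p : (E → X.V) × X.V) : X.Td s i p = (0, X.d i p.2) := by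
  rw [Td, if_neg h]; rfl
theorem Tx_src {s : I} {e : E} (h : Γ.src e = s) (p : (E → X.V) × X.V) : X.Tx s e p = (0, p.1 e) := by
  rw [Tx, if_pos h]; rfl
theorem Tx_tgt {s : I} {e : E} (h : Γ.tgt e = s) (p : (E → X.V) × X.V) :
    X.Tx s e p = (X.out s (X.x e p.2), X.τ s (X.x e p.2)) := by
  rw [Tx, if_neg (Γ.src_ne' h), if_pos h]; rfl
theorem Tx_ne {s : I} {e : E} (h : Γ.src e ≠ s) (h' : Γ.tgt e ≠ s) (p : (E → X.V) × X.V) : X.Tx s e p = (0, X.x e p.2) := by
  rw [Tx, if_neg h, if_neg h']; rfl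
theorem Tτ_self (s : I) (p : (E → X.V) × X.V) : X.Tτ s s p = (X.out s p.2, X.τ s p.2) := by
  rw [Tτ, if_pos rfl]; rfl
theorem Tτ_ne {s i : I} (h : i ≠ s) (p : (E → X.V) × X.V) : X.Tτ s i p = (0, X.τ i p.2) := by
  rw [Tτ, if_neg h]; rfl

omit [Fintype E] in
theorem sum_pair {A B : Type*} [AddCommMonoid A] [AddCommMonoid B] (S : Finset E) (f : E → A) (g : E → B) :
    ∑ e ∈ S, (f e, g e) = (∑ e ∈ S, f e, ∑ e ∈ S, g e) := Prod.ext (by simp [Prod.fst_sum]) (by simp [Prod.snd_sum])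

/-- the up-move at the unframed vertex `s` -/
@[reducible] def T (s : Γ.J) : DG Γ where
  V := (E → X.V) × X.V
  deg i n a := X.degT s i n a n (a + 1) (n - 1) (a + 2)
  d := X.Td s
  x := X.Tx s
  τ := X.Tτ s
  d_mem {i n a p} h := by
    by_cases hi : i = s
    · subst hi
      rw [mem_degT_self] at h ⊢
      rw [Td_self]
      exact ⟨X.dB_mem h.1, add_mem (X.cast (X.inn_mem h.1)) (X.cast (X.d_mem h.2))⟩
    · rw [X.mem_degT_ne hi] at h ⊢
      rw [X.Td_ne hi]
      exact ⟨rfl, X.d_mem h.2⟩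
  x_mem {e n a p} h := by
    by_cases h1 : Γ.src e = s
    · rw [h1, mem_degT_self, mem_degB] at h
      rw [X.mem_degT_ne (Γ.tgt_ne' h1), X.Tx_src h1]
      exact ⟨rfl, h.1.1 e h1⟩
    · rw [X.mem_degT_ne h1] at h
      by_cases h2 : Γ.tgt e = s
      · rw [h2, mem_degT_self, X.Tx_tgt h2]
        have := X.x_mem' rfl h2 h.2
        exact ⟨X.out_mem this, X.τ_mem this⟩
      · rw [X.mem_degT_ne h2, X.Tx_ne h1 h2]
        exact ⟨rfl, X.x_mem h.2⟩
  τ_mem {i n a p} h := by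
    by_cases hi : i = s
    · subst hi
      rw [mem_degT_self] at h ⊢
      rw [Tτ_self]
      exact ⟨X.out_mem h.2, X.τ_mem h.2⟩
    · rw [X.mem_degT_ne hi] at h ⊢
      rw [X.Tτ_ne hi]
      exact ⟨rfl, X.τ_mem h.2⟩
  dd i p := by
    by_cases hi : i = s
    · subst hi
      simp only [Td_self, dB_dB, map_add, d_inn, X.dd, add_zero, add_self', Prod.mk_eq_zero, and_self]
    · simp only [X.Td_ne hi, X.dd, Prod.mk_eq_zero, and_self]
  dx e p := by
    by_cases h1 : Γ.src e = s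
    · rw [X.Tx_src h1, X.Tx_src h1, X.Td_ne (Γ.tgt_ne' h1), h1, Td_self]
      rfl
    · by_cases h2 : Γ.tgt e = s
      · rw [X.Tx_tgt h2, X.Tx_tgt h2, X.Td_ne h1, h2, Td_self]
        simp only [dB_out, X.dτ s.2, add_add_self, X.dx' rfl h2]
      · rw [X.Tx_ne h1 h2, X.Tx_ne h1 h2, X.Td_ne h1, X.Td_ne h2, X.dx]
  rel i hi p := by
    by_cases his : i = s
    · subst his
      rw [Finset.sum_congr rfl fun e he => by
        rw [X.Tx_src (Γ.mem_O.1 he), X.Tx_tgt (by simpa using he)], sum_pair, ← map_sum, ← map_sum, ← inn_apply]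
      simp only [Td_self, Tτ_self, dB_out, X.dτ hi, add_add_self, map_add, Prod.mk_add_mk, Prod.mk.injEq]
      exact ⟨by rw [add_comm, add_assoc, add_self', add_zero], by rw [add_comm, add_assoc, add_self', add_zero]⟩
    · rw [Finset.sum_congr rfl (g := fun e => (0, X.x (Γ.bar e) (X.x e p.2))) fun e he => ?_, sum_pair, ← X.rel i hi]
      · simp [X.Td_ne his, X.Tτ_ne his]
      · have h1 : Γ.src e ≠ s := by rwa [Γ.mem_O.1 he]
        by_cases h2 : Γ.tgt e = s
        · rw [X.Tx_tgt h2, X.Tx_src (e := Γ.bar e) h2]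
          exact congrArg _ (X.out_apply_of (e := Γ.bar e) h2 _)
        · rw [X.Tx_ne h1 h2, X.Tx_ne (e := Γ.bar e) h2 (by simpa using h1)]
  bdd := by
    obtain ⟨N, hN⟩ := X.bdd
    refine ⟨N + 2, fun i n a p h h' => ?_⟩
    by_cases hi : i = s
    · subst hi
      rw [mem_degT_self] at h
      exact Prod.ext (X.bddB hN h.1 (by grind)) (hN _ _ _ _ h.2 (by grind))
    · rw [X.mem_degT_ne hi] at h
      exact Prod.ext h.1 (hN _ _ _ _ h.2 (by grind))

/-! ### the down-move: cone of `out` -/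

/-- `(b, v) ↦ inn b + τ v` -/
def ev (s : I) : (E → X.V) × X.V →ₗ[K] X.V := X.inn s ∘ₗ LinearMap.fst K _ _ + X.τ s ∘ₗ LinearMap.snd K _ _

theorem ev_apply (s : I) (p : (E → X.V) × X.V) : X.ev s p = X.inn s p.1 + X.τ s p.2 := rfl

def Sd (s i : I) : (E → X.V) × X.V →ₗ[K] (E → X.V) × X.V :=
  if i = s then (X.dB ∘ₗ LinearMap.fst K _ _ + X.out s ∘ₗ LinearMap.snd K _ _).prod (X.d s ∘ₗ LinearMap.snd K _ _)
  else X.low (X.d i)

def Sx (s : I) (e : E) : (E → X.V) × X.V →ₗ[K] (E → X.V) × X.V :=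
  if Γ.src e = s then LinearMap.inr K _ _ ∘ₗ X.x e ∘ₗ X.ev s
  else if Γ.tgt e = s then LinearMap.inl K _ _ ∘ₗ LinearMap.single K (fun _ => X.V) (Γ.bar e) ∘ₗ LinearMap.snd K _ _
  else X.low (X.x e)

def Sτ (s i : I) : (E → X.V) × X.V →ₗ[K] (E → X.V) × X.V :=
  if i = s then LinearMap.inr K _ _ ∘ₗ X.ev s else X.low (X.τ i)

theorem Sd_self (s : I) (p : (E → X.V) × X.V) : X.Sd s s p = (X.dB p.1 + X.out s p.2, X.d s p.2) := by
  rw [Sd, if_pos rfl]; rfl
theorem Sd_ne {s i : I} (h : i ≠ s) (p : (E → X.V) × X.V) : X.Sd s i p = (0, X.d i p.2) := by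
  rw [Sd, if_neg h]; rfl
theorem Sx_src {s : I} {e : E} (h : Γ.src e = s) (p : (E → X.V) × X.V) : X.Sx s e p = (0, X.x e (X.ev s p)) := by
  rw [Sx, if_pos h]; rfl
theorem Sx_tgt {s : I} {e : E} (h : Γ.tgt e = s) (p : (E → X.V) × X.V) : X.Sx s e p = (Pi.single (Γ.bar e) p.2, 0) := by
  rw [Sx, if_neg (Γ.src_ne' h), if_pos h]; rfl
theorem Sx_ne {s : I} {e : E} (h : Γ.src e ≠ s) (h' : Γ.tgt e ≠ s) (p : (E → X.V) × X.V) : X.Sx s e p = (0, X.x e p.2) := by
  rw [Sx, if_neg h, if_neg h']; rfl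
theorem Sτ_self (s : I) (p : (E → X.V) × X.V) : X.Sτ s s p = (0, X.ev s p) := by
  rw [Sτ, if_pos rfl]; rfl
theorem Sτ_ne {s i : I} (h : i ≠ s) (p : (E → X.V) × X.V) : X.Sτ s i p = (0, X.τ i p.2) := by
  rw [Sτ, if_neg h]; rfl

theorem ev_Sd {s : I} (hs : s ∈ Γ.J) (p : (E → X.V) × X.V) : X.ev s (X.Sd s s p) = X.d s (X.ev s p) := by
  simp only [Sd_self, ev_apply, map_add, d_inn, X.dτ hs, add_assoc]

theorem ev_mem {s : I} {n a : ℤ} {p : (E → X.V) × X.V} (h1 : p.1 ∈ X.degB s n (a - 1)) (h2 : p.2 ∈ X.deg s (n + 1) (a - 2)) :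
    X.ev s p ∈ X.deg s n a := add_mem (X.cast (X.inn_mem h1)) (X.cast (X.τ_mem h2))

theorem inn_single {s : I} {e : E} (h : Γ.src e = s) (v : X.V) : X.inn s (Pi.single e v) = X.x (Γ.bar e) v := by
  rw [inn_apply, Finset.sum_eq_single e (fun b _ hb => by simp [hb]) (by simp [h]), Pi.single_eq_same]

theorem single_mem {s : I} {e : E} (h : Γ.src e = s) {n a : ℤ} {v : X.V} (hv : v ∈ X.deg (Γ.tgt e) n a) :
    (Pi.single e v : E → X.V) ∈ X.degB s n a := by
  rw [mem_degB]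
  refine ⟨fun e' _ => ?_, fun e' he' => Pi.single_eq_of_ne (by rintro rfl; exact he' h) _⟩
  by_cases h' : e' = e
  · subst h'
    rwa [Pi.single_eq_same]
  · rw [Pi.single_eq_of_ne h']
    exact zero_mem _

theorem dB_single (e : E) (v : X.V) : X.dB (Pi.single e v) = Pi.single e (X.d (Γ.tgt e) v) := by
  ext e'
  by_cases h' : e' = e
  · subst h'
    simp
  · simp [h']

theorem sum_single_out (s : I) (v : X.V) : ∑ e ∈ Γ.O s, (Pi.single e (X.x e v) : E → X.V) = X.out s v := by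
  ext e
  rw [Finset.sum_apply, out_apply]
  simp [Pi.single_apply]

/-- the down-move at the unframed vertex `s` -/
@[reducible] def S (s : Γ.J) : DG Γ where
  V := (E → X.V) × X.V
  deg i n a := X.degT s i n a n (a - 1) (n + 1) (a - 2)
  d := X.Sd s
  x := X.Sx s
  τ := X.Sτ s
  d_mem {i n a p} h := by
    by_cases hi : i = s
    · subst hi
      rw [mem_degT_self] at h ⊢
      rw [Sd_self]
      exact ⟨add_mem (X.dB_mem h.1) (X.castB (X.out_mem h.2)), X.d_mem h.2⟩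
    · rw [X.mem_degT_ne hi] at h ⊢
      rw [X.Sd_ne hi]
      exact ⟨rfl, X.d_mem h.2⟩
  x_mem {e n a p} h := by
    by_cases h1 : Γ.src e = s
    · rw [h1, mem_degT_self] at h
      rw [X.mem_degT_ne (Γ.tgt_ne' h1), X.Sx_src h1]
      exact ⟨rfl, X.x_mem' h1 rfl (X.ev_mem h.1 h.2)⟩
    · rw [X.mem_degT_ne h1] at h
      by_cases h2 : Γ.tgt e = s
      · rw [h2, mem_degT_self, X.Sx_tgt h2]
        exact ⟨X.single_mem (e := Γ.bar e) h2 (by simpa using h.2), zero_mem _⟩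
      · rw [X.mem_degT_ne h2, X.Sx_ne h1 h2]
        exact ⟨rfl, X.x_mem h.2⟩
  τ_mem {i n a p} h := by
    by_cases hi : i = s
    · subst hi
      rw [mem_degT_self] at h ⊢
      rw [Sτ_self]
      exact ⟨zero_mem _, X.cast (X.ev_mem h.1 h.2)⟩
    · rw [X.mem_degT_ne hi] at h ⊢
      rw [X.Sτ_ne hi]
      exact ⟨rfl, X.τ_mem h.2⟩
  dd i p := by
    by_cases hi : i = s
    · subst hi
      simp only [Sd_self, dB_dB, map_add, dB_out, X.dd, zero_add, add_self', Prod.mk_eq_zero, and_self]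
    · simp only [X.Sd_ne hi, X.dd, Prod.mk_eq_zero, and_self]
  dx e p := by
    by_cases h1 : Γ.src e = s
    · rw [X.Sx_src h1, X.Sx_src h1, X.Sd_ne (Γ.tgt_ne' h1), h1, X.ev_Sd s.2, X.dx' h1 rfl]
    · by_cases h2 : Γ.tgt e = s
      · rw [X.Sx_tgt h2, X.Sx_tgt h2, X.Sd_ne h1, h2, Sd_self]
        simp [dB_single]
      · rw [X.Sx_ne h1 h2, X.Sx_ne h1 h2, X.Sd_ne h1, X.Sd_ne h2, X.dx]
  rel i hi p := by
    by_cases his : i = s
    · subst his
      rw [Finset.sum_congr rfl fun e he => by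
        rw [X.Sx_src (Γ.mem_O.1 he), X.Sx_tgt (by simpa using he), Γ.bar_bar], sum_pair, sum_single_out]
      simp only [Sτ_self, X.ev_Sd hi]
      simp [Sd_self, add_self']
    · rw [Finset.sum_congr rfl (g := fun e => (0, X.x (Γ.bar e) (X.x e p.2))) fun e he => ?_, sum_pair, ← X.rel i hi]
      · simp [X.Sd_ne his, X.Sτ_ne his]
      · have h1 : Γ.src e ≠ s := by rwa [Γ.mem_O.1 he]
        by_cases h2 : Γ.tgt e = s
        · rw [X.Sx_tgt h2, X.Sx_src (e := Γ.bar e) h2, ev_apply, X.inn_single (e := Γ.bar e) h2]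
          simp
        · rw [X.Sx_ne h1 h2, X.Sx_ne (e := Γ.bar e) h2 (by simpa using h1)]
  bdd := by
    obtain ⟨N, hN⟩ := X.bdd
    refine ⟨N + 2, fun i n a p h h' => ?_⟩
    by_cases hi : i = s
    · subst hi
      rw [mem_degT_self] at h
      exact Prod.ext (X.bddB hN h.1 (by grind)) (hN _ _ _ _ h.2 (by grind))
    · rw [X.mem_degT_ne hi] at h
      exact Prod.ext h.1 (hN _ _ _ _ h.2 (by grind))

end DG

end Crest.Agent.R175.Mod
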