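import Crest.Agent.R175.Mod.PDG

/-! # R175/Mod/Dg.  Every `PDG` is isomorphic (on the graded pieces) to a `DG`; weak quasi-isomorphisms. -/

set_option autoImplicit false
noncomputable section
open Classical

namespace Crest.Agent.R175.Mod

variable {I E : Type} [Fintype E] {Γ : Gr I E}

namespace Dg

variable (X : PDG Γ)

theorem exists_pr (i : I) (n a : ℤ) : ∃ π : X.V →ₗ[K] X.V, (∀ v, π v ∈ X.deg i n a) ∧ ∀ v ∈ X.deg i n a, π v = v := by
  obtain ⟨q, hq⟩ := Submodule.exists_isCompl (X.deg i n a)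
  exact ⟨(X.deg i n a).subtype ∘ₗ (X.deg i n a).projectionOnto q hq, fun v => Subtype.prop _,
    fun v hv => congrArg Subtype.val (Submodule.projectionOnto_apply_left hq ⟨v, hv⟩)⟩

/-- projection onto a graded piece -/
def pr (i : I) (n a : ℤ) : X.V →ₗ[K] X.V := (exists_pr X i n a).choose

theorem pr_mem (i : I) (n a : ℤ) (v : X.V) : pr X i n a v ∈ X.deg i n a := (exists_pr X i n a).choose_spec.1 v

theorem pr_of {i : I} {n a : ℤ} {v : X.V} (h : v ∈ X.deg i n a) : pr X i n a v = v := (exists_pr X i n a).choose_spec.2 v h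

/-- the ambient space -/
def Amb : Submodule K (ℤ × ℤ → X.V) where
  carrier := {w | ∀ p, X.bdd.choose < |p.1| ∨ X.bdd.choose < |p.2| → w p = 0}
  add_mem' h1 h2 p hp := by rw [Pi.add_apply, h1 p hp, h2 p hp, add_zero]
  zero_mem' _ _ := rfl
  smul_mem' c _ h p hp := by rw [Pi.smul_apply, h p hp, smul_zero]

instance : Finite (Amb X) := by
  refine Finite.of_injective (fun (w : Amb X) (p : Set.Icc (-X.bdd.choose) X.bdd.choose ×ˢ Set.Icc (-X.bdd.choose) X.bdd.choose) =>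
    w.1 p.1) fun w w' h => Subtype.ext (funext fun p => ?_)
  by_cases hp : X.bdd.choose < |p.1| ∨ X.bdd.choose < |p.2|
  · rw [w.2 p hp, w'.2 p hp]
  · rw [not_or, not_lt, not_lt, abs_le, abs_le] at hp
    exact congrFun h ⟨p, hp⟩

/-- the graded pieces -/
def dg (i : I) (n a : ℤ) : Submodule K (Amb X) where
  carrier := {w | w.1 (n, a) ∈ X.deg i n a ∧ ∀ p, p ≠ (n, a) → w.1 p = 0}
  add_mem' h1 h2 := ⟨add_mem h1.1 h2.1, fun p hp => by rw [Submodule.coe_add, Pi.add_apply, h1.2 p hp, h2.2 p hp, add_zero]⟩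
  zero_mem' := ⟨zero_mem _, fun _ _ => rfl⟩
  smul_mem' c _ h := ⟨Submodule.smul_mem _ c h.1, fun p hp => by rw [Submodule.coe_smul, Pi.smul_apply, h.2 p hp, smul_zero]⟩

/-- the operator on the ambient space -/
def op (i j : I) (α β : ℤ) (g : ℤ → ℤ → X.V →ₗ[K] X.V)
    (hg : ∀ {n a v}, v ∈ X.deg i n a → g n a v ∈ X.deg j (n + α) (a + β)) : Amb X →ₗ[K] Amb X :=
  LinearMap.codRestrict _ (LinearMap.pi fun p : ℤ × ℤ => g (p.1 - α) (p.2 - β) ∘ₗ pr X i (p.1 - α) (p.2 - β) ∘ₗ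
    LinearMap.proj (p.1 - α, p.2 - β) ∘ₗ (Amb X).subtype) fun _ p hp =>
      X.bdd.choose_spec j p.1 p.2 _ (X.cast (hg (pr_mem X _ _ _ _))) hp

variable {X} {i j : I} {α β : ℤ} {g : ℤ → ℤ → X.V →ₗ[K] X.V}
  {hg : ∀ {n a v}, v ∈ X.deg i n a → g n a v ∈ X.deg j (n + α) (a + β)}

theorem op_apply (w : Amb X) (n a n' a' : ℤ) (hn : n' = n + α := by omega) (ha : a' = a + β := by omega) :
    (op X i j α β g hg w).1 (n', a') = g n a (pr X i n a (w.1 (n, a))) := by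
  subst hn ha
  show g (n + α - α) (a + β - β) (pr X i (n + α - α) (a + β - β) (w.1 (n + α - α, a + β - β))) = _
  rw [add_sub_cancel_right, add_sub_cancel_right]

theorem op_mem {n a n' a' : ℤ} {w : Amb X} (h : w ∈ dg X i n a) (hn : n' = n + α := by omega) (ha : a' = a + β := by omega) :
    op X i j α β g hg w ∈ dg X j n' a' := by
  refine ⟨by rw [op_apply w n a n' a']; exact X.cast (hg (pr_mem X _ _ _ _)), fun p hp => ?_⟩
  rw [op_apply w (p.1 - α) (p.2 - β) p.1 p.2, h.2 _ fun h' => hp ?_, map_zero, map_zero]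
  rw [Prod.mk.injEq] at h'
  exact Prod.ext (by omega) (by omega)

theorem dg_ext {n a : ℤ} {w w' : Amb X} (h : w ∈ dg X i n a) (h' : w' ∈ dg X i n a) (e : w.1 (n, a) = w'.1 (n, a)) : w = w' := by
  refine Subtype.ext (funext fun p => ?_)
  by_cases hp : p = (n, a)
  · rw [hp, e]
  · rw [h.2 p hp, h'.2 p hp]

variable (X)

/-- the strictification -/
@[reducible] def mk : DG Γ where
  V := Amb X
  deg := dg X
  d i := op X i i 1 0 (X.d i) fun h => X.cast (X.d_mem h)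
  x e := op X (Γ.src e) (Γ.tgt e) 0 1 (X.x e) fun h => X.cast (X.x_mem h)
  τ i := op X i i (-1) 2 (X.τ i) fun h => X.cast (X.τ_mem h)
  d_mem h := op_mem h
  x_mem h := op_mem h
  τ_mem h := op_mem h
  dd i w := by
    refine Subtype.ext (funext fun ⟨n, a⟩ => ?_)
    obtain ⟨k, rfl⟩ : ∃ k, n = k + 1 + 1 := ⟨n - 2, by omega⟩
    rw [op_apply _ (k + 1) a _ _, op_apply _ k a _ _, pr_of X (X.d_mem (pr_mem X _ _ _ _)), X.dd (pr_mem X _ _ _ _)]
    rfl
  dx e w := by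
    refine Subtype.ext (funext fun ⟨n, a⟩ => ?_)
    obtain ⟨k, rfl⟩ : ∃ k, n = k + 1 := ⟨n - 1, by omega⟩
    obtain ⟨b, rfl⟩ : ∃ b, a = b + 1 := ⟨a - 1, by omega⟩
    rw [op_apply _ k (b + 1) _ _, op_apply _ k b _ _, op_apply _ (k + 1) b _ _, op_apply _ k b _ _,
      pr_of X (X.x_mem (pr_mem X _ _ _ _)), pr_of X (X.d_mem (pr_mem X _ _ _ _)), X.dx (pr_mem X _ _ _ _)]
  rel i hi w := by
    refine Subtype.ext (funext fun ⟨n, a⟩ => ?_)
    obtain ⟨b, rfl⟩ : ∃ b, a = b + 2 := ⟨a - 2, by omega⟩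
    rw [Submodule.coe_add, Pi.add_apply, Submodule.coe_sum, Finset.sum_apply, op_apply _ (n - 1) (b + 2) _ _,
      op_apply _ n b _ _, op_apply _ (n + 1) b _ _, op_apply _ n b _ _, pr_of X (X.τ_mem (pr_mem X _ _ _ _)),
      pr_of X (X.d_mem (pr_mem X _ _ _ _)), X.rel hi (pr_mem X _ _ _ _)]
    refine Finset.sum_congr rfl fun e he => ?_
    rw [op_apply _ n (b + 1) _ _, op_apply _ n b _ _, Γ.src_bar, pr_of X (X.x_mem (pr_mem X _ _ _ _)), Γ.mem_O.1 he]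
  bdd := ⟨X.bdd.choose, fun i n a w h h' => dg_ext h (zero_mem _) (w.2 (n, a) h')⟩

theorem mk_d {i : I} {n a : ℤ} {w : Amb X} (h : w ∈ dg X i n a) : ((mk X).d i w).1 (n + 1, a) = X.d i n a (w.1 (n, a)) := by
  rw [op_apply _ n a _ _, pr_of X h.1]
  exact fun h => X.cast (X.d_mem h)

theorem mk_x {e : E} {n a : ℤ} {w : Amb X} (h : w ∈ dg X (Γ.src e) n a) :
    ((mk X).x e w).1 (n, a + 1) = X.x e n a (w.1 (n, a)) := by
  rw [op_apply _ n a _ _, pr_of X h.1]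
  exact fun h => X.cast (X.x_mem h)

theorem mk_τ {i : I} {n a : ℤ} {w : Amb X} (h : w ∈ dg X i n a) :
    ((mk X).τ i w).1 (n - 1, a + 2) = X.τ i n a (w.1 (n, a)) := by
  rw [op_apply _ n a _ _, pr_of X h.1]
  exact fun h => X.cast (X.τ_mem h)

/-- embedding of a graded piece -/
def emb (i : I) (n a : ℤ) : X.V →ₗ[K] Amb X :=
  LinearMap.codRestrict _ (LinearMap.single K (fun _ : ℤ × ℤ => X.V) (n, a) ∘ₗ pr X i n a) fun v p hp => by
    by_cases h : p = (n, a)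
    · subst h
      exact (Pi.single_eq_same _ _).trans (X.bdd.choose_spec i n a _ (pr_mem X _ _ _ _) hp)
    · exact Pi.single_eq_of_ne h _

theorem emb_apply {i : I} {n a : ℤ} {v : X.V} (h : v ∈ X.deg i n a) : (emb X i n a v).1 (n, a) = v :=
  (Pi.single_eq_same _ _).trans (pr_of X h)

theorem emb_mem {i : I} {n a : ℤ} {v : X.V} (h : v ∈ X.deg i n a) : emb X i n a v ∈ dg X i n a :=
  ⟨by rw [emb_apply X h]; exact h, fun _ hp => Pi.single_eq_of_ne hp _⟩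

/-- to the strictification -/
def to_ : Hom X (mk X).p where
  f := emb X
  mem := emb_mem X
  d h := dg_ext (emb_mem X (X.d_mem h)) ((mk X).d_mem (emb_mem X h)) (by
    rw [emb_apply X (X.d_mem h), mk_d X (emb_mem X h), emb_apply X h])
  x h := dg_ext (emb_mem X (X.x_mem h)) ((mk X).x_mem (emb_mem X h)) (by
    rw [emb_apply X (X.x_mem h), mk_x X (emb_mem X h), emb_apply X h])
  τ _ h := dg_ext (emb_mem X (X.τ_mem h)) ((mk X).τ_mem (emb_mem X h)) (by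
    rw [emb_apply X (X.τ_mem h), mk_τ X (emb_mem X h), emb_apply X h])

/-- from the strictification -/
def from_ : Hom (mk X).p X where
  f _ n a := LinearMap.proj (n, a) ∘ₗ (Amb X).subtype
  mem h := h.1
  d h := mk_d X h
  x h := mk_x X h
  τ _ h := mk_τ X h

end Dg

/-- leaf Dg.  `N` from `bdd`, `box = Icc (-N) N ×ˢ Icc (-N) N`, ambient `box → X.V`, `emb (n,a)` = `Pi.single` (zero outside the box),
`pr (n,a)` = evaluation, `π i n a` = a linear projection of `X.V` onto `X.deg i n a` (`Submodule.exists_isCompl`);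
`deg' i n a = (deg i n a).map (emb (n,a))`, `d' i = ∑ p ∈ box, emb (n+1,a) ∘ d i n a ∘ π i n a ∘ pr (n,a)`, same for `x`, `τ`.
Key: `d' i (emb (n,a) y) = emb (n+1,a) (d i n a y)` for `y ∈ deg i n a`, and `d' i w = ∑ p, d' i (emb p (π (pr p w)))`. -/
theorem exists_dg (X : PDG Γ) : ∃ (Y : DG Γ) (φ : Hom X Y.p) (ψ : Hom Y.p X),
    (∀ i n a, ∀ v ∈ X.deg i n a, ψ.f i n a (φ.f i n a v) = v) ∧ ∀ i n a, ∀ w ∈ Y.deg i n a, φ.f i n a (ψ.f i n a w) = w := by
  exact ⟨Dg.mk X, Dg.to_ X, Dg.from_ X, fun _ _ _ _ h => Dg.emb_apply X h,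
    fun _ _ _ _ h => Dg.dg_ext (Dg.emb_mem X h.1) h (Dg.emb_apply X h.1)⟩

theorem qiat_of_iso {X Y : PDG Γ} (φ : Hom X Y) (ψ : Hom Y X) (h1 : ∀ i n a, ∀ v ∈ X.deg i n a, ψ.f i n a (φ.f i n a v) = v)
    (h2 : ∀ i n a, ∀ w ∈ Y.deg i n a, φ.f i n a (ψ.f i n a w) = w) (i : I) (a : ℤ) : QIat φ.f i a :=
  qiat_of_inv (fun n => ψ.f i n a) (fun _ _ h => ψ.mem h) (fun _ _ h => ψ.d h) (fun _ => map_zero _) (fun n => h1 i n a)
    (fun n => h2 i n a)

theorem exists_rep (x : Obj Γ) : ∃ X : DG Γ, X.p.cl = x := by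
  obtain ⟨X, rfl⟩ := Quot.exists_rep x
  obtain ⟨Y, φ, ψ, h1, h2⟩ := exists_dg X
  exact ⟨Y, (cl_eq_of_hom φ (qiat_of_iso φ ψ h1 h2)).symm⟩

end Crest.Agent.R175.Mod
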