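import Crest.Agent.R175.Mod.Dg

/-! # R175/Mod/Fun (owner helper48).  Functoriality of the moves, the maps `η`, `ε`, the action on classes. -/

set_option autoImplicit false
noncomputable section
open Classical

namespace Crest.Agent.R175.Mod

variable {I E : Type} [Fintype E] {Γ : Gr I E} {X Y : DG Γ}

theorem DG.T_mem_self (X : DG Γ) (s : Γ.J) {n a : ℤ} {p : (E → X.V) × X.V} :
    p ∈ (X.T s).deg s n a ↔ p.1 ∈ X.degB s n (a + 1) ∧ p.2 ∈ X.deg s (n - 1) (a + 2) := X.mem_degT_self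
theorem DG.T_mem_ne (X : DG Γ) (s : Γ.J) {i : I} (h : i ≠ s) {n a : ℤ} {p : (E → X.V) × X.V} :
    p ∈ (X.T s).deg i n a ↔ p.1 = 0 ∧ p.2 ∈ X.deg i n a := X.mem_degT_ne h
theorem DG.S_mem_self (X : DG Γ) (s : Γ.J) {n a : ℤ} {p : (E → X.V) × X.V} :
    p ∈ (X.S s).deg s n a ↔ p.1 ∈ X.degB s n (a - 1) ∧ p.2 ∈ X.deg s (n + 1) (a - 2) := X.mem_degT_self
theorem DG.S_mem_ne (X : DG Γ) (s : Γ.J) {i : I} (h : i ≠ s) {n a : ℤ} {p : (E → X.V) × X.V} :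
    p ∈ (X.S s).deg i n a ↔ p.1 = 0 ∧ p.2 ∈ X.deg i n a := X.mem_degT_ne h

namespace Hom

/-- the map on the neighbours -/
def fB (φ : Hom X.p Y.p) (n a : ℤ) : (E → X.V) →ₗ[K] (E → Y.V) := LinearMap.pi fun e => φ.f (Γ.tgt e) n a ∘ₗ LinearMap.proj e

@[simp] theorem fB_apply (φ : Hom X.p Y.p) (n a : ℤ) (b : E → X.V) (e : E) : φ.fB n a b e = φ.f (Γ.tgt e) n a (b e) := rfl

theorem x' (φ : Hom X.p Y.p) {e : E} {i j : I} (hi : Γ.src e = i) (hj : Γ.tgt e = j) {n a a' : ℤ} {v : X.V} (h : v ∈ X.deg i n a)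
    (ha : a' = a + 1 := by omega) : φ.f j n a' (X.x e v) = Y.x e (φ.f i n a v) := by
  subst hi hj ha
  exact φ.x h

theorem d' (φ : Hom X.p Y.p) {i : I} {n n' a : ℤ} {v : X.V} (h : v ∈ X.deg i n a)
    (hn : n' = n + 1 := by omega) : φ.f i n' a (X.d i v) = Y.d i (φ.f i n a v) := by
  subst hn
  exact φ.d h

theorem τ' (φ : Hom X.p Y.p) {i : I} (hi : i ∈ Γ.J) {n n' a a' : ℤ} {v : X.V} (h : v ∈ X.deg i n a)
    (hn : n' = n - 1 := by omega) (ha : a' = a + 2 := by omega) : φ.f i n' a' (X.τ i v) = Y.τ i (φ.f i n a v) := by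
  subst hn ha
  exact φ.τ hi h

theorem fB_mem (φ : Hom X.p Y.p) {s : I} {n a : ℤ} {b : E → X.V} (h : b ∈ X.degB s n a) : φ.fB n a b ∈ Y.degB s n a := by
  rw [DG.mem_degB] at h ⊢
  exact ⟨fun e he => φ.mem (h.1 e he), fun e he => by simp [h.2 e he]⟩

theorem fB_dB (φ : Hom X.p Y.p) {s : I} {n a : ℤ} {b : E → X.V} (h : b ∈ X.degB s n a) :
    φ.fB (n + 1) a (X.dB b) = Y.dB (φ.fB n a b) := by
  rw [DG.mem_degB] at h
  ext e
  by_cases he : Γ.src e = s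
  · exact φ.d (h.1 e he)
  · simp [h.2 e he]

theorem f_inn (φ : Hom X.p Y.p) {s : I} {n a a' : ℤ} {b : E → X.V} (h : b ∈ X.degB s n a) (ha : a' = a + 1 := by omega) :
    φ.f s n a' (X.inn s b) = Y.inn s (φ.fB n a b) := by
  rw [DG.mem_degB] at h
  rw [DG.inn_apply, DG.inn_apply, map_sum]
  exact Finset.sum_congr rfl fun e he => φ.x' rfl (by simpa using he) (h.1 e (by simpa using he)) ha

theorem fB_out (φ : Hom X.p Y.p) {s : I} {n a a' : ℤ} {v : X.V} (h : v ∈ X.deg s n a) (ha : a' = a + 1 := by omega) :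
    φ.fB n a' (X.out s v) = Y.out s (φ.f s n a v) := by
  ext e
  rw [fB_apply, DG.out_apply, DG.out_apply]
  split_ifs with he
  · exact φ.x' he rfl h ha
  · exact map_zero _

/-- the map on `(b, v)` with the indices `(n₁, a₁)`, `(n₂, a₂)` at `s` -/
def fT (φ : Hom X.p Y.p) (s i : I) (n a n₁ a₁ n₂ a₂ : ℤ) : (E → X.V) × X.V →ₗ[K] (E → Y.V) × Y.V :=
  if i = s then (φ.fB n₁ a₁).prodMap (φ.f s n₂ a₂) else (0 : (E → X.V) →ₗ[K] (E → Y.V)).prodMap (φ.f i n a)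

theorem fT_self (φ : Hom X.p Y.p) (s : I) (n a n₁ a₁ n₂ a₂ : ℤ) (p : (E → X.V) × X.V) :
    φ.fT s s n a n₁ a₁ n₂ a₂ p = (φ.fB n₁ a₁ p.1, φ.f s n₂ a₂ p.2) := by
  rw [fT, if_pos rfl]; rfl

theorem fT_ne (φ : Hom X.p Y.p) {s i : I} (h : i ≠ s) (n a n₁ a₁ n₂ a₂ : ℤ) (p : (E → X.V) × X.V) :
    φ.fT s i n a n₁ a₁ n₂ a₂ p = (0, φ.f i n a p.2) := by
  rw [fT, if_neg h]; rfl

/-- the up-move on morphisms -/
def T (φ : Hom X.p Y.p) (s : Γ.J) : Hom (X.T s).p (Y.T s).p where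
  f i n a := φ.fT s i n a n (a + 1) (n - 1) (a + 2)
  mem {i n a p} h := by
    by_cases hi : i = s
    · subst hi
      rw [DG.T_mem_self] at h ⊢
      rw [fT_self]
      exact ⟨φ.fB_mem h.1, φ.mem h.2⟩
    · rw [DG.T_mem_ne _ _ hi] at h ⊢
      rw [φ.fT_ne hi]
      exact ⟨rfl, φ.mem h.2⟩
  d {i n a p} h := by
    show φ.fT _ _ _ _ _ _ _ _ (X.Td s i p) = Y.Td s i (φ.fT _ _ _ _ _ _ _ _ p)
    by_cases hi : i = s
    · subst hi
      rw [DG.T_mem_self] at h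
      simp only [DG.Td_self, fT_self, map_add, φ.fB_dB h.1]
      rw [φ.f_inn (n := n + 1 - 1) (a := a + 1) (X.castB h.1), φ.d' h.2, add_sub_cancel_right]
    · rw [DG.T_mem_ne _ _ hi] at h
      simp only [DG.Td_ne _ hi, φ.fT_ne hi, φ.d' h.2 rfl]
  x {e n a p} h := by
    show φ.fT _ _ _ _ _ _ _ _ (X.Tx s e p) = Y.Tx s e (φ.fT _ _ _ _ _ _ _ _ p)
    by_cases h1 : Γ.src e = s
    · rw [X.Tx_src h1, Y.Tx_src h1, φ.fT_ne (Γ.tgt_ne' h1), h1, fT_self]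
      rfl
    · rw [DG.T_mem_ne _ _ h1] at h
      by_cases h2 : Γ.tgt e = s
      · have hx := X.x_mem' rfl h2 h.2
        rw [X.Tx_tgt h2, Y.Tx_tgt h2, φ.fT_ne h1, h2, fT_self, φ.fB_out hx, φ.τ' s.2 hx, φ.x' rfl h2 h.2]
      · rw [X.Tx_ne h1 h2, Y.Tx_ne h1 h2, φ.fT_ne h1, φ.fT_ne h2, φ.x' rfl rfl h.2]
  τ {i n a p} hJ h := by
    show φ.fT _ _ _ _ _ _ _ _ (X.Tτ s i p) = Y.Tτ s i (φ.fT _ _ _ _ _ _ _ _ p)
    by_cases hi : i = s
    · subst hi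
      rw [DG.T_mem_self] at h
      rw [DG.Tτ_self, DG.Tτ_self, fT_self, fT_self, φ.fB_out h.2, φ.τ' hJ h.2]
    · rw [DG.T_mem_ne _ _ hi] at h
      rw [DG.Tτ_ne _ hi, DG.Tτ_ne _ hi, φ.fT_ne hi, φ.fT_ne hi, φ.τ' hJ h.2]

theorem f_ev (φ : Hom X.p Y.p) {s : I} (hs : s ∈ Γ.J) {n a : ℤ} {p : (E → X.V) × X.V} (h1 : p.1 ∈ X.degB s n (a - 1))
    (h2 : p.2 ∈ X.deg s (n + 1) (a - 2)) : φ.f s n a (X.ev s p) = Y.ev s (φ.fB n (a - 1) p.1, φ.f s (n + 1) (a - 2) p.2) := by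
  rw [DG.ev_apply, DG.ev_apply, map_add, φ.f_inn h1, φ.τ' hs h2]

theorem fB_single (φ : Hom X.p Y.p) (n a : ℤ) (e : E) (v : X.V) :
    φ.fB n a (Pi.single e v) = Pi.single e (φ.f (Γ.tgt e) n a v) := by
  ext e'
  by_cases h : e' = e
  · subst h
    simp
  · simp [h]

/-- the down-move on morphisms -/
def S (φ : Hom X.p Y.p) (s : Γ.J) : Hom (X.S s).p (Y.S s).p where
  f i n a := φ.fT s i n a n (a - 1) (n + 1) (a - 2)
  mem {i n a p} h := by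
    by_cases hi : i = s
    · subst hi
      rw [DG.S_mem_self] at h ⊢
      rw [fT_self]
      exact ⟨φ.fB_mem h.1, φ.mem h.2⟩
    · rw [DG.S_mem_ne _ _ hi] at h ⊢
      rw [φ.fT_ne hi]
      exact ⟨rfl, φ.mem h.2⟩
  d {i n a p} h := by
    show φ.fT _ _ _ _ _ _ _ _ (X.Sd s i p) = Y.Sd s i (φ.fT _ _ _ _ _ _ _ _ p)
    by_cases hi : i = s
    · subst hi
      rw [DG.S_mem_self] at h
      simp only [DG.Sd_self, fT_self, map_add, φ.fB_dB h.1]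
      rw [φ.fB_out h.2, φ.d' h.2]
    · rw [DG.S_mem_ne _ _ hi] at h
      simp only [DG.Sd_ne _ hi, φ.fT_ne hi, φ.d' h.2 rfl]
  x {e n a p} h := by
    show φ.fT _ _ _ _ _ _ _ _ (X.Sx s e p) = Y.Sx s e (φ.fT _ _ _ _ _ _ _ _ p)
    by_cases h1 : Γ.src e = s
    · rw [h1, DG.S_mem_self] at h
      rw [X.Sx_src h1, Y.Sx_src h1, φ.fT_ne (Γ.tgt_ne' h1), h1, fT_self, φ.x' h1 rfl (X.ev_mem h.1 h.2), φ.f_ev s.2 h.1 h.2]
    · rw [DG.S_mem_ne _ _ h1] at h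
      by_cases h2 : Γ.tgt e = s
      · rw [X.Sx_tgt h2, Y.Sx_tgt h2, φ.fT_ne h1, h2, fT_self, fB_single, Γ.tgt_bar, map_zero, add_sub_cancel_right]
      · rw [X.Sx_ne h1 h2, Y.Sx_ne h1 h2, φ.fT_ne h1, φ.fT_ne h2, φ.x' rfl rfl h.2]
  τ {i n a p} hJ h := by
    show φ.fT _ _ _ _ _ _ _ _ (X.Sτ s i p) = Y.Sτ s i (φ.fT _ _ _ _ _ _ _ _ p)
    by_cases hi : i = s
    · subst hi
      rw [DG.S_mem_self] at h
      rw [DG.Sτ_self, DG.Sτ_self, fT_self, fT_self, map_zero, sub_add_cancel, add_sub_cancel_right, φ.f_ev hJ h.1 h.2]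
    · rw [DG.S_mem_ne _ _ hi] at h
      rw [DG.Sτ_ne _ hi, DG.Sτ_ne _ hi, φ.fT_ne hi, φ.fT_ne hi, φ.τ' hJ h.2]

theorem T_f_self (φ : Hom X.p Y.p) (s : Γ.J) (n a : ℤ) (p : (E → X.V) × X.V) :
    (φ.T s).f s n a p = (φ.fB n (a + 1) p.1, φ.f s (n - 1) (a + 2) p.2) := φ.fT_self ..
theorem T_f_ne (φ : Hom X.p Y.p) (s : Γ.J) {i : I} (h : i ≠ s) (n a : ℤ) (p : (E → X.V) × X.V) :
    (φ.T s).f i n a p = (0, φ.f i n a p.2) := φ.fT_ne h ..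
theorem S_f_self (φ : Hom X.p Y.p) (s : Γ.J) (n a : ℤ) (p : (E → X.V) × X.V) :
    (φ.S s).f s n a p = (φ.fB n (a - 1) p.1, φ.f s (n + 1) (a - 2) p.2) := φ.fT_self ..
theorem S_f_ne (φ : Hom X.p Y.p) (s : Γ.J) {i : I} (h : i ≠ s) (n a : ℤ) (p : (E → X.V) × X.V) :
    (φ.S s).f i n a p = (0, φ.f i n a p.2) := φ.fT_ne h ..

end Hom

namespace DG

/-- `η : X → T X`, `v ↦ (out v, τ v)` at `s`, `v ↦ (0, v)` elsewhere -/
def η (X : DG Γ) (s : Γ.J) : Hom X.p (X.T s).p where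
  f i _ _ := if i = s then (X.out s).prod (X.τ s) else LinearMap.inr K _ _
  mem {i n a v} h := by
    by_cases hi : i = s
    · subst hi
      rw [if_pos rfl, T_mem_self]
      exact ⟨X.out_mem h, X.τ_mem h⟩
    · rw [if_neg hi, T_mem_ne _ _ hi]
      exact ⟨rfl, h⟩
  d {i n a v} _ := by
    show _ = X.Td s i _
    by_cases hi : i = s
    · subst hi
      simp [Td_self, dB_out, X.dτ s.2, add_add_self]
    · simp [hi, X.Td_ne hi]
  x {e n a v} _ := by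
    show _ = X.Tx s e _
    by_cases h1 : Γ.src e = s
    · simp [h1, Γ.tgt_ne' h1, X.Tx_src h1, X.out_apply_of h1]
    · by_cases h2 : Γ.tgt e = s
      · simp [h1, h2, X.Tx_tgt h2]
      · simp [h1, h2, X.Tx_ne h1 h2]
  τ {i n a v} _ _ := by
    show _ = X.Tτ s i _
    by_cases hi : i = s
    · subst hi
      simp [Tτ_self]
    · simp [hi, X.Tτ_ne hi]

theorem η_self (X : DG Γ) (s : Γ.J) (n a : ℤ) (v : X.V) : (X.η s).f s n a v = (X.out s v, X.τ s v) := by simp [η]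
theorem η_ne (X : DG Γ) (s : Γ.J) {i : I} (h : i ≠ s) (n a : ℤ) (v : X.V) : (X.η s).f i n a v = (0, v) := by simp [η, h]

/-- `ε : S X → X`, `(b, v) ↦ inn b + τ v` at `s`, `(b, v) ↦ v` elsewhere -/
def ε (X : DG Γ) (s : Γ.J) : Hom (X.S s).p X.p where
  f i _ _ := if i = s then X.ev s else LinearMap.snd K _ _
  mem {i n a p} h := by
    by_cases hi : i = s
    · subst hi
      rw [if_pos rfl]
      rw [S_mem_self] at h
      exact X.ev_mem h.1 h.2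
    · rw [if_neg hi]
      exact ((S_mem_ne _ _ hi).1 h).2
  d {i n a p} _ := by
    by_cases hi : i = s
    · subst hi
      simp [X.ev_Sd s.2]
    · simp [hi, X.Sd_ne hi]
  x {e n a p} _ := by
    by_cases h1 : Γ.src e = s
    · simp [h1, Γ.tgt_ne' h1, X.Sx_src h1]
    · by_cases h2 : Γ.tgt e = s
      · simp [h1, h2, X.Sx_tgt h2, ev_apply, X.inn_single (e := Γ.bar e) h2]
      · simp [h1, h2, X.Sx_ne h1 h2]
  τ {i n a p} _ _ := by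
    by_cases hi : i = s
    · subst hi
      simp [Sτ_self, ev_apply]
    · simp [hi, X.Sτ_ne hi]

theorem ε_self (X : DG Γ) (s : Γ.J) (n a : ℤ) (p : (E → X.V) × X.V) : (X.ε s).f s n a p = X.inn s p.1 + X.τ s p.2 := by
  simp [ε, ev_apply]
theorem ε_ne (X : DG Γ) (s : Γ.J) {i : I} (h : i ≠ s) (n a : ℤ) (p : (E → X.V) × X.V) : (X.ε s).f i n a p = p.2 := by simp [ε, h]

theorem qiat_η_ne (X : DG Γ) (s : Γ.J) {i : I} (h : i ≠ s) (a : ℤ) : QIat (X.η s).f i a :=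
  qiat_of_inv (fun _ p => p.2) (fun _ _ hp => ((X.T_mem_ne s h).1 hp).2) (fun _ p _ => congrArg Prod.snd (X.Td_ne h p)) (fun _ => rfl)
    (fun n v _ => by rw [X.η_ne s h]) (fun n p hp => by rw [X.η_ne s h]; exact Prod.ext ((X.T_mem_ne s h).1 hp).1.symm rfl)

theorem qiat_ε_ne (X : DG Γ) (s : Γ.J) {i : I} (h : i ≠ s) (a : ℤ) : QIat (X.ε s).f i a :=
  qiat_of_inv (fun _ v => ((0, v) : (E → X.V) × X.V)) (fun _ _ hv => (X.S_mem_ne s h).2 ⟨rfl, hv⟩)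
    (fun _ v _ => (X.Sd_ne h (0, v)).symm) (fun _ => rfl)
    (fun n p hp => by rw [X.ε_ne s h]; exact Prod.ext ((X.S_mem_ne s h).1 hp).1.symm rfl) (fun n v _ => by rw [X.ε_ne s h])

end DG

end Crest.Agent.R175.Mod
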