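import Crest.Agent.R175.Mod.Defs

/-! # R175/Mod/K0 (helper98): vanishing of bigraded cohomology and the moves -/

set_option autoImplicit false
noncomputable section
open Classical

namespace Crest.Agent.R175.Mod


variable {I E : Type} [Fintype E] {Γ : Gr I E}

namespace DG
variable (X : DG Γ)

/-- `H^{n,a}(X_i) = 0` -/
def Hz (i : I) (n a : ℤ) : Prop :=
  ∀ v ∈ X.deg i n a, X.d i v = 0 → ∃ w ∈ X.deg i (n - 1) a, X.d i w = v

/-- `H^{n,a}(B_s) = 0` -/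
def HzB (s : I) (n a : ℤ) : Prop := ∀ e, Γ.src e = s → X.Hz (Γ.tgt e) n a

theorem Hz.cast {X : DG Γ} {i : I} {n a n' a' : ℤ} (h : X.Hz i n a) (hn : n = n' := by omega)
    (ha : a = a' := by omega) : X.Hz i n' a' := hn ▸ ha ▸ h

theorem HzB.ex {X : DG Γ} {s : I} {n a : ℤ} (h : X.HzB s n a) {b : E → X.V} (hb : b ∈ X.degB s n a)
    (hd : X.dB b = 0) : ∃ b' ∈ X.degB s (n - 1) a, X.dB b' = b := by
  rw [mem_degB] at hb
  have : ∀ e, ∃ w, (Γ.src e = s → w ∈ X.deg (Γ.tgt e) (n - 1) a) ∧ (Γ.src e ≠ s → w = 0) ∧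
      X.d (Γ.tgt e) w = b e := by
    intro e
    by_cases he : Γ.src e = s
    · obtain ⟨w, hw, hw'⟩ := h e he (b e) (hb.1 e he) (congrFun hd e)
      exact ⟨w, fun _ => hw, fun h' => absurd he h', hw'⟩
    · exact ⟨0, fun h' => absurd h' he, fun _ => rfl, by rw [map_zero, hb.2 e he]⟩
  choose w hw using this
  exact ⟨w, X.mem_degB.2 ⟨fun e => (hw e).1, fun e => (hw e).2.1⟩, funext fun e => (hw e).2.2⟩

theorem hz_of_bdd {N : ℤ} (hN : ∀ i n a v, v ∈ X.deg i n a → N < |n| ∨ N < |a| → v = 0) {i : I} {n a : ℤ}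
    (h : N < |n| ∨ N < |a|) : X.Hz i n a := fun v hv _ =>
  ⟨0, zero_mem _, by rw [map_zero, hN _ _ _ _ hv h]⟩

theorem hz_low {s j : I} (hj : j ≠ s) {Y : DG Γ} (ι : X.V → Y.V) (π : Y.V → X.V)
    (h1 : ∀ n a v, v ∈ X.deg j n a → ι v ∈ Y.deg j n a)
    (h2 : ∀ n a p, p ∈ Y.deg j n a → π p ∈ X.deg j n a ∧ ι (π p) = p)
    (h3 : ∀ v, π (ι v) = v) (h4 : ∀ v, Y.d j (ι v) = ι (X.d j v)) (h5 : ι 0 = 0) (n a : ℤ) :
    Y.Hz j n a ↔ X.Hz j n a := by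
  have _ := hj
  constructor
  · intro h v hv hd
    obtain ⟨w, hw, hw'⟩ := h (ι v) (h1 _ _ _ hv) (by rw [h4, hd, h5])
    refine ⟨π w, (h2 _ _ _ hw).1, ?_⟩
    rw [← (h2 _ _ _ hw).2, h4] at hw'
    rw [← h3 (X.d j (π w)), hw', h3]
  · intro h p hp hd
    obtain ⟨hp1, hp2⟩ := h2 _ _ _ hp
    rw [← hp2, h4] at hd
    obtain ⟨w, hw, hw'⟩ := h (π p) hp1 (by rw [← h3 (X.d j (π p)), hd, ← h5, h3])
    exact ⟨ι w, h1 _ _ _ hw, by rw [h4, hw', hp2]⟩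

theorem hz_T_ne (s : Γ.J) {j : I} (hj : j ≠ s) (n a : ℤ) : (X.T s).Hz j n a ↔ X.Hz j n a :=
  X.hz_low hj (Y := X.T s) (fun v => (0, v)) Prod.snd
    (fun _ _ _ hv => (X.mem_degT_ne hj).2 ⟨rfl, hv⟩)
    (fun _ _ _ hp => ⟨((X.mem_degT_ne hj).1 hp).2, Prod.ext ((X.mem_degT_ne hj).1 hp).1.symm rfl⟩)
    (fun _ => rfl) (fun _ => X.Td_ne hj _) rfl n a

theorem hz_S_ne (s : Γ.J) {j : I} (hj : j ≠ s) (n a : ℤ) : (X.S s).Hz j n a ↔ X.Hz j n a :=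
  X.hz_low hj (Y := X.S s) (fun v => (0, v)) Prod.snd
    (fun _ _ _ hv => (X.mem_degT_ne hj).2 ⟨rfl, hv⟩)
    (fun _ _ _ hp => ⟨((X.mem_degT_ne hj).1 hp).2, Prod.ext ((X.mem_degT_ne hj).1 hp).1.symm rfl⟩)
    (fun _ => rfl) (fun _ => X.Sd_ne hj _) rfl n a

theorem mem_T_self (s : Γ.J) {n a : ℤ} {p : (E → X.V) × X.V} :
    p ∈ (X.T s).deg s n a ↔ p.1 ∈ X.degB s n (a + 1) ∧ p.2 ∈ X.deg s (n - 1) (a + 2) := X.mem_degT_self

theorem mem_S_self (s : Γ.J) {n a : ℤ} {p : (E → X.V) × X.V} :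
    p ∈ (X.S s).deg s n a ↔ p.1 ∈ X.degB s n (a - 1) ∧ p.2 ∈ X.deg s (n + 1) (a - 2) := X.mem_degT_self

theorem T_d_self (s : Γ.J) (p : (E → X.V) × X.V) :
    (X.T s).d s p = (X.dB p.1, X.inn s p.1 + X.d s p.2) := X.Td_self s p

theorem S_d_self (s : Γ.J) (p : (E → X.V) × X.V) :
    (X.S s).d s p = (X.dB p.1 + X.out s p.2, X.d s p.2) := X.Sd_self s p

theorem hz_T_iff (s : Γ.J) {n a : ℤ} : (X.T s).Hz s n a ↔
    ∀ b ∈ X.degB s n (a + 1), ∀ v ∈ X.deg s (n - 1) (a + 2), X.dB b = 0 → X.inn s b + X.d s v = 0 →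
      ∃ b' ∈ X.degB s (n - 1) (a + 1), ∃ v' ∈ X.deg s (n - 2) (a + 2),
        X.dB b' = b ∧ X.inn s b' + X.d s v' = v := by
  constructor
  · intro h b hb v hv h1 h2
    obtain ⟨p, hp, h'⟩ := h (b, v) ((X.mem_T_self s).2 ⟨hb, hv⟩) ((X.T_d_self s _).trans (Prod.ext h1 h2))
    have h3 := (X.T_d_self s p).symm.trans h'
    obtain ⟨hb', hv'⟩ := (X.mem_T_self s).1 hp
    exact ⟨p.1, hb', p.2, X.cast hv', congrArg Prod.fst h3, congrArg Prod.snd h3⟩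
  · intro h p hp hd
    have h3 := (X.T_d_self s p).symm.trans hd
    obtain ⟨hb, hv⟩ := (X.mem_T_self s).1 hp
    obtain ⟨b', hb', v', hv', h1, h2⟩ := h p.1 hb p.2 hv (congrArg Prod.fst h3) (congrArg Prod.snd h3)
    exact ⟨(b', v'), (X.mem_T_self s).2 ⟨hb', X.cast hv'⟩, (X.T_d_self s _).trans (Prod.ext h1 h2)⟩

theorem hz_S_iff (s : Γ.J) {n a : ℤ} : (X.S s).Hz s n a ↔
    ∀ b ∈ X.degB s n (a - 1), ∀ v ∈ X.deg s (n + 1) (a - 2), X.dB b + X.out s v = 0 → X.d s v = 0 →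
      ∃ b' ∈ X.degB s (n - 1) (a - 1), ∃ v' ∈ X.deg s n (a - 2),
        X.dB b' + X.out s v' = b ∧ X.d s v' = v := by
  constructor
  · intro h b hb v hv h1 h2
    obtain ⟨p, hp, h'⟩ := h (b, v) ((X.mem_S_self s).2 ⟨hb, hv⟩) ((X.S_d_self s _).trans (Prod.ext h1 h2))
    have h3 := (X.S_d_self s p).symm.trans h'
    obtain ⟨hb', hv'⟩ := (X.mem_S_self s).1 hp
    exact ⟨p.1, hb', p.2, X.cast hv', congrArg Prod.fst h3, congrArg Prod.snd h3⟩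
  · intro h p hp hd
    have h3 := (X.S_d_self s p).symm.trans hd
    obtain ⟨hb, hv⟩ := (X.mem_S_self s).1 hp
    obtain ⟨b', hb', v', hv', h1, h2⟩ := h p.1 hb p.2 hv (congrArg Prod.fst h3) (congrArg Prod.snd h3)
    exact ⟨(b', v'), (X.mem_S_self s).2 ⟨hb', X.cast hv'⟩, (X.S_d_self s _).trans (Prod.ext h1 h2)⟩

/-- down moves keep upper bounds -/
theorem hz_S_self (s : Γ.J) {n a : ℤ} (hB : X.HzB s n (a - 1)) (hV : X.Hz s (n + 1) (a - 2)) :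
    (X.S s).Hz s n a := by
  rw [hz_S_iff]
  intro b hb v hv h1 h2
  obtain ⟨v', hv', rfl⟩ := hV v hv h2
  obtain ⟨b', hb', h'⟩ := hB.ex (b := b + X.out s v') (add_mem hb (X.castB (X.out_mem hv')))
    (by rw [map_add, dB_out]; exact h1)
  exact ⟨b', hb', v', X.cast hv', by rw [h', add_assoc, add_self', add_zero], rfl⟩

/-- up moves keep lower bounds -/
theorem hz_T_self (s : Γ.J) {n a : ℤ} (hB : X.HzB s n (a + 1)) (hV : X.Hz s (n - 1) (a + 2)) :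
    (X.T s).Hz s n a := by
  rw [hz_T_iff]
  intro b hb v hv h1 h2
  obtain ⟨b', hb', rfl⟩ := hB.ex hb h1
  obtain ⟨v', hv', h'⟩ := hV (X.inn s b' + v) (add_mem (X.cast (X.inn_mem hb')) hv)
    (by rw [map_add, d_inn]; exact h2)
  exact ⟨b', hb', v', X.cast hv', rfl, by rw [h', add_add_self]⟩

/-- a class of minimal Adams degree forbids the up move -/
theorem hz_of_T (s : Γ.J) {n a : ℤ} (hB : X.HzB s n (a - 1)) (hT : (X.T s).Hz s (n + 1) (a - 2)) :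
    X.Hz s n a := by
  intro v hv hd
  obtain ⟨b, hb, v', hv', h1, h2⟩ := (X.hz_T_iff s).1 hT 0 (zero_mem _) v (X.cast hv) (map_zero _)
    (by rw [map_zero, zero_add, hd])
  obtain ⟨b', hb', rfl⟩ := hB.ex (X.castB hb) h1
  exact ⟨X.inn s b' + v', add_mem (X.cast (X.inn_mem hb')) (X.cast hv'), by rw [map_add, d_inn]; exact h2⟩

end DG

end Crest.Agent.R175.Mod
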