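import Crest.Agent.R175.Mod.K0

/-! # R175/Mod/K1 (helper98): the three-term complexes `V_s → B_s → V_s` -/

set_option autoImplicit false
noncomputable section
open Classical

namespace Crest.Agent.R175.Mod

variable {I E : Type} [Fintype E] {Γ : Gr I E}

theorem sub2 {V : Type*} [AddCommGroup V] [Module K V] (v w : V) : v - w = v + w := by
  rw [sub_eq_iff_eq_add, add_assoc, add_self', add_zero]

theorem of_add {V : Type*} [AddCommGroup V] [Module K V] {v w : V} (h : v + w = 0) : v = w := eq_iff_add.2 h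

/-- normalisation of sums in characteristic two -/
macro "kc2" : tactic => `(tactic| simp only [sub2, map_add, map_zero, add_assoc, add_comm, add_left_comm, add_add_self,
  add_self', add_zero, zero_add])

namespace DG

/-- the total complex of `V_s^a → B_s^{a+1} → V_s^{a+2}` is acyclic -/
def Q3 (X : DG Γ) (s : I) (a : ℤ) : Prop :=
  ∀ n, ∀ u ∈ X.deg s (n + 1) a, ∀ b ∈ X.degB s n (a + 1), ∀ v ∈ X.deg s (n - 1) (a + 2),
    X.d s u = 0 → X.out s u + X.dB b = 0 → X.τ s u + X.inn s b + X.d s v = 0 →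
    ∃ u0 ∈ X.deg s n a, ∃ b0 ∈ X.degB s (n - 1) (a + 1), ∃ v0 ∈ X.deg s (n - 2) (a + 2),
      X.d s u0 = u ∧ X.out s u0 + X.dB b0 = b ∧ X.τ s u0 + X.inn s b0 + X.d s v0 = v

theorem Q3.cast {X : DG Γ} {s : I} {a a' : ℤ} (h : X.Q3 s a) (ha : a = a' := by omega) : X.Q3 s a' := ha ▸ h

/-- strict morphisms -/
structure LM (X Y : DG Γ) where
  f : I → X.V →ₗ[K] Y.V
  mem : ∀ {i n a v}, v ∈ X.deg i n a → f i v ∈ Y.deg i n a
  fd : ∀ i v, Y.d i (f i v) = f i (X.d i v)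
  fx : ∀ e v, Y.x e (f (Γ.src e) v) = f (Γ.tgt e) (X.x e v)
  fτ : ∀ i ∈ Γ.J, ∀ v, Y.τ i (f i v) = f i (X.τ i v)

namespace LM
variable {X Y : DG Γ} (φ : LM X Y)

/-- the cone is acyclic -/
def CA (i : I) (a : ℤ) : Prop :=
  ∀ n, ∀ v ∈ X.deg i (n + 1) a, ∀ w ∈ Y.deg i n a, X.d i v = 0 → φ.f i v + Y.d i w = 0 →
    ∃ v0 ∈ X.deg i n a, ∃ w0 ∈ Y.deg i (n - 1) a, X.d i v0 = v ∧ φ.f i v0 + Y.d i w0 = w

theorem CA.cast {φ : LM X Y} {i : I} {a a' : ℤ} (h : φ.CA i a) (ha : a = a' := by omega) : φ.CA i a' := ha ▸ h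

theorem CA.hz {φ : LM X Y} {i : I} {a : ℤ} (h : φ.CA i a) (n : ℤ) : X.Hz i n a ↔ Y.Hz i n a := by
  constructor
  · intro hX w hw hd
    obtain ⟨v0, hv0, w0, hw0, h1, h2⟩ := h n 0 (zero_mem _) w hw (map_zero _) (by rw [map_zero, zero_add, hd])
    obtain ⟨v1, hv1, rfl⟩ := hX v0 hv0 h1
    exact ⟨φ.f i v1 + w0, add_mem (φ.mem hv1) hw0, by rw [map_add, φ.fd, h2]⟩
  · intro hY v hv hd
    obtain ⟨w, hw, h'⟩ := hY (φ.f i v) (φ.mem hv) (by rw [φ.fd, hd, map_zero])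
    obtain ⟨v0, hv0, w0, -, h1, -⟩ := h (n - 1) v (X.cast hv) w hw hd (by rw [h', add_self'])
    exact ⟨v0, hv0, h1⟩

/-- the map on the neighbours -/
def fB : (E → X.V) →ₗ[K] (E → Y.V) := LinearMap.pi fun e => φ.f (Γ.tgt e) ∘ₗ LinearMap.proj e

theorem fB_apply (b : E → X.V) (e : E) : φ.fB b e = φ.f (Γ.tgt e) (b e) := rfl

theorem fB_mem {s : I} {n a : ℤ} {b : E → X.V} (h : b ∈ X.degB s n a) : φ.fB b ∈ Y.degB s n a := by
  rw [mem_degB] at h ⊢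
  exact ⟨fun e he => φ.mem (h.1 e he), fun e he => by rw [fB_apply, h.2 e he, map_zero]⟩

theorem dB_fB (b : E → X.V) : Y.dB (φ.fB b) = φ.fB (X.dB b) := funext fun _ => φ.fd _ _

theorem out_f (s : I) (v : X.V) : Y.out s (φ.f s v) = φ.fB (X.out s v) := by
  funext e
  rw [fB_apply, out_apply, out_apply]
  split_ifs with h
  · subst h; exact φ.fx e v
  · simp

theorem inn_fB (s : I) (b : E → X.V) : Y.inn s (φ.fB b) = φ.f s (X.inn s b) := by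
  rw [inn_apply, inn_apply, map_sum]
  refine Finset.sum_congr rfl fun e he => ?_
  have := φ.fx (Γ.bar e) (b e)
  rw [Γ.tgt_bar, Γ.mem_O.1 he] at this
  exact this

theorem exB {s : I} {a : ℤ} (h : ∀ e, Γ.src e = s → φ.CA (Γ.tgt e) a) (n : ℤ) {b : E → X.V}
    (hb : b ∈ X.degB s (n + 1) a) {β : E → Y.V} (hβ : β ∈ Y.degB s n a) (h1 : X.dB b = 0)
    (h2 : φ.fB b + Y.dB β = 0) : ∃ b0 ∈ X.degB s n a, ∃ β0 ∈ Y.degB s (n - 1) a,
      X.dB b0 = b ∧ φ.fB b0 + Y.dB β0 = β := by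
  rw [mem_degB] at hb hβ
  have : ∀ e, ∃ (v : X.V) (w : Y.V), (Γ.src e = s → v ∈ X.deg (Γ.tgt e) n a ∧ w ∈ Y.deg (Γ.tgt e) (n - 1) a) ∧
      (Γ.src e ≠ s → v = 0 ∧ w = 0) ∧ X.d (Γ.tgt e) v = b e ∧ φ.f (Γ.tgt e) v + Y.d (Γ.tgt e) w = β e := by
    intro e
    by_cases he : Γ.src e = s
    · obtain ⟨v, hv, w, hw, h3, h4⟩ := h e he n (b e) (hb.1 e he) (β e) (hβ.1 e he) (congrFun h1 e) (congrFun h2 e)
      exact ⟨v, w, fun _ => ⟨hv, hw⟩, fun h' => absurd he h', h3, h4⟩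
    · exact ⟨0, 0, fun h' => absurd h' he, fun _ => ⟨rfl, rfl⟩, by rw [map_zero, hb.2 e he],
        by rw [map_zero, map_zero, add_zero, hβ.2 e he]⟩
  choose v w hw using this
  exact ⟨v, X.mem_degB.2 ⟨fun e he => ((hw e).1 he).1, fun e he => ((hw e).2.1 he).1⟩,
    w, Y.mem_degB.2 ⟨fun e he => ((hw e).1 he).2, fun e he => ((hw e).2.1 he).2⟩,
    funext fun e => (hw e).2.2.1, funext fun e => (hw e).2.2.2⟩

theorem Q3_fwd {s : I} (hs : s ∈ Γ.J) {a : ℤ} (h0 : φ.CA s a) (h1 : ∀ e, Γ.src e = s → φ.CA (Γ.tgt e) (a + 1))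
    (h2 : φ.CA s (a + 2)) (hQ : X.Q3 s a) : Y.Q3 s a := by
  intro n u hu β hβ v hv e1 e2 e3
  obtain ⟨x, hx, y, hy, f1, rfl⟩ := h0 (n + 1) 0 (zero_mem _) u hu (map_zero _) (by rw [map_zero, zero_add, e1])
  have g2 : Y.dB β = φ.fB (X.out s x) + Y.out s (Y.d s y) := by rw [← of_add e2, map_add, φ.out_f]
  obtain ⟨b, hb, β2, hβ2, f2, f3⟩ := φ.exB h1 n (b := X.out s x) (X.out_mem hx) (β := β + Y.out s y)
    (add_mem hβ (Y.castB (Y.out_mem hy))) (by rw [dB_out, f1, map_zero]) (by rw [map_add, g2, dB_out]; kc2)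
  have g3 : β = φ.fB b + Y.dB β2 + Y.out s y := by rw [f3]; kc2
  subst g3
  have g4 : Y.d s v = φ.f s (X.τ s x) + Y.τ s (Y.d s y) + (φ.f s (X.inn s b) + Y.inn s (Y.dB β2) +
      Y.inn s (Y.out s y)) := by
    rw [← of_add e3, map_add, map_add, map_add, φ.fτ s hs, φ.inn_fB]
  obtain ⟨x', hx', v2, hv2, f4, f5⟩ := h2 (n - 1) (X.τ s x + X.inn s b)
    (add_mem (X.cast (X.τ_mem hx)) (X.cast (X.inn_mem hb))) (v + Y.τ s y + Y.inn s β2)
    (add_mem (add_mem hv (Y.cast (Y.τ_mem hy))) (Y.cast (Y.inn_mem hβ2)))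
    (by rw [map_add, X.dτ hs, d_inn, f2, f1]; kc2) (by simp only [map_add, g4, Y.dτ hs, d_inn]; kc2)
  obtain ⟨x0, hx0, b0, hb0, x0', hx0', rfl, rfl, rfl⟩ := hQ n x hx b hb x' hx' f1 (by rw [f2, add_self'])
    (by rw [f4, add_self'])
  have g5 : v = φ.f s (X.τ s x0 + X.inn s b0 + X.d s x0') + Y.d s v2 + Y.τ s y + Y.inn s β2 := by rw [f5]; kc2
  refine ⟨φ.f s x0 + y, add_mem (φ.mem hx0) (Y.cast hy), φ.fB b0 + β2, add_mem (φ.fB_mem hb0) hβ2,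
    φ.f s x0' + v2, add_mem (φ.mem hx0') (Y.cast hv2), by rw [map_add, φ.fd], ?_, ?_⟩
  · simp only [map_add, φ.out_f, φ.dB_fB]; kc2
  · rw [g5]; simp only [map_add, φ.fτ s hs, φ.inn_fB, φ.fd]; kc2

theorem Q3_bwd {s : I} (hs : s ∈ Γ.J) {a : ℤ} (h0 : φ.CA s a) (h1 : ∀ e, Γ.src e = s → φ.CA (Γ.tgt e) (a + 1))
    (h2 : φ.CA s (a + 2)) (hQ : Y.Q3 s a) : X.Q3 s a := by
  intro n x hx b hb x' hx' e1 e2 e3
  obtain ⟨y, hy, β, hβ, y', hy', f1, f2, f3⟩ := hQ n _ (φ.mem hx) _ (φ.fB_mem hb) _ (φ.mem hx')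
    (by rw [φ.fd, e1, map_zero]) (by rw [φ.out_f, φ.dB_fB, ← map_add, e2, map_zero])
    (by rw [φ.fτ s hs, φ.inn_fB, φ.fd, ← map_add, ← map_add, e3, map_zero])
  obtain ⟨x0, hx0, y0, hy0, rfl, rfl⟩ := h0 n x hx y hy e1 (by rw [f1, add_self'])
  obtain ⟨b0, hb0, β0, hβ0, f4, f5⟩ := φ.exB h1 (n - 1) (b := b + X.out s x0)
    (add_mem (X.castB hb) (X.castB (X.out_mem hx0))) (β := β + Y.out s y0) (add_mem hβ (Y.out_mem hy0))
    (by rw [map_add, dB_out, ← of_add e2, add_self'])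
    (by simp only [map_add, ← f2, φ.out_f, dB_out]; kc2)
  have g1 : b = X.dB b0 + X.out s x0 := by rw [f4]; kc2
  have g2 : β = φ.fB b0 + Y.dB β0 + Y.out s y0 := by rw [f5]; kc2
  subst g1 g2
  obtain ⟨x0', hx0', -, -, f6, -⟩ := h2 (n - 2) (x' + X.τ s x0 + X.inn s b0)
    (add_mem (add_mem (X.cast hx') (X.cast (X.τ_mem hx0))) (X.cast (X.inn_mem hb0)))
    (y' + Y.τ s y0 + Y.inn s β0) (add_mem (add_mem hy' (Y.cast (Y.τ_mem hy0))) (Y.cast (Y.inn_mem hβ0)))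
    (by simp only [map_add, ← of_add e3, X.dτ hs, d_inn]; kc2)
    (by simp only [map_add, ← f3, φ.fτ s hs, φ.inn_fB, Y.dτ hs, d_inn]; kc2)
  exact ⟨x0, hx0, b0, hb0, x0', hx0', rfl, by kc2, by rw [f6]; kc2⟩

end LM

variable (X : DG Γ)

def etaF (s i : I) : X.V →ₗ[K] (E → X.V) × X.V := if i = s then (X.out s).prod (X.τ s) else LinearMap.inr K _ _
def epsF (s i : I) : (E → X.V) × X.V →ₗ[K] X.V := if i = s then X.ev s else LinearMap.snd K _ _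

theorem etaF_self (s : I) (v : X.V) : X.etaF s s v = (X.out s v, X.τ s v) := by rw [etaF, if_pos rfl]; rfl
theorem etaF_ne {s i : I} (hi : i ≠ s) (v : X.V) : X.etaF s i v = (0, v) := by rw [etaF, if_neg hi]; rfl
theorem epsF_self (s : I) (p : (E → X.V) × X.V) : X.epsF s s p = X.ev s p := by rw [epsF, if_pos rfl]
theorem epsF_ne {s i : I} (hi : i ≠ s) (p : (E → X.V) × X.V) : X.epsF s i p = p.2 := by rw [epsF, if_neg hi]; rfl

/-- `η : X → T s X` -/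
def eta (s : Γ.J) : LM X (X.T s) where
  f := X.etaF s
  mem {i n a v} hv := by
    change X.etaF s i v ∈ X.degT s i n a n (a + 1) (n - 1) (a + 2)
    by_cases hi : i = s
    · subst hi
      rw [etaF_self, mem_degT_self]
      exact ⟨X.out_mem hv, X.τ_mem hv⟩
    · rw [X.etaF_ne hi, X.mem_degT_ne hi]
      exact ⟨rfl, hv⟩
  fd i v := by
    change X.Td s i (X.etaF s i v) = X.etaF s i (X.d i v)
    by_cases hi : i = s
    · subst hi
      rw [etaF_self, etaF_self, Td_self, dB_out, X.dτ s.2, add_add_self]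
    · rw [X.etaF_ne hi, X.etaF_ne hi, X.Td_ne hi]
  fx e v := by
    change X.Tx s e (X.etaF s (Γ.src e) v) = X.etaF s (Γ.tgt e) (X.x e v)
    by_cases h1 : Γ.src e = s
    · rw [X.etaF_ne (Γ.tgt_ne' h1), X.Tx_src h1, h1, etaF_self]
      exact Prod.ext rfl (X.out_apply_of h1 v)
    · by_cases h2 : Γ.tgt e = s
      · rw [X.etaF_ne h1, X.Tx_tgt h2, h2, etaF_self]
      · rw [X.etaF_ne h1, X.etaF_ne h2, X.Tx_ne h1 h2]
  fτ i _ v := by
    change X.Tτ s i (X.etaF s i v) = X.etaF s i (X.τ i v)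
    by_cases hi : i = s
    · subst hi
      rw [etaF_self, etaF_self, Tτ_self]
    · rw [X.etaF_ne hi, X.etaF_ne hi, X.Tτ_ne hi]

theorem eps_fd (s : Γ.J) (i : I) (p : (E → X.V) × X.V) : X.d i (X.epsF s i p) = X.epsF s i (X.Sd s i p) := by
  by_cases hi : i = s
  · subst hi
    rw [epsF_self, epsF_self, X.ev_Sd s.2]
  · rw [X.epsF_ne hi, X.epsF_ne hi, X.Sd_ne hi]

theorem eps_fx (s : Γ.J) (e : E) (p : (E → X.V) × X.V) :
    X.x e (X.epsF s (Γ.src e) p) = X.epsF s (Γ.tgt e) (X.Sx s e p) := by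
  by_cases h1 : Γ.src e = s
  · rw [X.epsF_ne (Γ.tgt_ne' h1), X.Sx_src h1, h1, epsF_self]
  · by_cases h2 : Γ.tgt e = s
    · rw [X.epsF_ne h1, X.Sx_tgt h2, h2, epsF_self, ev_apply, X.inn_single (e := Γ.bar e) h2, map_zero,
        add_zero, Γ.bar_bar]
    · rw [X.epsF_ne h1, X.epsF_ne h2, X.Sx_ne h1 h2]

theorem eps_fτ (s : Γ.J) (i : I) (p : (E → X.V) × X.V) : X.τ i (X.epsF s i p) = X.epsF s i (X.Sτ s i p) := by
  by_cases hi : i = s
  · subst hi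
    rw [epsF_self, epsF_self, Sτ_self, ev_apply X _ (0, _), map_zero, zero_add]
  · rw [X.epsF_ne hi, X.epsF_ne hi, X.Sτ_ne hi]

theorem eps_mem (s : Γ.J) {i : I} {n a : ℤ} {p : (E → X.V) × X.V}
    (hp : p ∈ X.degT s i n a n (a - 1) (n + 1) (a - 2)) : X.epsF s i p ∈ X.deg i n a := by
  by_cases hi : i = s
  · subst hi
    rw [epsF_self]
    rw [mem_degT_self] at hp
    exact X.ev_mem hp.1 hp.2
  · rw [X.epsF_ne hi]
    exact ((X.mem_degT_ne hi).1 hp).2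

/-- `ε : S s X → X` -/
def eps (s : Γ.J) : LM (X.S s) X where
  f := X.epsF s
  mem hp := X.eps_mem s hp
  fd := X.eps_fd s
  fx := X.eps_fx s
  fτ i _ p := X.eps_fτ s i p

theorem eta_self (s : Γ.J) (v : X.V) : (X.eta s).f s v = (X.out s v, X.τ s v) := X.etaF_self s v
theorem eta_ne (s : Γ.J) {i : I} (hi : i ≠ s) (v : X.V) : (X.eta s).f i v = (0, v) := X.etaF_ne hi v
theorem eps_self (s : Γ.J) (p : (E → X.V) × X.V) : (X.eps s).f s p = X.inn s p.1 + X.τ s p.2 := X.epsF_self s p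
theorem eps_ne (s : Γ.J) {i : I} (hi : i ≠ s) (p : (E → X.V) × X.V) : (X.eps s).f i p = p.2 := X.epsF_ne hi p

theorem eta_ca_ne (s : Γ.J) {i : I} (hi : i ≠ s) (a : ℤ) : (X.eta s).CA i a := by
  intro n v _ p hp _ h2
  obtain ⟨hp1, hp2⟩ := (X.mem_degT_ne hi).1 hp
  have h3 : v + X.d i p.2 = 0 :=
    congrArg Prod.snd ((congrArg₂ (fun p q : (E → X.V) × X.V => p + q) (X.eta_ne s hi v)
      (X.Td_ne hi p)).symm.trans h2)
  exact ⟨p.2, hp2, 0, zero_mem _, (of_add h3).symm, by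
    rw [map_zero, add_zero, X.eta_ne s hi]; exact Prod.ext hp1.symm rfl⟩

theorem eps_ca_ne (s : Γ.J) {i : I} (hi : i ≠ s) (a : ℤ) : (X.eps s).CA i a := by
  intro n p hp w hw _ h2
  obtain ⟨hp1, -⟩ := (X.mem_degT_ne hi).1 hp
  rw [X.eps_ne s hi] at h2
  exact ⟨(0, w), (X.mem_degT_ne hi).2 ⟨rfl, hw⟩, 0, zero_mem _,
    (X.Sd_ne hi _).trans (Prod.ext hp1.symm (of_add h2).symm), by rw [map_zero, add_zero, X.eps_ne s hi]⟩

theorem eta_ca (s : Γ.J) {a : ℤ} (h : X.Q3 s a) : (X.eta s).CA s a := by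
  intro n u hu p hp h1 h2
  obtain ⟨hb, hv⟩ := (X.mem_T_self s).1 hp
  have h3 := (congrArg₂ (fun p q : (E → X.V) × X.V => p + q) (X.eta_self s u) (X.T_d_self s p)).symm.trans h2
  obtain ⟨u0, hu0, b0, hb0, v0, hv0, f1, f2, f3⟩ := h n u hu p.1 hb p.2 hv h1 (congrArg Prod.fst h3)
    ((add_assoc _ _ _).trans (congrArg Prod.snd h3))
  exact ⟨u0, hu0, (b0, v0), (X.mem_T_self s).2 ⟨hb0, X.cast hv0⟩, f1,
    (congrArg₂ (fun p q : (E → X.V) × X.V => p + q) (X.eta_self s u0) (X.T_d_self s (b0, v0))).trans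
      (Prod.ext f2 ((add_assoc _ _ _).symm.trans f3))⟩

theorem eps_ca (s : Γ.J) {a : ℤ} (h : X.Q3 s a) : (X.eps s).CA s (a + 2) := by
  intro n p hp w hw h1 h2
  obtain ⟨hb, hv⟩ := (X.mem_S_self s).1 hp
  have h3 := (X.S_d_self s p).symm.trans h1
  rw [X.eps_self s p] at h2
  obtain ⟨u0, hu0, b0, hb0, v0, hv0, f1, f2, f3⟩ := h (n + 1) p.2 (X.cast hv) p.1 (X.castB hb) w (X.cast hw)
    (congrArg Prod.snd h3) ((add_comm _ _).trans (congrArg Prod.fst h3)) (by rw [← h2]; kc2)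
  exact ⟨(b0, u0), (X.mem_S_self s).2 ⟨X.castB hb0, X.cast hu0⟩, v0, X.cast hv0,
    (X.S_d_self s _).trans (Prod.ext ((add_comm _ _).trans f2) f1), by rw [X.eps_self s, ← f3]; kc2⟩

theorem Q3_T_ne (s : Γ.J) {w : I} (hw : w ∈ Γ.J) (h : w ≠ s) {a : ℤ} (h1 : X.Q3 w a) (h2 : X.Q3 s (a + 1)) :
    (X.T s).Q3 w a :=
  (X.eta s).Q3_fwd hw (X.eta_ca_ne s h _) (fun e _ => by
    by_cases he : Γ.tgt e = s
    · rw [he]; exact X.eta_ca s h2
    · exact X.eta_ca_ne s he _) (X.eta_ca_ne s h _) h1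

theorem Q3_S_ne (s : Γ.J) {w : I} (hw : w ∈ Γ.J) (h : w ≠ s) {a : ℤ} (h1 : X.Q3 w a) (h2 : X.Q3 s (a - 1)) :
    (X.S s).Q3 w a :=
  (X.eps s).Q3_bwd hw (X.eps_ca_ne s h _) (fun e _ => by
    by_cases he : Γ.tgt e = s
    · rw [he]; exact (X.eps_ca s h2).cast
    · exact X.eps_ca_ne s he _) (X.eps_ca_ne s h _) h1

theorem k1_T_B_surj (s : Γ.J) {n a : ℤ} {β : E → (X.T s).V} (h : β ∈ (X.T s).degB s n a) :
    ∃ b ∈ X.degB s n a, (X.eta s).fB b = β := by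
  rw [mem_degB] at h
  refine ⟨fun e => (β e).2, X.mem_degB.2 ⟨fun e he => ((X.mem_degT_ne (Γ.tgt_ne' he)).1 (h.1 e he)).2,
    fun e he => congrArg Prod.snd (h.2 e he)⟩, funext fun e => ?_⟩
  by_cases he : Γ.src e = s
  · exact (X.eta_ne s (Γ.tgt_ne' he) _).trans
      (Prod.ext ((X.mem_degT_ne (Γ.tgt_ne' he)).1 (h.1 e he)).1.symm rfl)
  · rw [LM.fB_apply, h.2 e he]
    exact map_zero _

theorem k1_T_B_inj (s : Γ.J) {n a : ℤ} {b : E → X.V} (h : b ∈ X.degB s n a) (h0 : (X.eta s).fB b = 0) : b = 0 := by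
  rw [mem_degB] at h
  funext e
  by_cases he : Γ.src e = s
  · exact congrArg Prod.snd ((X.eta_ne s (Γ.tgt_ne' he) _).symm.trans (congrFun h0 e))
  · exact h.2 e he

theorem k1_T_out (s : Γ.J) {n a : ℤ} {p : (E → X.V) × X.V} (h : p.1 ∈ X.degB s n a) :
    (X.T s).out s p = (X.eta s).fB p.1 := by
  rw [mem_degB] at h
  funext e
  by_cases he : Γ.src e = s
  · exact ((X.T s).out_apply_of he p).trans ((X.Tx_src he p).trans (X.eta_ne s (Γ.tgt_ne' he) _).symm)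
  · refine ((X.T s).out_apply s p e).trans ?_
    rw [if_neg he, LM.fB_apply, h.2 e he, map_zero]

theorem k1_S_B_surj (s : Γ.J) {n a : ℤ} {b : E → X.V} (h : b ∈ X.degB s n a) :
    ∃ β ∈ (X.S s).degB s n a, (X.eps s).fB β = b := by
  rw [mem_degB] at h
  refine ⟨fun e => (0, b e), (X.S s).mem_degB.2 ⟨fun e he => (X.mem_degT_ne (Γ.tgt_ne' he)).2 ⟨rfl, h.1 e he⟩,
    fun e he => Prod.ext rfl (h.2 e he)⟩, funext fun e => ?_⟩
  by_cases he : Γ.src e = s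
  · exact X.eps_ne s (Γ.tgt_ne' he) _
  · rw [LM.fB_apply, h.2 e he]
    exact map_zero _

theorem k1_S_B_inj (s : Γ.J) {n a : ℤ} {β : E → (X.S s).V} (h : β ∈ (X.S s).degB s n a)
    (h0 : (X.eps s).fB β = 0) : β = 0 := by
  rw [mem_degB] at h
  funext e
  by_cases he : Γ.src e = s
  · exact Prod.ext ((X.mem_degT_ne (Γ.tgt_ne' he)).1 (h.1 e he)).1
      ((X.eps_ne s (Γ.tgt_ne' he) _).symm.trans (congrFun h0 e))
  · exact h.2 e he

theorem k1_S_inn (s : Γ.J) {n a : ℤ} {β : E → (X.S s).V} (h : β ∈ (X.S s).degB s n a) :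
    (X.S s).inn s β = ((X.eps s).fB β, 0) := by
  rw [mem_degB] at h
  have h1 : ∑ e ∈ Γ.O s, X.Sx s (Γ.bar e) (β e) = ((X.eps s).fB β, 0) := by
    rw [Finset.sum_congr rfl fun e he => by
      rw [X.Sx_tgt (e := Γ.bar e) (by simpa using he), Γ.bar_bar], sum_pair]
    refine Prod.ext (funext fun e => ?_) (by simp)
    change (∑ e ∈ Γ.O s, (Pi.single e (β e).2 : E → X.V)) e = (X.eps s).f (Γ.tgt e) (β e)
    rw [Finset.sum_apply]
    by_cases he : Γ.src e = s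
    · rw [X.eps_ne s (Γ.tgt_ne' he)]
      simp [Pi.single_apply, he]
    · rw [h.2 e he, map_zero]
      simp [Pi.single_apply, he]
  exact ((X.S s).inn_apply s β).trans h1

theorem Q3_T_self (s : Γ.J) {a : ℤ} (h : X.Q3 s (a + 2)) : (X.T s).Q3 s a := by
  intro n p hp β hβ p3 hp3 e1 e2 e3
  obtain ⟨b2, hb2, rfl⟩ := X.k1_T_B_surj s hβ
  obtain ⟨hb1, hv1⟩ := (X.mem_T_self s).1 hp
  obtain ⟨hb3, hv3⟩ := (X.mem_T_self s).1 hp3
  obtain ⟨b1, v1⟩ := p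
  obtain ⟨b3, v3⟩ := p3
  have e1' := (X.T_d_self s _).symm.trans e1
  have f1 : X.inn s b1 + X.d s v1 = 0 := congrArg Prod.snd e1'
  rw [X.k1_T_out s hb1, LM.dB_fB, ← map_add] at e2
  have f2 : b1 = X.dB b2 := of_add (X.k1_T_B_inj s (add_mem hb1 (X.dB_mem hb2)) e2)
  subst f2
  rw [LM.inn_fB, eta_self, T_d_self] at e3
  have e3' := (congrArg (fun p : (E → X.V) × X.V => p + _ + _) (X.Tτ_self s (X.dB b2, v1))).symm.trans e3
  have f3 : X.out s v1 + X.out s (X.inn s b2) + X.dB b3 = 0 := congrArg Prod.fst e3'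
  have f4 : X.τ s v1 + X.τ s (X.inn s b2) + (X.inn s b3 + X.d s v3) = 0 := congrArg Prod.snd e3'
  obtain ⟨u0, hu0, b0, hb0, v0, hv0, g1, g2, g3⟩ := h (n - 1) (v1 + X.inn s b2)
    (add_mem (X.cast hv1) (X.cast (X.inn_mem hb2))) b3 (X.castB hb3) v3 (X.cast hv3)
    (by rw [map_add, d_inn, add_comm]; exact f1) (by rw [map_add]; exact f3) (by rw [map_add, add_assoc]; exact f4)
  refine ⟨(b2, u0), (X.mem_T_self s).2 ⟨hb2, hu0⟩, 0, zero_mem _, (b0, v0),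
    (X.mem_T_self s).2 ⟨X.castB hb0, X.cast hv0⟩, ?_, ?_, ?_⟩
  · refine (X.T_d_self s _).trans (Prod.ext rfl ?_)
    change X.inn s b2 + X.d s u0 = v1
    rw [g1]; kc2
  · rw [map_zero, add_zero]
    exact X.k1_T_out s (p := (b2, u0)) hb2
  · rw [map_zero, add_zero]
    refine (congrArg₂ (fun p q : (E → X.V) × X.V => p + q) (X.Tτ_self s (b2, u0)) (X.T_d_self s (b0, v0))).trans
      (Prod.ext g2 ((add_assoc _ _ _).symm.trans g3))

theorem Q3_S_self (s : Γ.J) {a : ℤ} (h : X.Q3 s a) : (X.S s).Q3 s (a + 2) := by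
  intro n p hp β hβ p3 hp3 e1 e2 e3
  obtain ⟨hb1, hv1⟩ := (X.mem_S_self s).1 hp
  obtain ⟨hb3, hv3⟩ := (X.mem_S_self s).1 hp3
  obtain ⟨b1, v1⟩ := p
  obtain ⟨b3, v3⟩ := p3
  have e1' := (X.S_d_self s _).symm.trans e1
  have f1 : X.dB b1 + X.out s v1 = 0 := congrArg Prod.fst e1'
  have f1' : X.d s v1 = 0 := congrArg Prod.snd e1'
  rw [X.k1_S_inn s hβ, S_d_self] at e3
  have e3' := (congrArg (fun p : (E → X.V) × X.V => p + _ + _) (X.Sτ_self s (b1, v1))).symm.trans e3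
  have f3 : 0 + (X.eps s).fB β + (X.dB b3 + X.out s v3) = 0 := congrArg Prod.fst e3'
  have f4 : X.inn s b1 + X.τ s v1 + 0 + X.d s v3 = 0 := congrArg Prod.snd e3'
  obtain ⟨v0, hv0, b0, hb0, w0, hw0, g1, g2, g3⟩ := h (n + 1) v1 (X.cast hv1) b1 (X.castB hb1) v3 (X.cast hv3)
    f1' (by rw [add_comm]; exact f1) (by rw [← f4]; kc2)
  obtain ⟨β0, hβ0, g4⟩ := X.k1_S_B_surj s (n := n - 1) (a := a + 2 + 1) (b := b3 + X.out s w0)
    (add_mem (X.castB hb3) (X.castB (X.out_mem hw0)))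
  have hp0 : ((b0, v0) : (X.S s).V) ∈ (X.S s).deg s n (a + 2) := (X.mem_S_self s).2 ⟨X.castB hb0, X.cast hv0⟩
  refine ⟨(b0, v0), hp0, β0, hβ0, (0, w0), (X.mem_S_self s).2 ⟨zero_mem _, X.cast hw0⟩, ?_, ?_, ?_⟩
  · exact (X.S_d_self s _).trans (Prod.ext ((add_comm _ _).trans g2) g1)
  · refine of_add (X.k1_S_B_inj s (add_mem (add_mem ((X.S s).out_mem hp0) ((X.S s).castB ((X.S s).dB_mem hβ0))) hβ) ?_)
    rw [zero_add] at f3
    rw [map_add, map_add, ← LM.out_f, ← LM.dB_fB, g4, eps_self, of_add f3, ← g3]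
    simp only [map_add, dB_out]
    kc2
  · rw [X.k1_S_inn s hβ0, g4]
    refine (congrArg₂ (fun p q : (E → X.V) × X.V => p + ((b3 + X.out s w0, 0) : (E → X.V) × X.V) + q) (X.Sτ_self s (b0, v0))
      (X.S_d_self s (0, w0))).trans (Prod.ext ?_ ?_)
    · change 0 + (b3 + X.out s w0) + (X.dB 0 + X.out s w0) = b3
      kc2
    · change X.inn s b0 + X.τ s v0 + 0 + X.d s w0 = v3
      rw [← g3]; kc2

theorem Q3_of_hz {s : I} (hs : s ∈ Γ.J) {a : ℤ} (h0 : ∀ n, X.Hz s n a) (h1 : ∀ n, X.HzB s n (a + 1))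
    (h2 : ∀ n, X.Hz s n (a + 2)) : X.Q3 s a := by
  intro n u hu b hb v hv e1 e2 e3
  obtain ⟨u0, hu0, rfl⟩ := h0 _ u hu e1
  obtain ⟨b0, hb0, f1⟩ := (h1 n).ex (b := b + X.out s u0) (add_mem hb (X.castB (X.out_mem hu0)))
    (by rw [map_add, dB_out, ← of_add e2, add_self'])
  have g1 : b = X.dB b0 + X.out s u0 := by rw [f1]; kc2
  subst g1
  obtain ⟨v0, hv0, f2⟩ := h2 (n - 1) (v + X.τ s u0 + X.inn s b0)
    (add_mem (add_mem hv (X.cast (X.τ_mem hu0))) (X.cast (X.inn_mem hb0)))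
    (by simp only [map_add, ← of_add e3, X.dτ hs, d_inn]; kc2)
  exact ⟨u0, X.cast hu0, b0, hb0, v0, X.cast hv0, rfl, by kc2, by rw [f2]; kc2⟩

end DG

end Crest.Agent.R175.Mod
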