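import Crest.Agent.R175.Mod.K1
import Crest.Agent.R175.Mod.Api

/-! # R175/Mod/K2 (helper98): two consecutive acyclic Adams degrees split a module -/

set_option autoImplicit false
noncomputable section
open Classical

namespace Crest.Agent.R175.Mod

variable {I E : Type} [Fintype E] {Γ : Gr I E}

theorem k2_sec {V : Type} [AddCommGroup V] [Module K V] (d : V →ₗ[K] V) (D Z : Submodule K V)
    (h : ∀ z ∈ Z, ∃ w ∈ D, d w = z) : ∃ s : V →ₗ[K] V, ∀ z ∈ Z, s z ∈ D ∧ d (s z) = z := by
  let f : (D ⊓ Z.comap d : Submodule K V) →ₗ[K] Z := (d.domRestrict _).codRestrict Z fun v => v.2.2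
  have hf : LinearMap.range f = ⊤ := by
    rw [LinearMap.range_eq_top]
    rintro ⟨z, hz⟩
    obtain ⟨w, hw, rfl⟩ := h z hz
    exact ⟨⟨w, hw, hz⟩, rfl⟩
  obtain ⟨g, hg⟩ := f.exists_rightInverse_of_surjective hf
  obtain ⟨s, hs⟩ := ((Submodule.subtype _).comp g).exists_extend
  refine ⟨s, fun z hz => ?_⟩
  have h1 : s z = (g ⟨z, hz⟩ : V) := LinearMap.congr_fun hs ⟨z, hz⟩
  rw [h1]
  exact ⟨(g ⟨z, hz⟩).2.1, congrArg Subtype.val (LinearMap.congr_fun hg ⟨z, hz⟩)⟩

namespace DG
variable (X : DG Γ)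

theorem k2_hz_iff (i : I) (n a : ℤ) : X.p.Ac i n a ↔ X.Hz i n a :=
  ⟨fun h v hv hd => h v ⟨hv, hd⟩, fun h v hv => h v hv.1 hv.2⟩

theorem k2_hz_cl (i : I) (n a : ℤ) : X.p.cl.Ac i n a ↔ X.Hz i n a := (Obj.ac_cl _ _ _ _).trans (X.k2_hz_iff i n a)

/-- a contraction -/
theorem k2_contr (i : I) (a : ℤ) (h : ∀ n, X.Hz i n a) : ∃ κ : ℤ → X.V →ₗ[K] X.V, ∀ n, ∀ v ∈ X.deg i n a,
    κ n v ∈ X.deg i (n - 1) a ∧ X.d i (κ n v) + κ (n + 1) (X.d i v) = v := by
  choose s hs using fun n => k2_sec (X.d i) (X.deg i (n - 1) a) (X.p.Z i n a) fun z hz => h n z hz.1 hz.2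
  refine ⟨fun n => s n ∘ₗ (LinearMap.id + s (n + 1) ∘ₗ X.d i), fun n v hv => ?_⟩
  obtain ⟨h1, h2⟩ := hs (n + 1) (X.d i v) ⟨X.d_mem hv, X.dd _ _⟩
  obtain ⟨h3, h4⟩ := hs n (v + s (n + 1) (X.d i v)) ⟨add_mem hv (X.cast h1), by
    change X.d i _ = 0
    rw [map_add, h2, add_self']⟩
  refine ⟨h3, ?_⟩
  change X.d i (s n (v + s (n + 1) (X.d i v))) + s (n + 1) (X.d i v + s (n + 1 + 1) (X.d i (X.d i v))) = v
  rw [h4, X.dd]
  kc2

/-- the part of Adams degree `≥ k` -/
@[reducible] def hi (k : ℤ) : PDG Γ where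
  V := X.V
  deg i n a := if k ≤ a then X.deg i n a else ⊥
  d i _ _ := X.d i
  x e _ _ := X.x e
  τ i _ _ := X.τ i
  d_mem {i n a v} h := by
    split_ifs at h ⊢
    · exact X.d_mem h
    · rw [(Submodule.mem_bot K).1 h, map_zero]; exact zero_mem _
  x_mem {e n a v} h := by
    split_ifs at h with h1
    · rw [if_pos (by omega)]; exact X.x_mem h
    · rw [(Submodule.mem_bot K).1 h, map_zero]; exact zero_mem _
  τ_mem {i n a v} h := by
    split_ifs at h with h1
    · rw [if_pos (by omega)]; exact X.τ_mem h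
    · rw [(Submodule.mem_bot K).1 h, map_zero]; exact zero_mem _
  dd _ := X.dd _ _
  dx _ := X.dx _ _
  rel hi _ := X.rel _ hi _
  bdd := by
    obtain ⟨N, hN⟩ := X.bdd
    refine ⟨N, fun i n a v h h' => ?_⟩
    split_ifs at h
    · exact hN _ _ _ _ h h'
    · exact (Submodule.mem_bot K).1 h

/-- the part of Adams degree `< k` -/
@[reducible] def lo (k : ℤ) : PDG Γ where
  V := X.V
  deg i n a := if a < k then X.deg i n a else ⊥
  d i _ _ := X.d i
  x e _ a := if a + 1 < k then X.x e else 0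
  τ i _ a := if a + 2 < k then X.τ i else 0
  d_mem {i n a v} h := by
    split_ifs at h ⊢
    · exact X.d_mem h
    · rw [(Submodule.mem_bot K).1 h, map_zero]; exact zero_mem _
  x_mem {e n a v} h := by
    by_cases h1 : a + 1 < k
    · rw [if_pos (by omega)] at h
      rw [if_pos h1, if_pos h1]; exact X.x_mem h
    · rw [if_neg h1, if_neg h1]; exact zero_mem _
  τ_mem {i n a v} h := by
    by_cases h1 : a + 2 < k
    · rw [if_pos (by omega)] at h
      rw [if_pos h1, if_pos h1]; exact X.τ_mem h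
    · rw [if_neg h1, if_neg h1]; exact zero_mem _
  dd _ := X.dd _ _
  dx {e n a v} _ := by
    split_ifs
    · exact X.dx _ _
    · simp
  rel {i n a v} hi _ := by
    by_cases h1 : a + 2 < k
    · rw [if_pos h1]
      simp only [if_pos (show a + 1 < k by omega), if_pos (show a + 1 + 1 < k by omega)]
      exact X.rel _ hi _
    · rw [if_neg h1]
      simp [if_neg (show ¬ a + 1 + 1 < k by omega)]
  bdd := by
    obtain ⟨N, hN⟩ := X.bdd
    refine ⟨N, fun i n a v h h' => ?_⟩
    split_ifs at h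
    · exact hN _ _ _ _ h h'
    · exact (Submodule.mem_bot K).1 h

theorem lo_ac {k : ℤ} {i : I} {n a : ℤ} : (X.lo k).Ac i n a ↔ (a < k → X.Hz i n a) := by
  change (∀ v, (v ∈ (if a < k then X.deg i n a else ⊥) ∧ X.d i v = 0) →
    ∃ w ∈ (if a < k then X.deg i (n - 1) a else ⊥), X.d i w = v) ↔ _
  by_cases h : a < k
  · simp only [h, forall_const, if_pos, Hz, and_imp]
  · simp only [h, IsEmpty.forall_iff, iff_true, if_false, Submodule.mem_bot]
    rintro v ⟨rfl, -⟩
    exact ⟨0, rfl, map_zero _⟩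

theorem k2_phi {i : I} {a : ℤ} {κ : ℤ → X.V →ₗ[K] X.V} (hκ : ∀ n, ∀ v ∈ X.deg i n a,
    κ n v ∈ X.deg i (n - 1) a ∧ X.d i (κ n v) + κ (n + 1) (X.d i v) = v) (Φ : ℤ → X.V →ₗ[K] X.V)
    (hΦ : ∀ n, ∀ v ∈ X.deg i n a, X.d i (Φ n v) = Φ (n + 1) (X.d i v)) {n : ℤ} {v : X.V} (hv : v ∈ X.deg i n a) :
    Φ n v = X.d i (Φ (n - 1) (κ n v)) + Φ (n + 1 - 1) (κ (n + 1) (X.d i v)) := by
  rw [hΦ _ _ (hκ n v hv).1, sub_add_cancel, add_sub_cancel_right, ← map_add, (hκ n v hv).2]

theorem gap (k : ℤ) (h0 : ∀ i n, X.Hz i n k) (h1 : ∀ i n, X.Hz i n (k + 1)) :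
    ((X.hi (k + 2)).sum (X.lo k)).cl = X.p.cl := by
  choose κ hκ using fun i => X.k2_contr i k (h0 i)
  choose κ' hκ' using fun i => X.k2_contr i (k + 1) (h1 i)
  let κB : ℤ → (E → X.V) →ₗ[K] (E → X.V) := fun n => LinearMap.pi fun e => κ' (Γ.tgt e) n ∘ₗ LinearMap.proj e
  let Φ : I → ℤ → X.V →ₗ[K] X.V := fun i n => X.τ i + X.inn i ∘ₗ κB n ∘ₗ X.out i
  let Φ' : I → ℤ → X.V →ₗ[K] X.V := fun i n => X.τ i + X.inn i ∘ₗ X.out i ∘ₗ κ' i n
  have κBm : ∀ {i n b}, b ∈ X.degB i n (k + 1) → κB n b ∈ X.degB i (n - 1) (k + 1) ∧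
      X.dB (κB n b) + κB (n + 1) (X.dB b) = b := by
    intro i n b hb
    rw [mem_degB] at hb ⊢
    refine ⟨⟨fun e he => (hκ' _ _ _ (hb.1 e he)).1, fun e he => ?_⟩, funext fun e => ?_⟩
    · change κ' _ n (b e) = 0
      rw [hb.2 e he, map_zero]
    · by_cases he : Γ.src e = i
      · exact (hκ' _ _ _ (hb.1 e he)).2
      · change X.d _ (κ' _ n (b e)) + κ' _ (n + 1) (X.d _ (b e)) = b e
        rw [hb.2 e he]; simp
  have hΦ : ∀ i ∈ Γ.J, ∀ n, ∀ v ∈ X.deg i n k, X.d i (Φ i n v) = Φ i (n + 1) (X.d i v) := by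
    intro i hi n v hv
    change X.d i (X.τ i v + X.inn i (κB n (X.out i v))) = X.τ i (X.d i v) + X.inn i (κB (n + 1) (X.out i (X.d i v)))
    have := (κBm (X.out_mem hv)).2
    rw [map_add, X.dτ hi, d_inn, ← dB_out]
    nth_rewrite 1 [← this]
    kc2
  have hΦ' : ∀ i ∈ Γ.J, ∀ n, ∀ v ∈ X.deg i n (k + 1), X.d i (Φ' i n v) = Φ' i (n + 1) (X.d i v) := by
    intro i hi n v hv
    change X.d i (X.τ i v + X.inn i (X.out i (κ' i n v))) = X.τ i (X.d i v) + X.inn i (X.out i (κ' i (n + 1) (X.d i v)))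
    have := (hκ' i n v hv).2
    rw [map_add, X.dτ hi, d_inn, dB_out]
    nth_rewrite 1 [← this]
    kc2
  let φ : WHom X.p ((X.hi (k + 2)).sum (X.lo k)) :=
    { f := fun _ _ a => (if k + 2 ≤ a then LinearMap.id else 0 : X.V →ₗ[K] X.V).prod
        (if a < k then LinearMap.id else 0 : X.V →ₗ[K] X.V)
      h := fun e n a => (if a = k + 1 then X.x e ∘ₗ κ' (Γ.src e) n else 0 : X.V →ₗ[K] X.V).prod (0 : X.V →ₗ[K] X.V)
      k := fun i n a => (if a = k then Φ i (n - 1) ∘ₗ κ i n else if a = k + 1 then Φ' i (n - 1) ∘ₗ κ' i n else 0 :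
        X.V →ₗ[K] X.V).prod (0 : X.V →ₗ[K] X.V)
      mem := by
        intro i n a v hv
        refine ⟨?_, ?_⟩
        · change (if k + 2 ≤ a then LinearMap.id else 0 : X.V →ₗ[K] X.V) v ∈ (if k + 2 ≤ a then X.deg i n a else ⊥)
          split_ifs
          · exact hv
          · exact zero_mem _
        · change (if a < k then LinearMap.id else 0 : X.V →ₗ[K] X.V) v ∈ (if a < k then X.deg i n a else ⊥)
          split_ifs
          · exact hv
          · exact zero_mem _
      h_mem := by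
        intro e n a v hv
        refine ⟨?_, zero_mem _⟩
        change (if a = k + 1 then X.x e ∘ₗ κ' (Γ.src e) n else 0 : X.V →ₗ[K] X.V) v ∈
          (if k + 2 ≤ a + 1 then X.deg _ (n - 1) (a + 1) else ⊥)
        by_cases ha : a = k + 1
        · subst ha
          rw [if_pos rfl, if_pos (by omega)]
          exact X.x_mem (hκ' _ _ _ hv).1
        · rw [if_neg ha]; exact zero_mem _
      k_mem := by
        intro i n a v hv
        refine ⟨?_, zero_mem _⟩
        change (if a = k then Φ i (n - 1) ∘ₗ κ i n else if a = k + 1 then Φ' i (n - 1) ∘ₗ κ' i n else 0 :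
          X.V →ₗ[K] X.V) v ∈ (if k + 2 ≤ a + 2 then X.deg _ (n - 2) (a + 2) else ⊥)
        by_cases ha : a = k
        · subst ha
          rw [if_pos rfl, if_pos le_rfl]
          have := (hκ _ _ _ hv).1
          exact add_mem (X.cast (X.τ_mem this)) (X.cast (X.inn_mem (κBm (X.out_mem this)).1))
        · rw [if_neg ha]
          by_cases ha' : a = k + 1
          · subst ha'
            rw [if_pos rfl, if_pos (by omega)]
            have := (hκ' _ _ _ hv).1
            exact add_mem (X.cast (X.τ_mem this)) (X.cast (X.inn_mem (X.out_mem (hκ' _ _ _ this).1)))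
          · rw [if_neg ha']; exact zero_mem _
      d := by
        intro i n a v _
        refine Prod.ext ?_ ?_
        · change (if k + 2 ≤ a then LinearMap.id else 0 : X.V →ₗ[K] X.V) (X.d i v) =
            X.d i ((if k + 2 ≤ a then LinearMap.id else 0 : X.V →ₗ[K] X.V) v)
          split_ifs <;> simp
        · change (if a < k then LinearMap.id else 0 : X.V →ₗ[K] X.V) (X.d i v) =
            X.d i ((if a < k then LinearMap.id else 0 : X.V →ₗ[K] X.V) v)
          split_ifs <;> simp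
      x := by
        intro e n a v hv
        refine Prod.ext ?_ ?_
        · change (if k + 2 ≤ a + 1 then LinearMap.id else 0 : X.V →ₗ[K] X.V) (X.x e v) +
            X.x e ((if k + 2 ≤ a then LinearMap.id else 0 : X.V →ₗ[K] X.V) v) =
            X.d _ ((if a = k + 1 then X.x e ∘ₗ κ' (Γ.src e) n else 0 : X.V →ₗ[K] X.V) v) +
            (if a = k + 1 then X.x e ∘ₗ κ' (Γ.src e) (n + 1) else 0 : X.V →ₗ[K] X.V) (X.d _ v)
          by_cases ha : a = k + 1
          · subst ha
            rw [if_pos (by omega), if_neg (by omega), if_pos rfl, if_pos rfl]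
            simp only [LinearMap.id_apply, LinearMap.zero_apply, LinearMap.comp_apply, map_zero, add_zero, X.dx]
            rw [← map_add, (hκ' _ _ _ hv).2]
          · rw [if_neg ha, if_neg ha]
            by_cases ha' : k + 2 ≤ a
            · rw [if_pos ha', if_pos (by omega)]; simp [add_self']
            · rw [if_neg ha', if_neg (by omega)]; simp
        · change (if a + 1 < k then LinearMap.id else 0 : X.V →ₗ[K] X.V) (X.x e v) +
            (if a + 1 < k then X.x e else 0) ((if a < k then LinearMap.id else 0 : X.V →ₗ[K] X.V) v) =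
            X.d _ 0 + 0
          by_cases ha : a + 1 < k
          · rw [if_pos ha, if_pos ha, if_pos (by omega)]; simp [add_self']
          · rw [if_neg ha, if_neg ha]; simp
      τ := by
        intro i n a v hi hv
        refine Prod.ext ?_ ?_
        · rw [Prod.fst_add, Prod.fst_sum]
          change (if k + 2 ≤ a + 2 then LinearMap.id else 0 : X.V →ₗ[K] X.V) (X.τ i v) +
            X.τ i ((if k + 2 ≤ a then LinearMap.id else 0 : X.V →ₗ[K] X.V) v) +
            ∑ e ∈ Γ.O i, ((if a + 1 = k + 1 then X.x (Γ.bar e) ∘ₗ κ' (Γ.tgt e) n else 0 : X.V →ₗ[K] X.V) (X.x e v) +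
              X.x (Γ.bar e) ((if a = k + 1 then X.x e ∘ₗ κ' (Γ.src e) n else 0 : X.V →ₗ[K] X.V) v)) =
            X.d i ((if a = k then Φ i (n - 1) ∘ₗ κ i n else if a = k + 1 then Φ' i (n - 1) ∘ₗ κ' i n else 0 :
              X.V →ₗ[K] X.V) v) + (if a = k then Φ i (n + 1 - 1) ∘ₗ κ i (n + 1) else
                if a = k + 1 then Φ' i (n + 1 - 1) ∘ₗ κ' i (n + 1) else 0 : X.V →ₗ[K] X.V) (X.d i v)
          by_cases ha : a = k
          · subst ha
            simp only [if_pos, le_refl, if_neg (show ¬ a + 2 ≤ a by omega), if_neg (show ¬ a = a + 1 by omega),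
              LinearMap.id_apply, LinearMap.zero_apply, LinearMap.comp_apply, map_zero, add_zero]
            rw [← X.k2_phi (hκ i) (Φ i) (hΦ i hi) hv]
            change _ = X.τ i v + X.inn i (κB n (X.out i v))
            rw [inn_apply]
            refine congrArg _ (Finset.sum_congr rfl fun e he => ?_)
            change _ = X.x _ (κ' _ n (X.out i v e))
            rw [X.out_apply_of (Γ.mem_O.1 he)]
          · by_cases ha' : a = k + 1
            · subst ha'
              simp only [if_pos, if_neg ha, if_pos (show k + 2 ≤ k + 1 + 2 by omega),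
                if_neg (show ¬ k + 2 ≤ k + 1 by omega), if_neg (show ¬ k + 1 + 1 = k + 1 by omega),
                LinearMap.id_apply, LinearMap.zero_apply, LinearMap.comp_apply, map_zero, add_zero, zero_add]
              rw [← X.k2_phi (hκ' i) (Φ' i) (hΦ' i hi) hv]
              change _ = X.τ i v + X.inn i (X.out i (κ' i n v))
              rw [inn_apply]
              refine congrArg _ (Finset.sum_congr rfl fun e he => ?_)
              rw [X.out_apply_of (Γ.mem_O.1 he), Γ.mem_O.1 he]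
            · simp only [if_neg ha, if_neg ha', if_neg (show ¬ a + 1 = k + 1 by omega)]
              by_cases ha'' : k + 2 ≤ a
              · rw [if_pos ha'', if_pos (by omega)]; simp [add_self']
              · rw [if_neg ha'', if_neg (by omega)]; simp
        · rw [Prod.snd_add, Prod.snd_sum]
          change (if a + 2 < k then LinearMap.id else 0 : X.V →ₗ[K] X.V) (X.τ i v) +
            (if a + 2 < k then X.τ i else 0) ((if a < k then LinearMap.id else 0 : X.V →ₗ[K] X.V) v) +
            ∑ e ∈ Γ.O i, (0 + (if a + 1 + 1 < k then X.x (Γ.bar e) else 0) 0) = X.d _ 0 + 0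
          by_cases ha : a + 2 < k
          · rw [if_pos ha, if_pos ha, if_pos (by omega)]; simp [add_self']
          · rw [if_neg ha, if_neg ha]; simp }
  refine (cl_eq_of_whom φ fun i a => ?_).symm
  have hf : ∀ n v, φ.f i n a v = ((if k + 2 ≤ a then LinearMap.id else 0 : X.V →ₗ[K] X.V) v,
      (if a < k then LinearMap.id else 0 : X.V →ₗ[K] X.V) v) := fun _ _ => rfl
  have hm : ∀ n (y : X.V × X.V), y ∈ ((X.hi (k + 2)).sum (X.lo k)).deg i n a ↔
      y.1 ∈ (if k + 2 ≤ a then X.deg i n a else ⊥) ∧ y.2 ∈ (if a < k then X.deg i n a else ⊥) := fun _ _ => Iff.rfl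
  by_cases ha : k + 2 ≤ a
  · have ha' : ¬ a < k := by omega
    have hm' : ∀ n (y : X.V × X.V), y ∈ ((X.hi (k + 2)).sum (X.lo k)).deg i n a → y.1 ∈ X.deg i n a ∧ y.2 = 0 :=
      fun n y hy => by have := (hm n y).1 hy; rwa [if_pos ha, if_neg ha', Submodule.mem_bot] at this
    simp only [if_pos ha, if_neg ha'] at hf
    exact qiat_of_inv (fun _ y => y.1) (fun n y hy => (hm' n y hy).1) (fun _ _ _ => rfl) (fun _ => rfl)
      (fun n v _ => by rw [hf]; rfl) (fun n y hy => by rw [hf]; exact Prod.ext rfl (hm' n y hy).2.symm)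
  · by_cases ha' : a < k
    · have hm' : ∀ n (y : X.V × X.V), y ∈ ((X.hi (k + 2)).sum (X.lo k)).deg i n a → y.1 = 0 ∧ y.2 ∈ X.deg i n a :=
        fun n y hy => by have := (hm n y).1 hy; rwa [if_neg ha, if_pos ha', Submodule.mem_bot] at this
      simp only [if_neg ha, if_pos ha'] at hf
      exact qiat_of_inv (fun _ y => y.2) (fun n y hy => (hm' n y hy).2) (fun _ _ _ => rfl) (fun _ => rfl)
        (fun n v _ => by rw [hf]; rfl) (fun n y hy => by rw [hf]; exact Prod.ext (hm' n y hy).1.symm rfl)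
    · refine qiat_of_ac _ (fun n => (X.k2_hz_iff _ _ _).2 ?_) fun n y hy => ?_
      · rcases (show a = k ∨ a = k + 1 by omega) with rfl | rfl
        · exact h0 i n
        · exact h1 i n
      · have h2 := (hm n y).1 hy.1
        rw [if_neg ha, if_neg ha', Submodule.mem_bot, Submodule.mem_bot] at h2
        have : y = 0 := Prod.ext h2.1 h2.2
        rw [this]; exact zero_mem _

end DG

end Crest.Agent.R175.Mod
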