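import Crest.Agent.R175.Mod.K2

/-! # R175/Mod/K3 (helper98): direct sums, `Red`, the base objects -/

set_option autoImplicit false
noncomputable section
open Classical

namespace Crest.Agent.R175.Mod

variable {I E : Type} [Fintype E] {Γ : Gr I E}

namespace Obj

theorem k_T_ne (s : Γ.J) {j : I} (hj : j ≠ s) (x : Obj Γ) (n a : ℤ) : (Obj.T s x).Ac j n a ↔ x.Ac j n a := by
  obtain ⟨X, rfl⟩ := exists_rep x
  rw [T_cl, DG.k2_hz_cl, DG.k2_hz_cl, X.hz_T_ne s hj]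

theorem k_S_ne (s : Γ.J) {j : I} (hj : j ≠ s) (x : Obj Γ) (n a : ℤ) : ((Obj.T s)⁻¹ x).Ac j n a ↔ x.Ac j n a := by
  obtain ⟨X, rfl⟩ := exists_rep x
  rw [T_inv_cl, DG.k2_hz_cl, DG.k2_hz_cl, X.hz_S_ne s hj]

theorem k_S_self (s : Γ.J) {x : Obj Γ} {n a : ℤ} (hB : ∀ e, Γ.src e = s → x.Ac (Γ.tgt e) n (a - 1))
    (hV : x.Ac s (n + 1) (a - 2)) : ((Obj.T s)⁻¹ x).Ac s n a := by
  obtain ⟨X, rfl⟩ := exists_rep x
  rw [T_inv_cl, DG.k2_hz_cl]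
  exact X.hz_S_self s (fun e he => (X.k2_hz_cl _ _ _).1 (hB e he)) ((X.k2_hz_cl _ _ _).1 hV)

theorem k_T_self (s : Γ.J) {x : Obj Γ} {n a : ℤ} (hB : ∀ e, Γ.src e = s → x.Ac (Γ.tgt e) n (a + 1))
    (hV : x.Ac s (n - 1) (a + 2)) : (Obj.T s x).Ac s n a := by
  obtain ⟨X, rfl⟩ := exists_rep x
  rw [T_cl, DG.k2_hz_cl]
  exact X.hz_T_self s (fun e he => (X.k2_hz_cl _ _ _).1 (hB e he)) ((X.k2_hz_cl _ _ _).1 hV)

theorem k_of_T (s : Γ.J) {x : Obj Γ} {n a : ℤ} (hB : ∀ e, Γ.src e = s → x.Ac (Γ.tgt e) n (a - 1))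
    (hT : (Obj.T s x).Ac s (n + 1) (a - 2)) : x.Ac s n a := by
  obtain ⟨X, rfl⟩ := exists_rep x
  rw [T_cl, DG.k2_hz_cl] at hT
  exact (X.k2_hz_cl _ _ _).2 (X.hz_of_T s (fun e he => (X.k2_hz_cl _ _ _).1 (hB e he)) hT)

theorem k_T_all (s : Γ.J) {x : Obj Γ} (h : ∀ i n a, x.Ac i n a) (i : I) (n a : ℤ) : (Obj.T s x).Ac i n a := by
  by_cases hi : i = s
  · subst hi; exact k_T_self s (fun _ _ => h _ _ _) (h _ _ _)
  · exact (k_T_ne s hi x n a).2 (h _ _ _)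

theorem k_S_all (s : Γ.J) {x : Obj Γ} (h : ∀ i n a, x.Ac i n a) (i : I) (n a : ℤ) : ((Obj.T s)⁻¹ x).Ac i n a := by
  by_cases hi : i = s
  · subst hi; exact k_S_self s (fun _ _ => h _ _ _) (h _ _ _)
  · exact (k_S_ne s hi x n a).2 (h _ _ _)

end Obj

section sums
variable {X Y W Y' W' : PDG Γ}

/-- pairing -/
def Hom.kpair (φ : Hom X Y) (ψ : Hom X W) : Hom X (Y.sum W) where
  f i n a := (φ.f i n a).prod (ψ.f i n a)
  mem h := ⟨φ.mem h, ψ.mem h⟩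
  d h := Prod.ext (φ.d h) (ψ.d h)
  x h := Prod.ext (φ.x h) (ψ.x h)
  τ hi h := Prod.ext (φ.τ hi h) (ψ.τ hi h)

/-- projections -/
def Hom.kfst (Y W : PDG Γ) : Hom (Y.sum W) Y :=
  ⟨fun _ _ _ => LinearMap.fst K _ _, fun h => h.1, fun _ => rfl, fun _ => rfl, fun _ _ => rfl⟩
def Hom.ksnd (Y W : PDG Γ) : Hom (Y.sum W) W :=
  ⟨fun _ _ _ => LinearMap.snd K _ _, fun h => h.2, fun _ => rfl, fun _ => rfl, fun _ _ => rfl⟩

theorem sum_mem_Z {i : I} {n a : ℤ} {p : Y.V × W.V} : p ∈ (Y.sum W).Z i n a ↔ p.1 ∈ Y.Z i n a ∧ p.2 ∈ W.Z i n a :=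
  ⟨fun h => ⟨⟨h.1.1, congrArg Prod.fst h.2⟩, h.1.2, congrArg Prod.snd h.2⟩,
    fun h => ⟨⟨h.1.1, h.2.1⟩, Prod.ext h.1.2 h.2.2⟩⟩

theorem sum_mem_B {i : I} {n a : ℤ} {p : Y.V × W.V} : p ∈ (Y.sum W).B i n a ↔ p.1 ∈ Y.B i n a ∧ p.2 ∈ W.B i n a := by
  constructor
  · rintro ⟨w, hw, rfl⟩
    exact ⟨⟨w.1, hw.1, rfl⟩, w.2, hw.2, rfl⟩
  · rintro ⟨⟨u, hu, h1⟩, w, hw, h2⟩
    exact ⟨(u, w), ⟨hu, hw⟩, Prod.ext h1 h2⟩

theorem sum_qis (φ : Hom Y Y') (ψ : Hom W W') (h1 : ∀ i a, QIat φ.f i a) (h2 : ∀ i a, QIat ψ.f i a) :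
    (Y.sum W).cl = (Y'.sum W').cl := by
  refine cl_eq_of_hom ((φ.comp (Hom.kfst Y W)).kpair (ψ.comp (Hom.ksnd Y W))) fun i a n => ⟨?_, ?_⟩
  · intro p hp hf
    obtain ⟨h3, h4⟩ := sum_mem_Z.1 hp
    obtain ⟨h5, h6⟩ := sum_mem_B.1 hf
    exact sum_mem_B.2 ⟨(h1 i a n).1 _ h3 h5, (h2 i a n).1 _ h4 h6⟩
  · intro p hp
    obtain ⟨h3, h4⟩ := sum_mem_Z.1 hp
    obtain ⟨u, hu, h5⟩ := (h1 i a n).2 _ h3
    obtain ⟨w, hw, h6⟩ := (h2 i a n).2 _ h4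
    exact ⟨(u, w), sum_mem_Z.2 ⟨hu, hw⟩, sum_mem_B.2 ⟨h5, h6⟩⟩

theorem qiat_id (X : PDG Γ) (i : I) (a : ℤ) : QIat (Hom.id X).f i a :=
  fun _ => ⟨fun _ _ h => h, fun w hw => ⟨w, hw, by
    change w + w ∈ _
    rw [add_self']; exact zero_mem _⟩⟩

theorem sum_congr (h1 : Y.cl = Y'.cl) (h2 : W.cl = W'.cl) : (Y.sum W).cl = (Y'.sum W').cl :=
  (rel_of_cl_eq (R := fun Y Y' => (Y.sum W).cl = (Y'.sum W).cl) (fun _ => rfl) (fun _ _ => Eq.symm)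
    (fun _ _ _ => Eq.trans) (fun _ _ φ hφ => sum_qis φ (Hom.id W) hφ (qiat_id W)) h1).trans
  (rel_of_cl_eq (R := fun W W' => (Y'.sum W).cl = (Y'.sum W').cl) (fun _ => rfl) (fun _ _ => Eq.symm)
    (fun _ _ _ => Eq.trans) (fun _ _ φ hφ => sum_qis (Hom.id Y') φ (qiat_id Y') hφ) h2)

theorem sum_ac_snd {i : I} {n a : ℤ} (h : (Y.sum W).Ac i n a) : W.Ac i n a := fun w hw =>
  (sum_mem_B.1 (h (0, w) (sum_mem_Z.2 ⟨zero_mem _, hw⟩))).2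

end sums

/-- direct sum of `DG`s -/
@[reducible] def DG.ksum (X Y : DG Γ) : DG Γ where
  V := X.V × Y.V
  deg i n a := (X.deg i n a).prod (Y.deg i n a)
  d i := (X.d i).prodMap (Y.d i)
  x e := (X.x e).prodMap (Y.x e)
  τ i := (X.τ i).prodMap (Y.τ i)
  d_mem h := ⟨X.d_mem h.1, Y.d_mem h.2⟩
  x_mem h := ⟨X.x_mem h.1, Y.x_mem h.2⟩
  τ_mem h := ⟨X.τ_mem h.1, Y.τ_mem h.2⟩
  dd i v := Prod.ext (X.dd i _) (Y.dd i _)
  dx e v := Prod.ext (X.dx e _) (Y.dx e _)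
  rel i hi v := Prod.ext (by rw [Prod.fst_sum]; exact X.rel i hi _) (by rw [Prod.snd_sum]; exact Y.rel i hi _)
  bdd := (X.p.sum Y.p).bdd

theorem ksum_p (X Y : DG Γ) : (X.ksum Y).p = X.p.sum Y.p := rfl

theorem ksum_T (X Y : DG Γ) (s : Γ.J) : ((X.ksum Y).T s).p.cl = ((X.T s).p.sum (Y.T s).p).cl := by
  let π₁ : Hom (X.ksum Y).p X.p := Hom.kfst X.p Y.p
  let π₂ : Hom (X.ksum Y).p Y.p := Hom.ksnd X.p Y.p
  refine cl_eq_of_hom ((π₁.T s).kpair (π₂.T s)) fun i a => ?_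
  let p : ((E → X.V) × X.V) × ((E → Y.V) × Y.V) → (E → X.V × Y.V) × (X.V × Y.V) :=
    fun y => (fun e => (y.1.1 e, y.2.1 e), (y.1.2, y.2.2))
  have hf : ∀ n q, ((π₁.T s).kpair (π₂.T s)).f i n a q = ((π₁.T s).f i n a q, (π₂.T s).f i n a q) := fun _ _ => rfl
  by_cases hi : i = s
  · subst hi
    refine qiat_of_inv (fun _ => p) (fun n y hy => ?_) (fun n y _ => ?_) (fun _ => rfl) (fun n q _ => ?_) fun n y _ => ?_
    · obtain ⟨h1, h2⟩ := (X.T_mem_self s).1 hy.1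
      obtain ⟨h3, h4⟩ := (Y.T_mem_self s).1 hy.2
      rw [DG.mem_degB] at h1 h3
      exact ((X.ksum Y).T_mem_self s).2 ⟨(X.ksum Y).mem_degB.2 ⟨fun e he => ⟨h1.1 e he, h3.1 e he⟩,
        fun e he => Prod.ext (h1.2 e he) (h3.2 e he)⟩, h2, h4⟩
    · change p (X.Td s s y.1, Y.Td s s y.2) = (X.ksum Y).Td s s (p y)
      rw [DG.Td_self, DG.Td_self, DG.Td_self, (X.ksum Y).inn_apply, X.inn_apply, Y.inn_apply]
      refine Prod.ext rfl (Prod.ext ?_ ?_)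
      · rw [Prod.fst_add, Prod.fst_sum]; rfl
      · rw [Prod.snd_add, Prod.snd_sum]; rfl
    · rw [hf, Hom.T_f_self, Hom.T_f_self]; rfl
    · rw [hf, Hom.T_f_self, Hom.T_f_self]; rfl
  · refine qiat_of_inv (fun _ => p) (fun n y hy => ?_) (fun n y _ => ?_) (fun _ => rfl) (fun n q hq => ?_) fun n y hy => ?_
    · obtain ⟨h1, h2⟩ := (X.T_mem_ne s hi).1 hy.1
      obtain ⟨h3, h4⟩ := (Y.T_mem_ne s hi).1 hy.2
      exact ((X.ksum Y).T_mem_ne s hi).2 ⟨funext fun e => Prod.ext (congrFun h1 e) (congrFun h3 e), h2, h4⟩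
    · change p (X.Td s i y.1, Y.Td s i y.2) = (X.ksum Y).Td s i (p y)
      rw [DG.Td_ne _ hi, DG.Td_ne _ hi, DG.Td_ne _ hi]
      rfl
    · rw [hf, Hom.T_f_ne _ _ hi, Hom.T_f_ne _ _ hi]
      exact Prod.ext (((X.ksum Y).T_mem_ne s hi).1 hq).1.symm rfl
    · rw [hf, Hom.T_f_ne _ _ hi, Hom.T_f_ne _ _ hi]
      exact Prod.ext (Prod.ext ((X.T_mem_ne s hi).1 hy.1).1.symm rfl) (Prod.ext ((Y.T_mem_ne s hi).1 hy.2).1.symm rfl)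

theorem sum_T (s : Γ.J) {Y W Y' W' : PDG Γ} (h1 : Y'.cl = Obj.T s Y.cl) (h2 : W'.cl = Obj.T s W.cl) :
    (Y'.sum W').cl = Obj.T s (Y.sum W).cl := by
  obtain ⟨A, hA⟩ := exists_rep Y.cl
  obtain ⟨B, hB⟩ := exists_rep W.cl
  rw [← sum_congr hA hB, ← ksum_p, Obj.T_cl, ksum_T]
  exact sum_congr (by rw [h1, ← hA, Obj.T_cl]) (by rw [h2, ← hB, Obj.T_cl])

theorem red_T' (s : Γ.J) (x : Obj Γ) : Red (Obj.T s x) ↔ Red x := by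
  constructor
  · rintro h Y W rfl hW i n a
    obtain ⟨Y', hY'⟩ := exists_rep (Obj.T s Y.cl)
    obtain ⟨W', hW'⟩ := exists_rep (Obj.T s W.cl)
    have h1 := h Y'.p W'.p (sum_T s hY' hW') fun j hj n a => by
      rw [← Obj.ac_cl, hW', Obj.k_T_ne s (by rintro rfl; exact hj s.2), Obj.ac_cl]
      exact hW j hj n a
    have h2 : W.cl = (Obj.T s)⁻¹ W'.p.cl := by rw [hW']; simp
    rw [← Obj.ac_cl, h2]
    exact Obj.k_S_all s (fun i n a => (Obj.ac_cl _ _ _ _).2 (h1 i n a)) i n a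
  · intro h Y' W' he hW i n a
    obtain ⟨Y, hY⟩ := exists_rep ((Obj.T s)⁻¹ Y'.cl)
    obtain ⟨W, hW'⟩ := exists_rep ((Obj.T s)⁻¹ W'.cl)
    have h2 : W'.cl = Obj.T s W.p.cl := by rw [hW']; simp
    have h3 := sum_T s (Y := Y.p) (Y' := Y') (by rw [hY]; simp) h2
    have h1 := h Y.p W.p ((Obj.T s).injective (h3.symm.trans he)) fun j hj n a => by
      rw [← Obj.ac_cl, hW', Obj.k_S_ne s (by rintro rfl; exact hj s.2), Obj.ac_cl]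
      exact hW j hj n a
    rw [← Obj.ac_cl, h2]
    exact Obj.k_T_all s (fun i n a => (Obj.ac_cl _ _ _ _).2 (h1 i n a)) i n a

/-- strict morphisms as `Hom`s -/
def DG.LM.hom {X Y : DG Γ} (φ : DG.LM X Y) : Hom X.p Y.p :=
  ⟨fun i _ _ => φ.f i, φ.mem, fun _ => (φ.fd _ _).symm, fun _ => (φ.fx _ _).symm, fun hi _ => (φ.fτ _ hi _).symm⟩

theorem DG.LM.cl_eq {X Y : DG Γ} (φ : DG.LM X Y) (h : ∀ i a, φ.CA i a) : X.p.cl = Y.p.cl :=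
  cl_eq_of_hom φ.hom fun i a => qiat_of_cone fun n u hu y hy h1 h2 => by
    obtain ⟨v0, hv0, w0, hw0, h3, h4⟩ := h i a n u hu y hy h1 (eq_iff_add.1 h2)
    exact ⟨v0, hv0, w0, hw0, h3.symm, h4.symm⟩

theorem DG.T_cl_of_Q3 (X : DG Γ) (s : Γ.J) (h : ∀ a, X.Q3 s a) : (X.T s).p.cl = X.p.cl :=
  ((X.eta s).cl_eq fun i a => by
    by_cases hi : i = s
    · subst hi; exact X.eta_ca s (h a)
    · exact X.eta_ca_ne s hi a).symm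

/-- the base objects -/
@[reducible] def DG.base (R : Set I) : DG Γ where
  V := K
  deg i n a := if i ∈ R ∧ n = 0 ∧ a = 0 then ⊤ else ⊥
  d _ := 0
  x _ := 0
  τ _ := 0
  d_mem _ := zero_mem _
  x_mem _ := zero_mem _
  τ_mem _ := zero_mem _
  dd _ _ := rfl
  dx _ _ := rfl
  rel _ _ _ := by simp
  bdd := ⟨0, fun i n a v h h' => by
    rw [if_neg (by rintro ⟨-, rfl, rfl⟩; simp at h')] at h
    exact (Submodule.mem_bot K).1 h⟩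

theorem DG.base_hz (R : Set I) (i : I) (n a : ℤ) : (DG.base (Γ := Γ) R).Hz i n a ↔ ¬ (i ∈ R ∧ n = 0 ∧ a = 0) := by
  change (∀ v ∈ (if i ∈ R ∧ n = 0 ∧ a = 0 then ⊤ else ⊥ : Submodule K K), (0 : K) = 0 →
    ∃ w ∈ (if i ∈ R ∧ n - 1 = 0 ∧ a = 0 then ⊤ else ⊥ : Submodule K K), (0 : K) = v) ↔ _
  constructor
  · intro h h'
    obtain ⟨w, -, hw⟩ := h 1 (by rw [if_pos h']; trivial) rfl
    exact zero_ne_one hw
  · intro h v hv _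
    rw [if_neg h, Submodule.mem_bot] at hv
    exact ⟨0, zero_mem _, hv.symm⟩

end Crest.Agent.R175.Mod
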