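import Crest.Agent.R175.Mod.K3

/-! # R175/Mod/Low (helper98): the fields `kill`, `red_T`, `term`, `base` of the model -/

set_option autoImplicit false
noncomputable section
open Classical

namespace Crest.Agent.R175.Mod

variable {G : P.Gr}

/-- product of down moves -/
def wS (G : P.Gr) (l : List G.I) : Equiv.Perm (XX G) := (l.map fun j => (TT G j)⁻¹).prod

theorem wS_cons (j : G.I) (l : List G.I) : wS G (j :: l) = (TT G j)⁻¹ * wS G l := by simp [wS]

theorem wS_out {U : Set G.I} (hU : U ⊆ G.J) {l : List G.I} (hl : ∀ j ∈ l, j ∈ U) (x : XX G) {j : G.I} (hj : j ∉ U)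
    (n a : ℤ) : (wS G l x).Ac j n a ↔ x.Ac j n a := by
  induction l with
  | nil => simp [wS]
  | cons s l ih =>
    have hs := hl s (by simp)
    rw [wS_cons, Equiv.Perm.mul_apply, TT_eq (hU hs), Obj.k_S_ne _ (by rintro rfl; exact hj hs),
      ih fun j hj => hl j (by simp [hj])]

theorem wS_le {U : Set G.I} (hU : U ⊆ G.J) {A : ℤ → Prop} (hA : ∀ a, A a → A (a - 1)) {n : ℤ} {x : XX G}
    (h1 : ∀ i ∈ U, ∀ n', n < n' → ∀ a, A a → x.Ac i n' a)
    (h2 : ∀ e, G.src e ∈ U → G.tgt e ∉ U → ∀ n', n < n' → ∀ a, A a → x.Ac (G.tgt e) n' a)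
    {l : List G.I} (hl : ∀ j ∈ l, j ∈ U) : ∀ i ∈ U, ∀ n', n < n' → ∀ a, A a → (wS G l x).Ac i n' a := by
  induction l with
  | nil => simpa [wS] using h1
  | cons s l ih =>
    have hs := hl s (by simp)
    have hl' : ∀ j ∈ l, j ∈ U := fun j hj => hl j (by simp [hj])
    intro i hi n' hn a ha
    rw [wS_cons, Equiv.Perm.mul_apply, TT_eq (hU hs)]
    by_cases his : i = s
    · subst his
      refine Obj.k_S_self (Γ := toGr G) ⟨i, hU hs⟩ (fun e he => ?_) ?_
      · by_cases ht : G.tgt e ∈ U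
        · exact ih hl' _ ht n' hn _ (hA a ha)
        · exact (wS_out hU hl' x ht _ _).2 (h2 e (by rw [show G.src e = i from he]; exact hi) ht n' hn _ (hA a ha))
      · have := hA _ (hA a ha)
        rw [show a - 1 - 1 = a - 2 by ring] at this
        exact ih hl' i hi _ (by omega) _ this
    · exact (Obj.k_S_ne (Γ := toGr G) ⟨s, hU hs⟩ his _ _ _).2 (ih hl' i hi n' hn a ha)

theorem killA {U : Set G.I} (hU : U ⊆ G.J) {g : Equiv.Perm (XX G)} (hg : G.Gar (TT G) U g) {A : ℤ → Prop}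
    (hA : ∀ a, A a → A (a - 1)) {n : ℤ} {x : XX G} (h1 : ∀ i ∈ U, ∀ n', n < n' → ∀ a, A a → x.Ac i n' a)
    (h2 : ∀ e, G.src e ∈ U → G.tgt e ∉ U → ∀ n', n ≤ n' → ∀ a, A a → x.Ac (G.tgt e) n' a) :
    ∀ i ∈ U, ∀ n', n ≤ n' → ∀ a, A a → (g x).Ac i n' a := by
  have h2' : ∀ e, G.src e ∈ U → G.tgt e ∉ U → ∀ n', n < n' → ∀ a, A a → x.Ac (G.tgt e) n' a :=
    fun e he ht n' hn => h2 e he ht n' hn.le
  obtain ⟨N, hN⟩ := (g x).exists_bd
  have key : ∀ k : ℕ, ∀ a, a < -|N| + k → A a → ∀ i ∈ U, (g x).Ac i n a := by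
    intro k
    induction k with
    | zero => exact fun a ha _ i _ => hN i n a (Or.inr (by grind))
    | succ k ih =>
      intro a ha hAa i hi
      obtain ⟨l, hl, hgl⟩ := hg i hi
      have hgl' : g = wS G (i :: l) := by rw [wS_cons]; exact hgl
      have hl' : ∀ j ∈ i :: l, j ∈ U := by
        intro j hj
        rcases List.mem_cons.1 hj with rfl | hj
        exacts [hi, hl j hj]
      refine Obj.k_of_T (Γ := toGr G) ⟨i, hU hi⟩ (fun e he => ?_) ?_
      · by_cases ht : G.tgt e ∈ U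
        · exact ih _ (by push_cast at ha; omega) (hA a hAa) _ ht
        · rw [hgl']
          exact (wS_out hU hl' x ht _ _).2 (h2 e (by rw [show G.src e = i from he]; exact hi) ht n le_rfl _ (hA a hAa))
      · have h3 := hA _ (hA a hAa)
        rw [show a - 1 - 1 = a - 2 by ring] at h3
        have h4 : Obj.T (Γ := toGr G) ⟨i, hU hi⟩ (g x) = wS G l x := by
          rw [hgl', wS_cons, Equiv.Perm.mul_apply, TT_eq (hU hi)]; simp
        rw [h4]
        exact wS_le hU hA h1 h2' hl i hi _ (by omega) _ h3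
  intro i hi n' hn a ha
  rcases hn.eq_or_lt with rfl | hn
  · exact key (a + |N| + 1).toNat a (by omega) ha i hi
  · obtain ⟨l, hl, hgl⟩ := hg i hi
    have hgl' : g = wS G (i :: l) := by rw [wS_cons]; exact hgl
    rw [hgl']
    refine wS_le hU hA h1 h2' (fun j hj => ?_) i hi n' hn a ha
    rcases List.mem_cons.1 hj with rfl | hj
    exacts [hi, hl j hj]

theorem kill : ∀ U ⊆ G.J, ∀ g, G.Gar (TT G) U g → ∀ n x, G.Le (hh G) U n x →
    (∀ i ∈ U, ∀ j, j ∉ U → G.ne i j ≠ 0 → hh G x n j = 0) → ∀ i ∈ U, hh G (g x) n i = 0 := by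
  intro U hU g hg n x h1 h2 i hi
  rw [le_iff] at h1
  rw [hh_eq_zero]
  refine fun a => killA (A := fun _ => True) hU hg (fun _ _ => trivial)
    (fun i hi n' hn a _ => (h1 n' hn i hi).1 a) (fun e he ht n' hn a _ => ?_) i hi n le_rfl a trivial
  rcases hn.eq_or_lt with rfl | hn
  · exact (hh_eq_zero _ _ _).1 (h2 _ he _ ht (ne_ne_zero.2 ⟨e, rfl, rfl⟩)) a
  · exact (h1 n' hn _ he).2 e rfl a

theorem red_T : ∀ i ∈ G.J, ∀ x : XX G, Red (TT G i x) ↔ Red x := by
  intro i hi x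
  rw [TT_eq hi]
  exact red_T' _ x

theorem base : ∀ R : Set G.I, Disjoint R G.J → ∃ p : XX G, Red p ∧ (∀ n i, hh G p n i ≠ 0 ↔ n = 0 ∧ i ∈ R) ∧
    ∀ i ∈ G.J, (∀ j ∈ R, G.ne i j = 0) → TT G i p = p := by
  intro R hR
  have hJ : ∀ i ∈ G.J, i ∉ R := fun i hi h => Set.disjoint_left.1 hR h hi
  refine ⟨(DG.base (Γ := toGr G) R).p.cl, fun Y W he hW i n a => ?_, fun n i => ?_, fun i hi h => ?_⟩
  · by_cases hi : i ∈ G.J
    · refine sum_ac_snd (Y := Y) ?_
      rw [ac_iff_of_cl_eq he, DG.k2_hz_iff, DG.base_hz]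
      exact fun h => hJ i hi h.1
    · exact hW i hi n a
  · rw [Ne, hh_eq_zero]
    simp only [DG.k2_hz_cl, DG.base_hz, not_forall, not_not]
    exact ⟨fun ⟨_, h1, h2, _⟩ => ⟨h2, h1⟩, fun ⟨h1, h2⟩ => ⟨0, h2, h1, rfl⟩⟩
  · rw [TT_eq hi, Obj.T_cl]
    refine DG.T_cl_of_Q3 _ _ fun a => DG.Q3_of_hz _ hi (fun n => ?_) (fun n e he => ?_) fun n => ?_
    · rw [DG.base_hz]; exact fun h => hJ i hi h.1
    · rw [DG.base_hz]; exact fun h' => ne_ne_zero.2 ⟨e, he, rfl⟩ (h _ h'.1)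
    · rw [DG.base_hz]; exact fun h => hJ i hi h.1

/-- all three-term complexes over `U` are acyclic in Adams degrees `≥ J` -/
def PQ (U : Set G.I) (J : ℤ) (Y : DG (toGr G)) : Prop := ∀ i ∈ U, ∀ a, J ≤ a → Y.Q3 i a

theorem PQ.T {U : Set G.I} (hU : U ⊆ G.J) {J : ℤ} {Y : DG (toGr G)} (h : PQ U J Y) {s : G.I} (hs : s ∈ U) :
    PQ U J (Y.T ⟨s, hU hs⟩) := by
  intro i hi a ha
  by_cases his : i = s
  · subst his; exact Y.Q3_T_self ⟨i, hU hs⟩ (h i hi _ (by omega))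
  · exact Y.Q3_T_ne ⟨s, hU hs⟩ (hU hi) his (h i hi a ha) (h s hs _ (by omega))

theorem PQ.S {U : Set G.I} (hU : U ⊆ G.J) {J : ℤ} {Y : DG (toGr G)} (h : PQ U J Y) {s : G.I} (hs : s ∈ U) :
    PQ U (J + 2) (Y.S ⟨s, hU hs⟩) ∧ ∀ j n a, J + 2 ≤ a → ((Y.S ⟨s, hU hs⟩).Hz j n a ↔ Y.Hz j n a) := by
  refine ⟨fun i hi a ha => ?_, fun j n a ha => ?_⟩
  · by_cases his : i = s
    · subst his; exact (Y.Q3_S_self ⟨i, hU hs⟩ (h i hi (a - 2) (by omega))).cast
    · exact Y.Q3_S_ne ⟨s, hU hs⟩ (hU hi) his (h i hi a (by omega)) (h s hs _ (by omega))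
  · by_cases hj : j = s
    · subst hj; exact (Y.eps_ca ⟨j, hU hs⟩ (h j hs (a - 2) (by omega))).cast.hz n
    · exact Y.hz_S_ne ⟨s, hU hs⟩ hj n a

theorem PQ.word {U : Set G.I} (hU : U ⊆ G.J) {J : ℤ} {Y : DG (toGr G)} (h : PQ U J Y) {l : List G.I}
    (hl : ∀ j ∈ l, j ∈ U) : ∃ Z : DG (toGr G), Z.p.cl = wS G l Y.p.cl ∧ PQ U (J + 2 * l.length) Z ∧
      ∀ j n a, J + 2 * l.length ≤ a → (Z.Hz j n a ↔ Y.Hz j n a) := by
  induction l with
  | nil => exact ⟨Y, by simp [wS], by simpa using h, fun _ _ _ _ => Iff.rfl⟩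
  | cons s l ih =>
    have hs := hl s (by simp)
    obtain ⟨Z, h1, h2, h3⟩ := ih fun j hj => hl j (by simp [hj])
    obtain ⟨h4, h5⟩ := h2.S hU hs
    have e : J + 2 * ((s :: l).length : ℤ) = J + 2 * l.length + 2 := by
      rw [List.length_cons]; push_cast; ring
    rw [e]
    refine ⟨Z.S ⟨s, hU hs⟩, ?_, h4, fun j n a ha => (h5 j n a ha).trans (h3 j n a (by omega))⟩
    rw [wS_cons, Equiv.Perm.mul_apply, ← h1, TT_eq (hU hs), Obj.T_inv_cl]

theorem term : ∀ U ⊆ G.J, ∀ g, G.Gar (TT G) U g → ∀ (m : ℤ) (x : ℕ → XX G) (i : ℕ → G.I), Red (x 0) →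
    (∀ k, i k ∈ U) → (∀ k, x (k + 1) = TT G (i k) (x k)) → (∀ k, G.Le (hh G) U m (x k)) →
    (∀ j ∈ U, ∀ k, ∃ k', k ≤ k' ∧ i k' = j) → ∃ k₀, ∀ k, k₀ ≤ k → x (k + 1) = x k := by
  intro U hU g hg m x i hred hi hx hle hinf
  obtain ⟨X0, hX0⟩ := exists_rep (x 0)
  obtain ⟨X, rfl, hXs⟩ : ∃ X : ℕ → DG (toGr G), X 0 = X0 ∧ ∀ k, X (k + 1) = (X k).T ⟨i k, hU (hi k)⟩ :=
    ⟨fun k => Nat.rec X0 (fun k Y => Y.T ⟨i k, hU (hi k)⟩) k, rfl, fun _ => rfl⟩
  have hX : ∀ k, (X k).p.cl = x k := by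
    intro k
    induction k with
    | zero => exact hX0
    | succ k ih => rw [hXs, hx, ← ih, TT_eq (hU (hi k)), Obj.T_cl]
  have hR : ∀ k, Red (x k) := by
    intro k
    induction k with
    | zero => exact hred
    | succ k ih => rw [hx]; exact (red_T _ (hU (hi k)) _).2 ih
  obtain ⟨N', hN'⟩ := (X 0).bdd
  obtain ⟨N, hN⟩ : ∃ N : ℕ, ∀ j n a, (N : ℤ) < |n| ∨ (N : ℤ) < |a| → (X 0).Hz j n a :=
    ⟨N'.toNat, fun j n a h => (X 0).hz_of_bdd hN' (by omega)⟩
  -- outside of `U`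
  have hout : ∀ k, ∀ j, j ∉ U → ∀ n a, a < -(N : ℤ) → (X k).Hz j n a := by
    intro k
    induction k with
    | zero => exact fun j _ n a ha => hN j n a (Or.inr (lt_abs.2 (by omega)))
    | succ k ih =>
      intro j hj n a ha
      rw [hXs, DG.hz_T_ne _ _ (by rintro rfl; exact hj (hi k))]
      exact ih j hj n a ha
  -- lower bound
  have hlow : ∀ k, ∀ j n a, n < -(N : ℤ) → (X k).Hz j n a := by
    intro k
    induction k with
    | zero => exact fun j n a ha => hN j n a (Or.inl (lt_abs.2 (by omega)))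
    | succ k ih =>
      intro j n a hn
      rw [hXs]
      by_cases hj : j = i k
      · subst hj
        exact (X k).hz_T_self ⟨i k, hU (hi k)⟩ (fun e _ => ih _ _ _ hn) (ih _ _ _ (by omega))
      · exact ((X k).hz_T_ne ⟨i k, hU (hi k)⟩ hj n a).2 (ih j n a hn)
  -- the three-term complexes become acyclic
  have hP : ∀ t : ℕ, ∃ k1, ∀ k, k1 ≤ k → PQ U (N + 1 - t) (X k) := by
    intro t
    induction t with
    | zero =>
      refine ⟨0, fun k _ => ?_⟩
      induction k with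
      | zero =>
        exact fun j hj a ha => (X 0).Q3_of_hz (hU hj) (fun n => hN _ _ _ (Or.inr (lt_abs.2 (by omega))))
          (fun n e _ => hN _ _ _ (Or.inr (lt_abs.2 (by omega)))) fun n => hN _ _ _ (Or.inr (lt_abs.2 (by omega)))
      | succ k ih => rw [hXs]; exact (ih (Nat.zero_le _)).T hU (hi k)
    | succ t ih =>
      obtain ⟨k1, hk1⟩ := ih
      have : ∀ j, ∃ k2, j ∈ U → ∀ k, k2 ≤ k → (X k).Q3 j (N + 1 - t - 1) := by
        intro j
        by_cases hj : j ∈ U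
        · obtain ⟨k', hk', hj'⟩ := hinf j hj k1
          refine ⟨k' + 1, fun _ k hk => ?_⟩
          induction k, hk using Nat.le_induction with
          | base =>
            subst hj'
            rw [hXs]
            exact (X k').Q3_T_self ⟨i k', hU hj⟩ (hk1 k' hk' _ hj _ (by omega))
          | succ k hk ih =>
            rw [hXs]
            by_cases hjk : j = i k
            · subst hjk
              exact (X k).Q3_T_self ⟨i k, hU hj⟩ (hk1 k (by omega) _ hj _ (by omega))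
            · exact (X k).Q3_T_ne ⟨i k, hU (hi k)⟩ (hU hj) hjk ih (hk1 k (by omega) _ (hi k) _ (by omega))
        · exact ⟨0, fun h => absurd h hj⟩
      choose k2 hk2 using this
      refine ⟨max k1 (Finset.univ.sup k2), fun k hk j hj a ha => ?_⟩
      push_cast at ha
      by_cases ha' : (N : ℤ) + 1 - t ≤ a
      · exact hk1 k (le_of_max_le_left hk) j hj a ha'
      · exact (hk2 j hj k ((Finset.le_sup (Finset.mem_univ j)).trans (le_of_max_le_right hk))).cast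
  -- powers of the Garside element
  obtain ⟨l0, hl0, hg0⟩ := hg (i 0) (hi 0)
  have hg0' : g = wS G (i 0 :: l0) := by rw [wS_cons]; exact hg0
  have hl0' : ∀ j ∈ i 0 :: l0, j ∈ U := by
    intro j hj
    rcases List.mem_cons.1 hj with rfl | hj
    exacts [hi 0, hl0 j hj]
  have hpow : ∀ M : ℕ, ∃ l : List G.I, (∀ j ∈ l, j ∈ U) ∧ g ^ M = wS G l := by
    intro M
    induction M with
    | zero => exact ⟨[], by simp, by simp [wS]⟩
    | succ M ih =>
      obtain ⟨l, hl, he⟩ := ih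
      refine ⟨(i 0 :: l0) ++ l, fun j hj => (List.mem_append.1 hj).elim (hl0' j) (hl j), ?_⟩
      rw [pow_succ', he, hg0', wS, wS, wS, List.map_append, List.prod_append]
  have hkill : ∀ k, ∀ M : ℕ, ∀ j ∈ U, ∀ n', m - M < n' → ∀ a, a < -(N : ℤ) → ((g ^ M) (x k)).Ac j n' a := by
    intro k M
    induction M with
    | zero =>
      intro j hj n' hn a _
      exact ((le_iff U m (x k)).1 (hle k) n' (by simpa using hn) j hj).1 a
    | succ M ih =>
      intro j hj n' hn a ha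
      obtain ⟨l, hl, he⟩ := hpow M
      rw [pow_succ', Equiv.Perm.mul_apply]
      refine killA (A := fun a => a < -(N : ℤ)) hU hg (fun a ha => by omega) ih (fun e _ ht n' _ a ha => ?_) j hj n'
        (by push_cast at hn; omega) a ha
      rw [he, wS_out hU hl _ ht, ← hX, DG.k2_hz_cl]
      exact hout k _ ht _ _ ha
  obtain ⟨l, hl, he⟩ := hpow (m + N + 1).toNat
  obtain ⟨k1, hk1⟩ := hP (2 * N + 3 + 2 * l.length)
  refine ⟨k1, fun k hk => ?_⟩
  have hQ := hk1 k hk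
  push_cast at hQ
  obtain ⟨Z, hZ1, -, hZ3⟩ := hQ.word hU hl
  have hwin : ∀ j n a, -(N : ℤ) - 2 ≤ a → a < -(N : ℤ) → (X k).Hz j n a := by
    intro j n a h1 h2
    by_cases hj : j ∈ U
    · by_cases hn : n < -(N : ℤ)
      · exact hlow k j n a hn
      · rw [← hZ3 j n a (by omega), ← DG.k2_hz_cl, hZ1, ← he, hX]
        exact hkill k _ j hj n (by omega) a h2
    · exact hout k j hj n a h2
  have hgap := (X k).gap (-(N : ℤ) - 2) (fun j n => hwin j n _ le_rfl (by omega)) fun j n => hwin j n _ (by omega) (by omega)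
  have hlo := hR k _ _ (hgap.trans (hX k)) fun j hj n a => (X k).lo_ac.2 fun ha =>
    hout k j (fun h => hj (hU h)) n a (by omega)
  have hall : ∀ j n a, a < -(N : ℤ) → (X k).Hz j n a := by
    intro j n a ha
    by_cases h : -(N : ℤ) - 2 ≤ a
    · exact hwin j n a h ha
    · exact (X k).lo_ac.1 (hlo j n a) (by omega)
  rw [← hX, ← hX, hXs]
  refine DG.T_cl_of_Q3 _ _ fun a => ?_
  by_cases ha : a + 2 < -(N : ℤ)
  · exact (X k).Q3_of_hz (hU (hi k)) (fun n => hall _ _ _ (by omega)) (fun n e _ => hall _ _ _ (by omega))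
      fun n => hall _ _ _ ha
  · exact hQ _ (hi k) a (by omega)

end Crest.Agent.R175.Mod
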