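import Crest.Agent.R175.Mod.Pre
import Crest.Agent.R175.Mod.Braid2

/-! # R175/Mod/Main.  The simply-laced model exists. -/

namespace Crest.Agent.R175.Mod

theorem sl : P.S_SL := sl_of_braid braid_TT2

end Crest.Agent.R175.Mod
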