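import Crest.Agent.R175.Mod.Defs

/-! # R175/Mod/PDG (owner helper48).  Label-indexed dg modules (identities only on the graded pieces), morphisms, quasi-isomorphisms. -/

set_option autoImplicit false
noncomputable section
open Classical

namespace Crest.Agent.R175.Mod

variable {I E : Type} [Fintype E]

/-- dg module whose structure maps depend on the label `(vertex, degree, Adams degree)`; identities on the graded pieces only -/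
structure PDG (Γ : Gr I E) where
  V : Type
  [acg : AddCommGroup V]
  [mod : Module K V]
  [fin : Finite V]
  deg : I → ℤ → ℤ → Submodule K V
  d : I → ℤ → ℤ → V →ₗ[K] V
  x : E → ℤ → ℤ → V →ₗ[K] V
  τ : I → ℤ → ℤ → V →ₗ[K] V
  d_mem : ∀ {i n a v}, v ∈ deg i n a → d i n a v ∈ deg i (n + 1) a
  x_mem : ∀ {e n a v}, v ∈ deg (Γ.src e) n a → x e n a v ∈ deg (Γ.tgt e) n (a + 1)
  τ_mem : ∀ {i n a v}, v ∈ deg i n a → τ i n a v ∈ deg i (n - 1) (a + 2)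
  dd : ∀ {i n a v}, v ∈ deg i n a → d i (n + 1) a (d i n a v) = 0
  dx : ∀ {e n a v}, v ∈ deg (Γ.src e) n a → d (Γ.tgt e) n (a + 1) (x e n a v) = x e (n + 1) a (d (Γ.src e) n a v)
  rel : ∀ {i n a v}, i ∈ Γ.J → v ∈ deg i n a →
    d i (n - 1) (a + 2) (τ i n a v) + τ i (n + 1) a (d i n a v) = ∑ e ∈ Γ.O i, x (Γ.bar e) n (a + 1) (x e n a v)
  bdd : ∃ N : ℤ, ∀ i n a v, v ∈ deg i n a → N < |n| ∨ N < |a| → v = 0

attribute [instance] PDG.acg PDG.mod PDG.fin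

variable {Γ : Gr I E}

/-- a `DG` is a `PDG` -/
@[reducible] def DG.p (X : DG Γ) : PDG Γ where
  V := X.V
  deg := X.deg
  d i _ _ := X.d i
  x e _ _ := X.x e
  τ i _ _ := X.τ i
  d_mem := X.d_mem
  x_mem := X.x_mem
  τ_mem := X.τ_mem
  dd _ := X.dd _ _
  dx _ := X.dx _ _
  rel hi _ := X.rel _ hi _
  bdd := X.bdd

namespace PDG

variable (X : PDG Γ)

theorem cast {i : I} {n a n' a' : ℤ} {v : X.V} (h : v ∈ X.deg i n a) (hn : n = n' := by omega) (ha : a = a' := by omega) :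
    v ∈ X.deg i n' a' := hn ▸ ha ▸ h

/-- cycles -/
def Z (i : I) (n a : ℤ) : Submodule K X.V where
  carrier := {v | v ∈ X.deg i n a ∧ X.d i n a v = 0}
  add_mem' h1 h2 := ⟨add_mem h1.1 h2.1, by rw [map_add, h1.2, h2.2, add_zero]⟩
  zero_mem' := ⟨zero_mem _, map_zero _⟩
  smul_mem' c _ h := ⟨Submodule.smul_mem _ c h.1, by rw [map_smul, h.2, smul_zero]⟩

/-- boundaries -/
def B (i : I) (n a : ℤ) : Submodule K X.V := (X.deg i (n - 1) a).map (X.d i (n - 1) a)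

theorem mem_Z {i : I} {n a : ℤ} {v : X.V} : v ∈ X.Z i n a ↔ v ∈ X.deg i n a ∧ X.d i n a v = 0 := Iff.rfl

theorem mem_B {i : I} {n a : ℤ} {v : X.V} : v ∈ X.B i n a ↔ ∃ w ∈ X.deg i (n - 1) a, X.d i (n - 1) a w = v := Iff.rfl

theorem mem_B_succ {i : I} {n a : ℤ} {v : X.V} : v ∈ X.B i (n + 1) a ↔ ∃ w ∈ X.deg i n a, X.d i n a w = v := by
  rw [mem_B, add_sub_cancel_right]

theorem B_le_Z (i : I) (n a : ℤ) : X.B i n a ≤ X.Z i n a := by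
  obtain ⟨k, rfl⟩ : ∃ k, n = k + 1 := ⟨n - 1, by omega⟩
  intro v hv
  obtain ⟨w, hw, rfl⟩ := X.mem_B_succ.1 hv
  exact ⟨X.d_mem hw, X.dd hw⟩

theorem x_Z {e : E} {n a : ℤ} {v : X.V} (h : v ∈ X.Z (Γ.src e) n a) : X.x e n a v ∈ X.Z (Γ.tgt e) n (a + 1) :=
  ⟨X.x_mem h.1, by rw [X.dx h.1, h.2, map_zero]⟩

theorem x_B {e : E} {n a : ℤ} {v : X.V} (h : v ∈ X.B (Γ.src e) n a) : X.x e n a v ∈ X.B (Γ.tgt e) n (a + 1) := by
  obtain ⟨k, rfl⟩ : ∃ k, n = k + 1 := ⟨n - 1, by omega⟩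
  obtain ⟨w, hw, rfl⟩ := X.mem_B_succ.1 h
  exact X.mem_B_succ.2 ⟨_, X.x_mem hw, X.dx hw⟩

/-- no cohomology at the label `(i, n, a)` -/
def Ac (i : I) (n a : ℤ) : Prop := ∀ v ∈ X.Z i n a, v ∈ X.B i n a

end PDG

/-- strict morphisms -/
structure Hom (X Y : PDG Γ) where
  f : I → ℤ → ℤ → X.V →ₗ[K] Y.V
  mem : ∀ {i n a v}, v ∈ X.deg i n a → f i n a v ∈ Y.deg i n a
  d : ∀ {i n a v}, v ∈ X.deg i n a → f i (n + 1) a (X.d i n a v) = Y.d i n a (f i n a v)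
  x : ∀ {e n a v}, v ∈ X.deg (Γ.src e) n a → f (Γ.tgt e) n (a + 1) (X.x e n a v) = Y.x e n a (f (Γ.src e) n a v)
  τ : ∀ {i n a v}, i ∈ Γ.J → v ∈ X.deg i n a → f i (n - 1) (a + 2) (X.τ i n a v) = Y.τ i n a (f i n a v)

/-- weak morphisms -/
structure WHom (X Y : PDG Γ) where
  f : I → ℤ → ℤ → X.V →ₗ[K] Y.V
  h : E → ℤ → ℤ → X.V →ₗ[K] Y.V
  k : I → ℤ → ℤ → X.V →ₗ[K] Y.V
  mem : ∀ {i n a v}, v ∈ X.deg i n a → f i n a v ∈ Y.deg i n a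
  h_mem : ∀ {e n a v}, v ∈ X.deg (Γ.src e) n a → h e n a v ∈ Y.deg (Γ.tgt e) (n - 1) (a + 1)
  k_mem : ∀ {i n a v}, v ∈ X.deg i n a → k i n a v ∈ Y.deg i (n - 2) (a + 2)
  d : ∀ {i n a v}, v ∈ X.deg i n a → f i (n + 1) a (X.d i n a v) = Y.d i n a (f i n a v)
  x : ∀ {e n a v}, v ∈ X.deg (Γ.src e) n a → f (Γ.tgt e) n (a + 1) (X.x e n a v) + Y.x e n a (f (Γ.src e) n a v) =
    Y.d (Γ.tgt e) (n - 1) (a + 1) (h e n a v) + h e (n + 1) a (X.d (Γ.src e) n a v)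
  τ : ∀ {i n a v}, i ∈ Γ.J → v ∈ X.deg i n a → f i (n - 1) (a + 2) (X.τ i n a v) + Y.τ i n a (f i n a v) +
    ∑ e ∈ Γ.O i, (h (Γ.bar e) n (a + 1) (X.x e n a v) + Y.x (Γ.bar e) (n - 1) (a + 1) (h e n a v)) =
    Y.d i (n - 2) (a + 2) (k i n a v) + k i (n + 1) a (X.d i n a v)

section
variable {X Y W : PDG Γ}

/-- injective on cohomology at a label -/
def InjAt (f : I → ℤ → ℤ → X.V →ₗ[K] Y.V) (i : I) (n a : ℤ) : Prop := ∀ v ∈ X.Z i n a, f i n a v ∈ Y.B i n a → v ∈ X.B i n a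

/-- surjective on cohomology at a label -/
def SurAt (f : I → ℤ → ℤ → X.V →ₗ[K] Y.V) (i : I) (n a : ℤ) : Prop := ∀ w ∈ Y.Z i n a, ∃ v ∈ X.Z i n a, f i n a v + w ∈ Y.B i n a

/-- quasi-isomorphism at `(i, a)` -/
def QIat (f : I → ℤ → ℤ → X.V →ₗ[K] Y.V) (i : I) (a : ℤ) : Prop := ∀ n, InjAt f i n a ∧ SurAt f i n a

/-- the cone is acyclic at `(i, n, a)` -/
def ConeAt (f : I → ℤ → ℤ → X.V →ₗ[K] Y.V) (i : I) (n a : ℤ) : Prop :=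
  ∀ u ∈ X.deg i (n + 1) a, ∀ y ∈ Y.deg i n a, X.d i (n + 1) a u = 0 → f i (n + 1) a u = Y.d i n a y →
    ∃ u' ∈ X.deg i n a, ∃ y' ∈ Y.deg i (n - 1) a, u = X.d i n a u' ∧ y = f i n a u' + Y.d i (n - 1) a y'

theorem qiat_of_cone {f : I → ℤ → ℤ → X.V →ₗ[K] Y.V} {i : I} {a : ℤ} (h : ∀ n, ConeAt f i n a) : QIat f i a := by
  intro n
  constructor
  · obtain ⟨k, rfl⟩ : ∃ k, n = k + 1 := ⟨n - 1, by omega⟩
    intro v hv hf
    obtain ⟨y, hy, hy'⟩ := Y.mem_B_succ.1 hf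
    obtain ⟨u', hu', -, -, h1, -⟩ := h k v hv.1 y hy hv.2 hy'.symm
    exact X.mem_B_succ.2 ⟨u', hu', h1.symm⟩
  · intro w hw
    obtain ⟨u', hu', y', hy', h1, h2⟩ := h n 0 (zero_mem _) w hw.1 (map_zero _) (by rw [map_zero]; exact hw.2.symm)
    exact ⟨u', ⟨hu', h1.symm⟩, y', hy', by rw [h2, add_add_self]⟩

namespace Hom

theorem map_Z (φ : Hom X Y) {i : I} {n a : ℤ} {v : X.V} (h : v ∈ X.Z i n a) : φ.f i n a v ∈ Y.Z i n a :=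
  ⟨φ.mem h.1, by rw [← φ.d h.1, h.2, map_zero]⟩

theorem map_B (φ : Hom X Y) {i : I} {n a : ℤ} {v : X.V} (h : v ∈ X.B i n a) : φ.f i n a v ∈ Y.B i n a := by
  obtain ⟨k, rfl⟩ : ∃ k, n = k + 1 := ⟨n - 1, by omega⟩
  obtain ⟨w, hw, rfl⟩ := X.mem_B_succ.1 h
  exact Y.mem_B_succ.2 ⟨_, φ.mem hw, (φ.d hw).symm⟩

theorem cone (φ : Hom X Y) {i : I} {n a : ℤ} (h1 : InjAt φ.f i (n + 1) a) (h2 : SurAt φ.f i n a) : ConeAt φ.f i n a := by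
  intro u hu y hy hdu hfu
  obtain ⟨u₁, hu₁, rfl⟩ := X.mem_B_succ.1 (h1 u ⟨hu, hdu⟩ (Y.mem_B_succ.2 ⟨y, hy, hfu.symm⟩))
  obtain ⟨v, hv, y', hy', h3⟩ := h2 (φ.f i n a u₁ + y) ⟨add_mem (φ.mem hu₁) hy, by
    rw [map_add, ← φ.d hu₁, hfu, add_self']⟩
  refine ⟨u₁ + v, add_mem hu₁ hv.1, y', hy', by rw [map_add, hv.2, add_zero], ?_⟩
  rw [h3, map_add, add_comm (φ.f i n a u₁), add_assoc, add_left_comm (φ.f i n a u₁), add_add_self, add_add_self]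

/-- identity -/
def id (X : PDG Γ) : Hom X X := ⟨fun _ _ _ => LinearMap.id, fun h => h, fun _ => rfl, fun _ => rfl, fun _ _ => rfl⟩

/-- composition -/
def comp (ψ : Hom Y W) (φ : Hom X Y) : Hom X W where
  f i n a := ψ.f i n a ∘ₗ φ.f i n a
  mem h := ψ.mem (φ.mem h)
  d h := by rw [LinearMap.comp_apply, φ.d h, ψ.d (φ.mem h)]; rfl
  x h := by rw [LinearMap.comp_apply, φ.x h, ψ.x (φ.mem h)]; rfl
  τ hi h := by rw [LinearMap.comp_apply, φ.τ hi h, ψ.τ hi (φ.mem h)]; rfl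

@[simp] theorem comp_f (ψ : Hom Y W) (φ : Hom X Y) (i : I) (n a : ℤ) (v : X.V) : (ψ.comp φ).f i n a v = ψ.f i n a (φ.f i n a v) := rfl

theorem qiat_comp (ψ : Hom Y W) (φ : Hom X Y) {i : I} {a : ℤ} (h1 : QIat ψ.f i a) (h2 : QIat φ.f i a) : QIat (ψ.comp φ).f i a := by
  refine fun n => ⟨fun v hv h => (h2 n).1 v hv ((h1 n).1 _ (φ.map_Z hv) h), fun w hw => ?_⟩
  obtain ⟨y, hy, hy'⟩ := (h1 n).2 w hw
  obtain ⟨v, hv, hv'⟩ := (h2 n).2 y hy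
  refine ⟨v, hv, ?_⟩
  have := add_mem (ψ.map_B hv') hy'
  rwa [map_add, add_assoc, add_add_self] at this

theorem qiat_left (ψ : Hom Y W) (φ : Hom X Y) {i : I} {a : ℤ} (h : QIat (ψ.comp φ).f i a) (h2 : QIat φ.f i a) : QIat ψ.f i a := by
  refine fun n => ⟨fun y hy hy' => ?_, fun w hw => ?_⟩
  · obtain ⟨v, hv, hv'⟩ := (h2 n).2 y hy
    have h3 := add_mem (ψ.map_B hv') hy'
    rw [map_add, add_assoc, add_self', add_zero] at h3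
    have := add_mem (φ.map_B ((h n).1 v hv h3)) hv'
    rwa [add_add_self] at this
  · obtain ⟨v, hv, hv'⟩ := (h n).2 w hw
    exact ⟨_, φ.map_Z hv, hv'⟩

theorem qiat_right (ψ : Hom Y W) (φ : Hom X Y) {i : I} {a : ℤ} (h : QIat (ψ.comp φ).f i a) (h1 : QIat ψ.f i a) : QIat φ.f i a := by
  refine fun n => ⟨fun v hv hv' => (h n).1 v hv (ψ.map_B hv'), fun y hy => ?_⟩
  obtain ⟨v, hv, hv'⟩ := (h n).2 _ (ψ.map_Z hy)
  exact ⟨v, hv, (h1 n).1 _ (add_mem (φ.map_Z hv) hy) (by rwa [map_add])⟩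

end Hom

/-- maps that agree on the graded pieces -/
theorem QIat.congr {f g : I → ℤ → ℤ → X.V →ₗ[K] Y.V} {i : I} {a : ℤ} (h : QIat f i a)
    (hfg : ∀ n, ∀ v ∈ X.deg i n a, f i n a v = g i n a v) : QIat g i a := by
  refine fun n => ⟨fun v hv hv' => (h n).1 v hv (by rwa [hfg n v hv.1]), fun w hw => ?_⟩
  obtain ⟨v, hv, hv'⟩ := (h n).2 w hw
  exact ⟨v, hv, by rwa [← hfg n v hv.1]⟩

/-- a chain map with a homotopy inverse: `p f = 1 + [d, G]`, `f p = 1 + [d, H]` -/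
theorem qiat_of_htpy {f : I → ℤ → ℤ → X.V →ₗ[K] Y.V} {i : I} {a : ℤ} (p : ℤ → Y.V → X.V) (G : ℤ → X.V → X.V) (H : ℤ → Y.V → Y.V)
    (p_mem : ∀ n, ∀ y ∈ Y.deg i n a, p n y ∈ X.deg i n a)
    (p_d : ∀ n, ∀ y ∈ Y.deg i n a, p (n + 1) (Y.d i n a y) = X.d i n a (p n y)) (p0 : ∀ n, p n 0 = 0)
    (G_mem : ∀ n, ∀ v ∈ X.deg i n a, G n v ∈ X.deg i (n - 1) a) (G0 : ∀ n, G n 0 = 0)
    (H_mem : ∀ n, ∀ y ∈ Y.deg i n a, H n y ∈ Y.deg i (n - 1) a) (H0 : ∀ n, H n 0 = 0)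
    (pf : ∀ n, ∀ v ∈ X.deg i n a, p n (f i n a v) + v = X.d i (n - 1) a (G n v) + G (n + 1) (X.d i n a v))
    (fp : ∀ n, ∀ y ∈ Y.deg i n a, f i n a (p n y) + y = Y.d i (n - 1) a (H n y) + H (n + 1) (Y.d i n a y)) : QIat f i a := by
  refine fun n => ⟨fun v hv hv' => ?_, fun w hw => ⟨p n w, ⟨p_mem n w hw.1, ?_⟩, H n w, H_mem n w hw.1, ?_⟩⟩
  · have h1 : p n (f i n a v) ∈ X.B i n a := by
      obtain ⟨k, rfl⟩ : ∃ k, n = k + 1 := ⟨n - 1, by omega⟩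
      obtain ⟨y, hy, hy'⟩ := Y.mem_B_succ.1 hv'
      exact X.mem_B_succ.2 ⟨_, p_mem k y hy, by rw [← hy', p_d k y hy]⟩
    have h2 : p n (f i n a v) + v ∈ X.B i n a := ⟨_, G_mem n v hv.1, by rw [pf n v hv.1, hv.2, G0, add_zero]⟩
    have := add_mem h1 h2
    rwa [add_add_self] at this
  · rw [← p_d n w hw.1, hw.2, p0]
  · rw [fp n w hw.1, hw.2, H0, add_zero]

/-- a chain map that is bijective on the graded pieces -/
theorem qiat_of_inv {f : I → ℤ → ℤ → X.V →ₗ[K] Y.V} {i : I} {a : ℤ} (p : ℤ → Y.V → X.V)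
    (p_mem : ∀ n, ∀ y ∈ Y.deg i n a, p n y ∈ X.deg i n a)
    (p_d : ∀ n, ∀ y ∈ Y.deg i n a, p (n + 1) (Y.d i n a y) = X.d i n a (p n y)) (p0 : ∀ n, p n 0 = 0)
    (pf : ∀ n, ∀ v ∈ X.deg i n a, p n (f i n a v) = v) (fp : ∀ n, ∀ y ∈ Y.deg i n a, f i n a (p n y) = y) : QIat f i a :=
  qiat_of_htpy p (fun _ _ => 0) (fun _ _ => 0) p_mem p_d p0 (fun _ _ _ => zero_mem _) (fun _ => rfl) (fun _ _ _ => zero_mem _)
    (fun _ => rfl) (fun n v hv => by rw [pf n v hv, add_self', map_zero, add_zero])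
    (fun n v hv => by rw [fp n v hv, add_self', map_zero, add_zero])

theorem QIat.ac_iff (φ : Hom X Y) {i : I} {a : ℤ} (h : QIat φ.f i a) (n : ℤ) : X.Ac i n a ↔ Y.Ac i n a := by
  refine ⟨fun hX w hw => ?_, fun hY v hv => (h n).1 v hv (hY _ (φ.map_Z hv))⟩
  obtain ⟨v, hv, hv'⟩ := (h n).2 w hw
  have := add_mem (φ.map_B (hX v hv)) hv'
  rwa [add_add_self] at this

theorem qiat_of_ac (f : I → ℤ → ℤ → X.V →ₗ[K] Y.V) {i : I} {a : ℤ} (hX : ∀ n, X.Ac i n a) (hY : ∀ n, Y.Ac i n a) : QIat f i a :=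
  fun n => ⟨fun v hv _ => hX n v hv, fun w hw => ⟨0, zero_mem _, by rw [map_zero, zero_add]; exact hY n w hw⟩⟩

end

/-- there is a strict quasi-isomorphism -/
def Qis (X Y : PDG Γ) : Prop := ∃ φ : Hom X Y, ∀ i a, QIat φ.f i a

/-- classes of dg modules -/
def Obj (Γ : Gr I E) : Type 1 := Quot (Qis (Γ := Γ))

/-- the class of a module -/
def PDG.cl (X : PDG Γ) : Obj Γ := Quot.mk _ X

theorem cl_eq_of_hom {X Y : PDG Γ} (φ : Hom X Y) (h : ∀ i a, QIat φ.f i a) : X.cl = Y.cl := Quot.sound ⟨φ, h⟩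

/-- to prove a statement about equal classes, prove it is an equivalence relation containing `Qis` -/
theorem rel_of_cl_eq {R : PDG Γ → PDG Γ → Prop} (hr : ∀ X, R X X) (hs : ∀ X Y, R X Y → R Y X) (ht : ∀ X Y W, R X Y → R Y W → R X W)
    (hq : ∀ X Y (φ : Hom X Y), (∀ i a, QIat φ.f i a) → R X Y) {X Y : PDG Γ} (h : X.cl = Y.cl) : R X Y := by
  have := Quot.eqvGen_exact h
  induction this with
  | rel x y hxy => obtain ⟨φ, hφ⟩ := hxy; exact hq _ _ φ hφ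
  | refl x => exact hr x
  | symm x y hxy ih => exact hs _ _ (ih (Quot.eqvGen_sound hxy))
  | trans x y z hxy hyz ih1 ih2 => exact ht _ _ _ (ih1 (Quot.eqvGen_sound hxy)) (ih2 (Quot.eqvGen_sound hyz))

theorem ac_iff_of_cl_eq {X Y : PDG Γ} (h : X.cl = Y.cl) (i : I) (n a : ℤ) : X.Ac i n a ↔ Y.Ac i n a :=
  rel_of_cl_eq (R := fun X Y => X.Ac i n a ↔ Y.Ac i n a) (fun _ => Iff.rfl) (fun _ _ => Iff.symm) (fun _ _ _ => Iff.trans)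
    (fun _ _ φ hφ => QIat.ac_iff φ (hφ i a) n) h

end Crest.Agent.R175.Mod
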