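import Crest.Agent.R175.Mod.Top
import Crest.Agent.R175.Mod.Low
import Crest.Agent.R175.Mod.Comm

/-! # R175/Mod/Pre (helper9): the model, given the braid relation -/

set_option autoImplicit false
noncomputable section
namespace Crest.Agent.R175.Mod

theorem sl_of_braid (hb : ∀ G : P.Gr, ∀ i ∈ G.J, ∀ j ∈ G.J, G.ne i j = 1 → TT G i * TT G j * TT G i = TT G j * TT G i * TT G j) : P.S_SL := fun G =>
  ⟨{ X := XX G, T := TT G, h := hh G, sur := surG G, Red := Red, comm := comm_TT G, braid := hb G, bdd := bdd_hh,
     loc := loc_hh, down := down_G G, sur_refl := sur_refl_G G, sur_trans := sur_trans_G G, sur_le := sur_le_G G,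
     sur_down := sur_down_G G, sur_alw := sur_alw_G G, fold := fold_G G, top3 := top3_G G, exact := exact_G G,
     kill := kill, red_T := red_T, term := term, base := base }⟩

end Crest.Agent.R175.Mod
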