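import Crest.Agent.R175.Mod.C3

/-! # R175/Mod/Top (helper9): the fields `down, sur_*, fold, top3, exact` of `SL`, with `sur := SurO` -/

set_option autoImplicit false
noncomputable section
open Classical

namespace Crest.Agent.R175.Mod

variable (G : P.Gr)

/-- the relation `sur` of the model -/
def surG (m : ℤ) (x y : XX G) : Prop := SurO m x y

variable {G}

theorem le_cl {i : G.I} {m : ℤ} {X : DG (toGr G)} : G.Le (hh G) {i} m X.p.cl ↔ X.LeD i m := by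
  rw [le_iff]
  simp only [Set.mem_singleton_iff, forall_eq, Obj.ac_cl]
  exact forall₂_congr fun n _ => ⟨fun h a => ⟨DG.hz_iff9.2 (h.1 a), fun e he => DG.hz_iff9.2 (h.2 e he a)⟩,
    fun h => ⟨fun a => DG.hz_iff9.1 (h a).1, fun e he a => DG.hz_iff9.1 ((h a).2 e he)⟩⟩

theorem TT_cl {i : G.I} (hi : i ∈ G.J) (X : DG (toGr G)) : TT G i X.p.cl = (X.T ⟨i, hi⟩).p.cl := by
  rw [TT_eq hi, Obj.T_cl]

theorem TT_inv_cl {i : G.I} (hi : i ∈ G.J) (X : DG (toGr G)) : (TT G i)⁻¹ X.p.cl = (X.S ⟨i, hi⟩).p.cl := by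
  rw [TT_eq hi, Obj.T_inv_cl]

theorem le_pair {i j : G.I} {m : ℤ} {x : XX G} :
    G.Le (hh G) {i, j} m x ↔ G.Le (hh G) {i} m x ∧ G.Le (hh G) {j} m x := by
  simp only [P.Gr.Le, Set.mem_insert_iff, Set.mem_singleton_iff, forall_eq_or_imp, forall_eq]
  exact ⟨fun h => ⟨fun n hn => (h n hn).1, fun n hn => (h n hn).2⟩, fun h n hn => ⟨h.1 n hn, h.2 n hn⟩⟩

variable (G)

theorem down_G : ∀ i ∈ G.J, ∀ m x, G.Le (hh G) {i} m x → (∀ n, m < n → hh G ((TT G i)⁻¹ x) n i = 0) ∧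
    ∑ j, G.ne i j * hh G x m j ≤ hh G x m i + hh G ((TT G i)⁻¹ x) m i := by
  intro i hi m x h
  obtain ⟨X, rfl⟩ := exists_rep x
  rw [le_cl] at h
  rw [TT_inv_cl hi, sum_ne]
  refine ⟨fun n hn => (hh_eq_zero _ _ _).2 fun a => (Obj.ac_cl _ _ _ _).2 ?_, X.down_ineq ⟨i, hi⟩ m⟩
  exact DG.hz_iff9.1 (X.hz_S_self ⟨i, hi⟩ (h n hn _).2 (h _ (by omega) _).1)

theorem sur_refl_G : ∀ m x, surG G m x x := fun m _ _ _ h1 h2 => surD_of_cl_eq m (h1.trans h2.symm)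

theorem sur_trans_G : ∀ m x y z, surG G m x y → surG G m y z → surG G m x z := by
  intro m x y z h1 h2 X Z hX hZ
  obtain ⟨Y, hY⟩ := exists_rep y
  exact (h1 X _ hX hY).trans (h2 _ Z hY hZ)

theorem sur_le_G : ∀ m x y, surG G m x y → ∀ i, hh G y m i ≤ hh G x m i := by
  intro m x y h i
  obtain ⟨X, rfl⟩ := exists_rep x
  obtain ⟨Y, rfl⟩ := exists_rep y
  obtain ⟨R, hR⟩ := surO_cl.1 h
  exact Obj.h_le fun a => hR.hd_le i a

theorem sur_down_G : ∀ i ∈ G.J, ∀ m x y, G.Le (hh G) {i} m x → G.Le (hh G) {i} m y → surG G m x y →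
    surG G m ((TT G i)⁻¹ x) ((TT G i)⁻¹ y) := by
  intro i hi m x y hx hy h
  obtain ⟨X, rfl⟩ := exists_rep x
  obtain ⟨Y, rfl⟩ := exists_rep y
  rw [TT_inv_cl hi, TT_inv_cl hi]
  exact surO_cl.2 (DG.surD_S ⟨i, hi⟩ (le_cl.1 hx) (le_cl.1 hy) (surO_cl.1 h))

theorem sur_alw_G : ∀ i ∈ G.J, ∀ m x y, G.Le (hh G) {i} m x → G.Le (hh G) {i} m y → surG G m x y →
    G.Le (hh G) {i} m (TT G i x) → G.Le (hh G) {i} m (TT G i y) := by
  intro i hi m x y hx hy h hT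
  obtain ⟨X, rfl⟩ := exists_rep x
  obtain ⟨Y, rfl⟩ := exists_rep y
  rw [TT_cl hi, le_cl] at hT ⊢
  obtain ⟨R, hR⟩ := surO_cl.1 h
  exact (DG.leD_T_iff ⟨i, hi⟩ (le_cl.1 hy)).2 (DG.onto_of_sur hR ((DG.leD_T_iff ⟨i, hi⟩ (le_cl.1 hx)).1 hT))

theorem fold_G : ∀ i ∈ G.J, ∀ m x, G.Le (hh G) {i} m x → G.Le (hh G) {i} m (TT G i x) →
    surG G m ((TT G i)⁻¹ x) x := by
  intro i hi m x hx hT
  obtain ⟨X, rfl⟩ := exists_rep x
  rw [TT_cl hi, le_cl] at hT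
  rw [TT_inv_cl hi]
  exact surO_cl.2 (DG.surD_fold ⟨i, hi⟩ ((DG.leD_T_iff ⟨i, hi⟩ (le_cl.1 hx)).1 hT))

theorem top3_G : ∀ i ∈ G.J, ∀ j ∈ G.J, G.ne i j = 1 → ∀ m x, G.Le (hh G) {i, j} m x →
    G.Le (hh G) {i, j} m (TT G i x) → G.Le (hh G) {i, j} m (TT G j x) →
    G.Le (hh G) {i, j} m (TT G j (TT G i x)) := by
  intro i hi j hj hne m x hx hi' hj'
  have hij : j ≠ i := by
    obtain ⟨e, h1, h2, -⟩ := ne_eq_one hne
    rw [← h1, ← h2]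
    exact G.noloop e
  have h1 : G.Le (hh G) {j} m (TT G j (TT G i x)) := by
    obtain ⟨X, rfl⟩ := exists_rep x
    have h2 := (le_pair.1 hi').2
    have h3 := (le_pair.1 hj').2
    rw [TT_cl hj, le_cl] at h3
    rw [TT_cl hi, le_cl] at h2
    rw [TT_cl hi, TT_cl hj, le_cl]
    exact (DG.leD_T_iff ⟨j, hj⟩ h2).2
      (DG.onto_T_ne ⟨i, hi⟩ hij ((DG.leD_T_iff ⟨j, hj⟩ (le_cl.1 (le_pair.1 hx).2)).1 h3))
  refine le_pair.2 ⟨fun n hn k hk => ?_, h1⟩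
  rw [Set.mem_singleton_iff.1 hk]
  have h4 := (le_pair.1 hi').1 n hn i rfl
  refine ⟨by rw [loc_hh j hj i hij.symm]; exact h4.1, fun k hk => ?_⟩
  by_cases hkj : k = j
  · rw [hkj]; exact (h1 n hn j rfl).1
  · rw [loc_hh j hj k hkj]; exact h4.2 k hk

theorem exact_G : ∀ i ∈ G.J, ∀ m x, G.Le (hh G) {i} m x → G.Le (hh G) {i} m (TT G i x) →
    hh G ((TT G i)⁻¹ x) m i = hh G x m i → 2 * hh G x m i = ∑ j, G.ne i j * hh G x m j →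
    surG G m (TT G i x) x := by
  intro i hi m x hx hT h1 h2
  obtain ⟨X, rfl⟩ := exists_rep x
  rw [TT_cl hi, le_cl] at hT
  rw [TT_inv_cl hi] at h1
  rw [sum_ne] at h2
  rw [TT_cl hi]
  exact surO_cl.2 (DG.surD_exact (s := ⟨i, hi⟩) (le_cl.1 hx) ((DG.leD_T_iff ⟨i, hi⟩ (le_cl.1 hx)).1 hT) h1 h2)

end Crest.Agent.R175.Mod
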